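import Crest.Agent.H4.ZL.Z9

/-! Classification of the essential valuations and the main theorem. -/

namespace Crest.Agent.H4.ZL

variable {F : Type} [Field F] [Algebra ℂ F] [CharZero F]

theorem exists_ell {V : ValuationSubring F} (hC : ∀ c : ℂ, algebraMap ℂ F c ∈ V) {w x : F}
    (hx : x ∈ V) (hy : w * x ∈ V) (h : V.valuation (x ^ 4 * phi w) < 1) :
    ∃ ν, V.valuation (x * nn w ν) < 1 := by
  by_contra hcon
  push Not at hcon
  have h1 : ∀ ν, V.valuation (x * nn w ν) = 1 := fun ν =>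
    le_antisymm (vle.2 (ell_mem (A := vAlg V hC) hx hy ν)) (hcon ν)
  have : x ^ 4 * phi w = x * nn w 0 * (x * nn w 1) * (x * nn w 2) * (x * nn w 3) := by
    rw [phi]; ring
  rw [this, map_mul, map_mul, map_mul, h1, h1, h1, h1] at h
  simp at h

namespace Data
variable {τ w : F} {D : Data τ w} (h : Chart τ w) {η : Fin 2 → Derivation ℂ F F} (hη : D.IsEta η)
include h hη

theorem eta_x (i : Fin 2) : η i τ⁻¹ / τ ^ 7 = -τ⁻¹ * (τ⁻¹ ^ 8 * D.Qh i) +
    τ⁻¹ ^ 3 * dphi w * (τ⁻¹ ^ 5 * D.Rh i) := by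
  have := h.ne_zero
  rw [Derivation.leibniz_inv, hη.hτ, smul_eq_mul]; field_simp; ring

theorem eta_y (i : Fin 2) : η i (w * τ⁻¹) / τ ^ 7 = -(w * τ⁻¹) * (τ⁻¹ ^ 8 * D.Qh i) +
    τ⁻¹ ^ 3 * (w * dphi w - 4 * phi w) * (τ⁻¹ ^ 5 * D.Rh i) := by
  have := h.ne_zero
  rw [Derivation.leibniz, Derivation.leibniz_inv, hη.hτ, hη.hw]
  simp only [smul_eq_mul]; field_simp; ring

theorem det_O : (η 0 τ⁻¹ * η 1 (w * τ⁻¹) - η 0 (w * τ⁻¹) * η 1 τ⁻¹) / (τ ^ 7 * τ ^ 7) =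
    ((4 : ℚ) : F) * (τ⁻¹ ^ 4 * phi w) * (τ⁻¹ ^ 13 * D.Γ) := by
  have := h.ne_zero
  simp only [Derivation.leibniz, Derivation.leibniz_inv, hη.hτ, hη.hw, smul_eq_mul, Γ]
  push_cast
  field_simp; ring

theorem caseO {V : ValuationSubring F} (hV : Ess (icl (Algebra.adjoin ℂ D.gens)) V)
    (hx : τ⁻¹ ∈ V) (hy : w * τ⁻¹ ∈ V) : Good (2 * D.L) (D.Θ 0) (D.Θ 1) (η 0) (η 1) V := by
  have hC := hV.hC
  have hτ0 := h.ne_zero
  have hG0 := D.G_ne h
  have hgen : ∀ u ∈ D.gens, u ∈ V := fun u hu => hV.1 _ (le_icl _ (Algebra.subset_adjoin hu))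
  have hO : ∀ {a}, a ∈ Ad τ⁻¹ (w * τ⁻¹) → a ∈ V := Ad_V hC hx hy
  have hGG := D.hGG hτ0 (D.Pg_ne h)
  have hf : τ⁻¹ ^ 4 * phi w ∈ Ad τ⁻¹ (w * τ⁻¹) := by
    have : τ⁻¹ ^ 4 * phi w = τ⁻¹ * nn w 0 * (τ⁻¹ ^ 3 * phn w 0) := by rw [phi_eq w 0]; ring
    rw [this]
    exact mul_mem (ell_mem (Ad_left _ _) (Ad_right _ _) _) (phn_O (Ad_left _ _) (Ad_right _ _) _)
  have shape : V.valuation (τ⁻¹ ^ 196 * D.G) = 1 → ∀ u ∈ D.gens, ∃ b ∈ Ad τ⁻¹ (w * τ⁻¹),
      V.valuation b = 1 ∧ ∃ s ∈ Ad τ⁻¹ (w * τ⁻¹), b * u = τ⁻¹ ^ 4 * phi w * s := by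
    intro vG u hu
    obtain ⟨e, num, rfl, -, ⟨s, hs, e1⟩, -⟩ := D.gens_shape h hu
    refine ⟨_, pow_mem hGG.memO e, by rw [map_pow, vG, one_pow], s, hs, ?_⟩
    rw [← e1, mul_pow, ← pow_mul]; field_simp
  have trans : V.valuation (τ⁻¹ ^ 196 * D.G) = 1 → Ess (Ad τ⁻¹ (w * τ⁻¹)) V := fun vG =>
    h.O.transfer hV hx hy fun u hu => by
      obtain ⟨b, hb, vb, s, hs, e⟩ := shape vG u hu
      exact ⟨b, hb, vb, e ▸ mul_mem hf hs⟩
  by_cases hvf : V.valuation (τ⁻¹ ^ 4 * phi w) < 1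
  · obtain ⟨ν, hν⟩ := exists_ell hC hx hy hvf
    by_cases hb : ∃ g, V.valuation (τ⁻¹ ^ D.dg ν g * D.Pg ν g) < 1
    · obtain ⟨g, hg⟩ := hb
      obtain ⟨s, hs, e⟩ := D.Pg_rev ν g
      have vx : V.valuation τ⁻¹ = 1 := v_eq_one hx fun hlt => by
        rw [e, v_add_of_lt (map_one _) (v_mul_lt hlt (A1_V hC hx hs))] at hg
        exact lt_irrefl _ hg
      have hτ : τ ∈ V := by simpa using inv_mem_of_v vx
      have hw : w ∈ V := by
        have := mul_mem hy hτ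
        rwa [inv_mul_cancel_right₀ hτ0] at this
      rw [map_mul, vx, one_mul] at hν
      rw [map_mul, map_pow, vx, one_pow, one_mul] at hg
      exact blown h hη hV hτ hw hν hg
    · exfalso
      push Not at hb
      have h1 : ∀ g, V.valuation (τ⁻¹ ^ D.dg ν g * D.Pg ν g) = 1 := fun g =>
        le_antisymm (vle.2 (A1_V hC hx (D.Pg_revX ν g))) (hb g)
      have vG : V.valuation (τ⁻¹ ^ 196 * D.G) = 1 := by
        obtain ⟨s, hs, e⟩ := hGG.resO ν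
        rw [e]
        refine v_add_of_lt ?_ (v_mul_lt hν (hO hs))
        have hd : D.dg ν 0 * D.mt ν 0 + D.dg ν 1 * D.mt ν 1 + D.dg ν 2 * D.mt ν 2 = 196 := D.hdeg ν
        rw [mul_left_comm, ← hd, PP_deg, map_mul, vrat hC (D.κ'0 ν),
          v_PP (g := 0) (fun g _ => h1 g), h1, one_pow, one_mul]
      have hc := const_mod hV fun u hu => by
        obtain ⟨b, hb, vb, s, hs, e⟩ := shape vG u hu
        have := v_mul_lt hvf (hO hs)
        rwa [← e, map_mul, vb, one_mul] at this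
      obtain ⟨ρ, hρ⟩ := hc _ hx
      obtain ⟨ρ', hρ'⟩ := hc _ hy
      exact h.O.nv (trans vG) hρ hρ'
  · have vf := v_eq_one (hO hf) hvf
    have vG : V.valuation (τ⁻¹ ^ 196 * D.G) = 1 := v_eq_one (hO hGG.memO) fun hlt => by
      have h1 := v_mul_lt hlt (hgen (phi w ^ 2 * τ ^ 188 / D.G) (Or.inl (by simp)))
      have : τ⁻¹ ^ 196 * D.G * (phi w ^ 2 * τ ^ 188 / D.G) = (τ⁻¹ ^ 4 * phi w) ^ 2 := by
        field_simp
      rw [this, map_pow, vf] at h1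
      simp at h1
    have hE := trans vG
    have eG : τ⁻¹ ^ 196 * D.G = τ⁻¹ ^ 91 * D.Gh 0 * (τ⁻¹ ^ 91 * D.Gh 1) * (τ⁻¹ ^ 13 * D.Γ) := by
      rw [G]; field_simp
    rw [eG] at vG
    obtain ⟨v01, v2⟩ := unit_of_mul (hO (mul_mem (D.hG 0).memO (D.hG 1).memO))
      (hO (D.hΓ (D.Pg_ne h)).memO) vG.ge
    obtain ⟨v0, v1⟩ := unit_of_mul (hO (D.hG 0).memO) (hO (D.hG 1).memO) v01.ge
    have hπ : V.valuation τ ≠ 0 := (map_ne_zero _).2 hτ0
    have conv : ∀ (d : ℕ) (a : F), V.valuation (τ⁻¹ ^ d * a) = 1 →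
        V.valuation a = V.valuation τ ^ d := fun d a ha => by
      rw [map_mul, map_pow, map_inv₀, inv_pow, inv_mul_eq_one₀ (pow_ne_zero _ hπ)] at ha
      exact ha.symm
    have vn : ∀ μ, V.valuation (nn w μ) = V.valuation τ ^ 1 := fun μ => conv 1 _ (by
      have : τ⁻¹ ^ 4 * phi w = τ⁻¹ ^ 1 * nn w μ * (τ⁻¹ ^ 3 * phn w μ) := by rw [phi_eq w μ]; ring
      rw [this] at vf
      exact (unit_of_mul (by rw [pow_one]; exact hO (ell_mem (Ad_left _ _) (Ad_right _ _) _))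
        (hO (phn_O (Ad_left _ _) (Ad_right _ _) _)) vf.ge).1)
    have vT : ∀ i, V.valuation (D.Θ i * (τ ^ 7) ^ (2 * D.L)) = 1 := fun i => by
      rw [← pow_zero (V.valuation τ)]
      refine D.vΘ hπ i (fun _ => 1) (fun _ => 91) (γ := 13) (l := 7) vn (fun j => ?_)
        (conv _ _ v2) (map_pow _ _ _) ?_
      · fin_cases j
        · exact conv _ _ v0
        · exact conv _ _ v1
      · have := D.hexpO i
        omega
    have hd : ∀ i, ∀ c ∈ V, η i c / τ ^ 7 ∈ V := fun i => hE.der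
      (by
        rw [eta_x h hη]
        exact hO (add_mem (mul_mem (neg_mem (Ad_left _ _)) (D.hQ i).memO)
          (mul_mem (dphi_O (Ad_left _ _) (Ad_right _ _)) (D.hR i).memO)))
      (by
        rw [eta_y h hη]
        exact hO (add_mem (mul_mem (neg_mem (Ad_right _ _)) (D.hQ i).memO)
          (mul_mem (euler_O (Ad_left _ _) (Ad_right _ _)) (D.hR i).memO)))
    refine good_unram hC (by have := D.hL; omega) (pow_ne_zero _ hτ0) (pow_ne_zero _ hτ0) (hd 0)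
      (hd 1) (vT 0) (vT 1) hx hy ?_
    rw [det_O h hη, map_mul, map_mul, vrat hC (by norm_num), vf, v2]; simp

theorem classify {V : ValuationSubring F} (hV : Ess (icl (Algebra.adjoin ℂ D.gens)) V) :
    Good (2 * D.L) (D.Θ 0) (D.Θ 1) (η 0) (η 1) V := by
  have hC := hV.hC
  have hτ0 := h.ne_zero
  have hw0 := h.symm.ne_zero
  have hG0 := D.G_ne h
  have hgen : ∀ u ∈ D.gens, u ∈ V := fun u hu => hV.1 _ (le_icl _ (Algebra.subset_adjoin hu))
  have pτ : 0 < V.valuation τ := zero_lt_iff.2 ((map_ne_zero _).2 hτ0)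
  by_cases h3 : 1 < V.valuation w ∧ V.valuation τ < V.valuation w
  · exfalso
    have v1 : V.valuation w⁻¹ < 1 := by rw [map_inv₀]; exact inv_lt_one_of_one_lt₀ h3.1
    have v2 : V.valuation (τ / w) < 1 := by
      rw [map_div₀]; exact (div_lt_one₀ (zero_lt_one.trans h3.1)).2 h3.2
    have m1 := vle.1 v1.le
    have m2 := vle.1 v2.le
    have b := (((D.hG 0).mul (D.hG 1)).mul (D.hΓ (D.Pg_ne h))).bd V hC m1 m2
    have h1 := v_mul_lt (v_mul_lt' b v2) (hgen (phi w ^ 2 * w ^ 188 / D.G) (Or.inl (by simp)))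
    have : D.Gh 0 * D.Gh 1 * D.Γ / w ^ (91 + 91 + 13) * (τ / w) * (phi w ^ 2 * w ^ 188 / D.G) =
        (w⁻¹ ^ 4 * phi w) ^ 2 := by
      have e : D.Gh 0 * D.Gh 1 * D.Γ = D.G / τ := by rw [G]; field_simp
      rw [e]; field_simp
    rw [this, map_pow, pow_lt_one_iff two_ne_zero] at h1
    obtain ⟨ν, hν⟩ := exists_ell hC m1 (by rw [mul_inv_cancel₀ hw0]; exact one_mem _) h1
    have : w⁻¹ * nn w ν = 1 + w⁻¹ * ((-Pn ν : ℚ) : F) := by rw [nn]; push_cast; field_simp; ring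
    rw [this, v_add_of_lt (map_one _) (v_mul_lt v1 (rat_memV hC _))] at hν
    exact lt_irrefl _ hν
  by_cases hτ : V.valuation τ < 1
  · have hw : w ∈ V := by
      rw [← vle]
      by_contra hcon
      exact h3 ⟨not_le.1 hcon, hτ.trans (not_le.1 hcon)⟩
    have hτV := vle.1 hτ.le
    have vG : V.valuation D.G < 1 := v_mul_lt' (Ad_V hC hτV hw
      (((D.hG 0).mul (D.hG 1)).mul (D.hΓ (D.Pg_ne h))).memI) hτ
    have h1 := v_mul_lt vG (hgen (phi w ^ 2 * 1 / D.G) (Or.inl (by simp)))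
    have : D.G * (phi w ^ 2 * 1 / D.G) = (1 ^ 4 * phi w) ^ 2 := by field_simp
    rw [this, map_pow, pow_lt_one_iff two_ne_zero] at h1
    obtain ⟨ν, hν⟩ := exists_ell hC (one_mem _) (by rwa [mul_one]) h1
    rw [one_mul] at hν
    exact blown h hη hV hτV hw hν (g := D.z ν) (by rwa [D.hz])
  · rw [not_lt] at hτ
    refine caseO h hη hV (vle.1 (by rw [map_inv₀]; exact inv_le_one_of_one_le₀ hτ)) (vle.1 ?_)
    rw [← div_eq_mul_inv, map_div₀, div_le_one₀ pτ]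
    by_contra hcon
    exact h3 ⟨hτ.trans_lt (not_le.1 hcon), not_le.1 hcon⟩

theorem main :
    ∃ (A : Type) (_ : CommRing A) (_ : Algebra ℂ A),
      IsDomain A ∧ Algebra.FiniteType ℂ A ∧ IsIntegrallyClosed A ∧
      ringKrullDim A = 2 ∧
      Nonempty (Derivation ℂ A A ≃ₗ[A] (Fin 2 → A)) ∧
      ∃ (m : Ideal A) (_ : m.IsMaximal), ¬ IsRegularLocalRing (Localization.AtPrime m) := by
  have hτ0 := h.ne_zero
  have hG0 := D.G_ne h
  have hφ := h.phi_ne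
  obtain ⟨V, hV, hv, hlog⟩ := h.A.exists_log
  have hC := hV.hC
  have hτ : τ ∈ V := hV.1 _ (Ad_right _ _)
  have hw : w ∈ V := by
    have := add_mem (hV.1 _ (Ad_left _ _)) (rat_memV hC (Pn 0))
    simpa [nn] using this
  have hI : ∀ {a}, a ∈ Ad τ w → a ∈ V := Ad_V hC hτ hw
  have unit : ∀ {δ a p}, Pl τ w δ a p → p 0 ≠ 0 → V.valuation a = 1 := by
    intro δ a p ha hp
    obtain ⟨s, hs, e⟩ := ha.resI 0
    rw [e]
    exact v_add_of_lt (h.A.unit_A1 hV hv (ha.memT 0) hp) (v_mul_lt hv (hI hs))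
  have vG : V.valuation D.G = 1 := unit (D.hGG hτ0 (D.Pg_ne h))
    (mul_ne_zero (Rat.cast_ne_zero.2 (D.κ'0 0)) (PP_ne (D.Pg_ne h 0) _))
  have hl : ∀ i, ∀ M ∈ V, M ≠ 0 → V.valuation (D.Θ i * M * ld (η i) M ^ (2 * D.L)) < 1 := by
    intro i M hM hM0
    refine v_mul_lt (v_mul_lt ?_ hM) (pow_mem (hlog _ ?_ ?_ M hM0) _)
    · have := D.vΘ (V := V) (π := V.valuation (nn w 0)) ((map_ne_zero _).2 (h.nn_ne 0)) i
        (fun μ => if μ = 0 then 1 else 0) (fun _ => 0) (γ := 0) (l := 0) (N := 0) (ε := D.e i 0)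
        (lam := 1) (fun μ => by
          by_cases hμ : μ = 0
          · simp [hμ]
          · simp [hμ, v_nn_other hC hv hμ])
        (fun j => by rw [pow_zero]; exact unit (D.hG j) (PP_ne (D.Pg_ne h 0) _))
        (by
          rw [pow_zero]
          exact unit (D.hΓ (D.Pg_ne h))
            (mul_ne_zero (Rat.cast_ne_zero.2 (D.κ'0 0)) (PP_ne (D.Pg_ne h 0) _)))
        (by simp) (by simp)
      rw [pow_zero, mul_one] at this
      rw [this]
      exact (pow_lt_one_iff (D.e0 i)).2 hv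
    · have : ld (η i) (nn w 0) = ((-4 : ℚ) : F) * phn w 0 * D.Rh i := by
        have := h.nn_ne 0
        rw [ld, eta_nn hη, phi_eq w 0]; push_cast; field_simp
      rw [this]
      exact hI (mul_mem (mul_mem (rat_mem _ _) (phn_mem (Ad_right _ _) _)) (D.hR i).memI)
    · rw [hη.hτ]
      exact hI (sub_mem (D.hQ i).memI (mul_mem (mul_mem (Ad_left _ _) (dphi_mem (Ad_right _ _)))
        (D.hR i).memI))
  have g1 : phi w ^ 2 * τ ^ 187 / D.G ≠ 0 := by positivity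
  refine kummer h.gen h.tr (Algebra.adjoin ℂ D.gens) (Subalgebra.fg_def.2 ⟨_, ?_, rfl⟩)
    (frac_of h _ ⟨_, Algebra.subset_adjoin (Or.inl (Or.inl rfl)), _,
      Algebra.subset_adjoin (Or.inl (Or.inr (Or.inl rfl))), g1, by ring⟩
      ⟨_, Algebra.subset_adjoin (Or.inl (Or.inr (Or.inr (Or.inl rfl)))), _,
      Algebra.subset_adjoin (Or.inl (Or.inr (Or.inl rfl))), g1, by ring⟩)
    (N := 2 * D.L) (by have := D.hL; omega) (D.Θ_ne h 0) (D.Θ_ne h 1) (η 0) (η 1) ?_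
    (fun V hV => classify h hη hV) V (fun b hb => ?_) (hl 0) (hl 1)
  · exact (Set.toFinite _).union (Set.finite_range _)
  · have : η 0 τ * η 1 w - η 0 w * η 1 τ = -4 * phi w * D.Γ := by
      simp only [hη.hτ, hη.hw, Γ]; ring
    rw [this]
    exact mul_ne_zero (mul_ne_zero (by norm_num) hφ) (D.Γ_ne h)
  · refine Algebra.adjoin_le (S := vAlg V hC) (fun u hu => ?_) hb
    obtain ⟨e, num, rfl, hn, -⟩ := D.gens_shape h hu
    exact div_mem_of_v (hI hn) (by rw [map_pow, vG, one_pow])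

end Data

end Crest.Agent.H4.ZL
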