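import Crest.Agent.H4.ZL.Z11

/-! The rational function field and the final statement. -/

namespace Crest.Agent.H4.ZL

open scoped nonZeroDivisors

theorem exists_chart : ∃ (F : Type) (_ : Field F) (_ : Algebra ℂ F) (τ w : F), Chart τ w ∧
    ∀ a b : F, ∃ η : Derivation ℂ F F, η τ = a ∧ η w = b := by
  let P := MvPolynomial (Fin 2) ℂ
  let F := FractionRing P
  refine ⟨F, inferInstance, inferInstance, algebraMap P F (MvPolynomial.X 0),
    algebraMap P F (MvPolynomial.X 1), ⟨fun c => ?_, ?_⟩, fun a b => ?_⟩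
  · have key : ∀ p : P, algebraMap P F p ∈
        Ad (algebraMap P F (MvPolynomial.X 0)) (algebraMap P F (MvPolynomial.X 1)) := by
      intro p
      induction p using MvPolynomial.induction_on with
      | C a => exact Subalgebra.algebraMap_mem _ a
      | add p q hp hq => rw [map_add]; exact add_mem hp hq
      | mul_X p n hp =>
        rw [map_mul]
        refine mul_mem hp ?_
        fin_cases n
        · exact Ad_left _ _
        · exact Ad_right _ _
    obtain ⟨a, b, hb, rfl⟩ := IsFractionRing.div_surjective (A := P) c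
    have hb0 : algebraMap P F b ≠ 0 := IsFractionRing.to_map_ne_zero_of_mem_nonZeroDivisors hb
    exact ⟨_, key a, _, key b, hb0, div_mul_cancel₀ _ hb0⟩
  · haveI : Algebra.IsAlgebraic P F := IsLocalization.isAlgebraic F P⁰
    have h1 := trdeg_add_eq ℂ P (A := F)
    rw [trdeg_eq_zero (R := P) (A := F), add_zero, MvPolynomial.trdeg_of_isDomain] at h1
    rw [← h1]; simp
  · haveI := Algebra.FormallyEtale.of_isLocalization (Rₘ := F) P⁰
    obtain ⟨η, hη⟩ := extend_der (S := P) (T := F) (MvPolynomial.mkDerivation ℂ ![a, b])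
    exact ⟨η, by rw [hη, MvPolynomial.mkDerivation_X]; rfl,
      by rw [hη, MvPolynomial.mkDerivation_X]; rfl⟩

theorem zariski_lipman :
    ∃ (A : Type) (_ : CommRing A) (_ : Algebra ℂ A),
      IsDomain A ∧ Algebra.FiniteType ℂ A ∧ IsIntegrallyClosed A ∧
      ringKrullDim A = 2 ∧
      Nonempty (Derivation ℂ A A ≃ₗ[A] (Fin 2 → A)) ∧
      ∃ (m : Ideal A) (_ : m.IsMaximal), ¬ IsRegularLocalRing (Localization.AtPrime m) := by
  obtain ⟨F, _, _, τ, w, h, hd⟩ := exists_chart
  haveI : CharZero F := charZero_of_injective_algebraMap (algebraMap ℂ F).injective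
  let D : Data τ w := data h.ne_zero h.symm.ne_zero
  choose η h1 h2 using fun i => hd (D.Qh i - τ * dphi w * D.Rh i) (-4 * phi w * D.Rh i)
  exact Data.main (D := D) h (η := η) ⟨h1, h2⟩

end Crest.Agent.H4.ZL
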