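import Crest.Agent.H4.ZL.Z1

/-! Integrality toolbox. -/

namespace Crest.Agent.H4.ZL

open scoped nonZeroDivisors
open Polynomial

section Int
variable {F K : Type} [Field F] [Field K] [Algebra F K]

/-- integrality over a subring of the base field -/
def II (S : Subring F) (a : K) : Prop := IsIntegral S a

theorem II_iff {S : Subring F} {a : K} :
    II S a ↔ ∃ p : F[X], p.Monic ∧ (∀ i, p.coeff i ∈ S) ∧ aeval a p = 0 := by
  constructor
  · rintro ⟨p, hp, ha⟩
    refine ⟨p.map S.subtype, hp.map _, fun i => by rw [coeff_map]; exact (p.coeff i).2, ?_⟩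
    rw [aeval_def, eval₂_map]; exact ha
  · rintro ⟨p, hp, hc, ha⟩
    have hs : (↑p.coeffs : Set F) ⊆ S := fun c hc' => by
      obtain ⟨n, -, rfl⟩ := mem_coeffs_iff.1 hc'
      exact hc n
    refine ⟨p.toSubring S hs, (monic_toSubring p S hs).2 hp, ?_⟩
    rw [← map_toSubring p S hs, aeval_def, eval₂_map] at ha
    exact ha

theorem II.mono {S T : Subring F} (h : S ≤ T) {a : K} (ha : II S a) : II T a := by
  obtain ⟨p, h1, h2, h3⟩ := II_iff.1 ha
  exact II_iff.2 ⟨p, h1, fun i => h (h2 i), h3⟩

theorem II.add {S : Subring F} {a b : K} (ha : II S a) (hb : II S b) : II S (a + b) :=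
  IsIntegral.add ha hb

theorem II.sub {S : Subring F} {a b : K} (ha : II S a) (hb : II S b) : II S (a - b) :=
  IsIntegral.sub ha hb

theorem II.mul {S : Subring F} {a b : K} (ha : II S a) (hb : II S b) : II S (a * b) :=
  IsIntegral.mul ha hb

theorem II.zero {S : Subring F} : II S (0 : K) := isIntegral_zero

theorem II.alg {S : Subring F} {c : F} (hc : c ∈ S) : II S (algebraMap F K c) :=
  isIntegral_algebraMap (R := S) (x := ⟨c, hc⟩)

theorem II.of_pow {S : Subring F} {a : K} {n : ℕ} (hn : n ≠ 0) (h : II S (a ^ n)) : II S a :=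
  IsIntegral.of_pow (Nat.pos_of_ne_zero hn) h

theorem II.pow {S : Subring F} {a : K} (n : ℕ) (h : II S a) : II S (a ^ n) :=
  IsIntegral.pow h n

theorem II.of_alg {S : Subring F} {c : F} (h : II S (algebraMap F K c)) : II S c := by
  obtain ⟨p, h1, h2, h3⟩ := II_iff.1 h
  refine II_iff.2 ⟨p, h1, h2, ?_⟩
  rw [aeval_algebraMap_apply] at h3
  exact (algebraMap F K).injective (by rw [h3, map_zero])

theorem II.val {V : ValuationSubring F} {c : F} (h : II V.toSubring c) : c ∈ V := by
  have : IsIntegral V c := h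
  obtain ⟨y, hy⟩ := (IsIntegrallyClosed.isIntegral_iff (R := V) (K := F)).1 this
  rw [← hy]; exact y.2

theorem II.map {S : Subring F} {a : K} (h : II S a) (σ : K ≃ₐ[F] K) : II S (σ a) := by
  obtain ⟨p, h1, h2, h3⟩ := II_iff.1 h
  refine II_iff.2 ⟨p, h1, h2, ?_⟩
  rw [aeval_algHom_apply, h3, map_zero]

/-- Clearing denominators. -/
theorem II.clear {S W : Subring F} (M : Submonoid F) (hM : ∀ b ∈ M, b ∈ S)
    (hW : ∀ c ∈ W, ∃ b ∈ M, b * c ∈ S) {a : K} (ha : II W a) :
    ∃ b ∈ M, II S (algebraMap F K b * a) := by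
  obtain ⟨p, h1, h2, h3⟩ := II_iff.1 ha
  choose b hb hb' using fun i => hW _ (h2 i)
  refine ⟨∏ i ∈ Finset.range p.natDegree, b i, M.prod_mem fun i _ => hb i, II_iff.2
    ⟨p.scaleRoots _, (monic_scaleRoots_iff _).2 h1, fun i => ?_, scaleRoots_aeval_eq_zero h3⟩⟩
  rw [coeff_scaleRoots]
  rcases lt_trichotomy i p.natDegree with h | h | h
  · obtain ⟨e, he⟩ : ∃ e, p.natDegree - i = e + 1 := ⟨p.natDegree - i - 1, by omega⟩
    rw [he, pow_succ', ← Finset.mul_prod_erase _ _ (Finset.mem_range.2 h), ← mul_assoc,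
      ← mul_assoc, mul_comm (p.coeff i)]
    refine S.mul_mem (S.mul_mem (hb' i) (S.prod_mem fun j _ => hM _ (hb j))) (S.pow_mem ?_ _)
    exact S.mul_mem (hM _ (hb i)) (S.prod_mem fun j _ => hM _ (hb j))
  · rw [h, h1.coeff_natDegree]; simp
  · rw [coeff_eq_zero_of_natDegree_lt h]; simp

theorem II.trans {S T : Subring F} (h : ∀ c ∈ T, II S c) (hST : S ≤ T) {a : K} (ha : II T a) :
    II S a := by
  letI : Algebra S T := (Subring.inclusion hST).toAlgebra
  haveI : IsScalarTower S T K := IsScalarTower.of_algebraMap_eq fun _ => rfl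
  haveI : IsScalarTower S T F := IsScalarTower.of_algebraMap_eq fun _ => rfl
  haveI : Algebra.IsIntegral S T := ⟨fun c =>
    (isIntegral_algebraMap_iff (R := S) (A := T) (B := F) Subtype.val_injective).1 (h c c.2)⟩
  exact isIntegral_trans (A := T) a ha

end Int

section Pack
variable {F K : Type} [Field F] [Field K] [Algebra F K] [Algebra ℂ F] [Algebra ℂ K]
  [IsScalarTower ℂ F K]

/-- The integral closure of a subalgebra of `F` in `K`. -/
noncomputable def iclK (K : Type) [Field K] [Algebra F K] [Algebra ℂ K] [IsScalarTower ℂ F K]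
    (B : Subalgebra ℂ F) : Subalgebra ℂ K :=
  (integralClosure B K).restrictScalars ℂ

theorem mem_iclK {B : Subalgebra ℂ F} {c : K} : c ∈ iclK K B ↔ II B.toSubring c := Iff.rfl

theorem mem_icl' {B : Subalgebra ℂ F} {c : F} : c ∈ icl B ↔ II B.toSubring c := Iff.rfl

attribute [local instance] FractionRing.liftAlgebra in
theorem normal_packK [FiniteDimensional F K] (B : Subalgebra ℂ F) (hfg : B.FG)
    (hfr : ∀ c : F, ∃ a ∈ B, ∃ b ∈ B, b ≠ 0 ∧ c * b = a) (htr : Algebra.trdeg ℂ F = 2) :
    Algebra.FiniteType ℂ (iclK K B) ∧ ringKrullDim (iclK K B) = 2 := by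
  haveI : Algebra.FiniteType ℂ B := (Subalgebra.fg_iff_finiteType B).1 hfg
  haveI := isFrac_of B hfr
  obtain ⟨s, g, hinj, hfin⟩ := exists_finite_inj_algHom_of_fg ℂ B
  set P := MvPolynomial (Fin s) ℂ with hP
  letI : Algebra P B := g.toRingHom.toAlgebra
  haveI : IsScalarTower ℂ P B := IsScalarTower.of_algebraMap_eq fun c => (g.commutes c).symm
  haveI : Module.Finite P B := hfin
  letI : Algebra P F := ((algebraMap B F).comp g.toRingHom).toAlgebra
  haveI : IsScalarTower P B F := IsScalarTower.of_algebraMap_eq fun c => rfl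
  haveI : IsScalarTower ℂ P F := IsScalarTower.of_algebraMap_eq fun c => by
    rw [IsScalarTower.algebraMap_apply P B F, ← IsScalarTower.algebraMap_apply ℂ P B,
      ← IsScalarTower.algebraMap_apply ℂ B F]
  haveI : FaithfulSMul P B := (faithfulSMul_iff_algebraMap_injective P B).2 hinj
  haveI : FaithfulSMul P F := (faithfulSMul_iff_algebraMap_injective P F).2
    ((FaithfulSMul.algebraMap_injective B F).comp hinj)
  haveI : Algebra.IsAlgebraic P B := Algebra.IsAlgebraic.of_finite P B
  haveI : Algebra.IsAlgebraic B F := IsLocalization.isAlgebraic F B⁰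
  haveI : Algebra.IsAlgebraic P F := Algebra.IsAlgebraic.trans P B F
  haveI : IsLocalization (Algebra.algebraMapSubmonoid B P⁰) F :=
    inferInstance
  haveI : FiniteDimensional (FractionRing P) F := .of_isLocalization P B P⁰
  haveI : CharZero (FractionRing P) := inferInstance
  letI : Algebra P K := ((algebraMap B K).comp g.toRingHom).toAlgebra
  haveI : IsScalarTower P B K := IsScalarTower.of_algebraMap_eq fun c => rfl
  haveI : IsScalarTower P F K := IsScalarTower.of_algebraMap_eq fun c => rfl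
  haveI : FaithfulSMul P K := (faithfulSMul_iff_algebraMap_injective P K).2
    ((algebraMap F K).injective.comp (FaithfulSMul.algebraMap_injective P F))
  haveI : IsScalarTower (FractionRing P) F K := IsScalarTower.of_algebraMap_eq' (by
    apply IsLocalization.ringHom_ext P⁰
    refine RingHom.ext fun a => ?_
    simp only [RingHom.comp_apply]
    rw [← IsScalarTower.algebraMap_apply, ← IsScalarTower.algebraMap_apply,
        ← IsScalarTower.algebraMap_apply])
  haveI : FiniteDimensional (FractionRing P) K := Module.Finite.trans F K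
  -- the closure
  let C := integralClosure B K
  letI : Algebra P C := ((algebraMap B C).comp g.toRingHom).toAlgebra
  haveI : IsScalarTower P B C := IsScalarTower.of_algebraMap_eq fun c => rfl
  haveI : IsScalarTower P C K := IsScalarTower.of_algebraMap_eq fun c => rfl
  haveI : IsIntegralClosure C P K :=
    ⟨Subtype.val_injective, fun {x} => ⟨fun hx => ⟨⟨x, hx.tower_top⟩, rfl⟩, fun ⟨y, hy⟩ => by
      rw [← hy]; exact isIntegral_trans (A := B) _ y.2⟩⟩
  haveI : Module.Finite P C := IsIntegralClosure.finite P (FractionRing P) K C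
  haveI : IsScalarTower ℂ P K := IsScalarTower.of_algebraMap_eq fun c => by
    rw [IsScalarTower.algebraMap_apply P F K, ← IsScalarTower.algebraMap_apply ℂ P F,
      ← IsScalarTower.algebraMap_apply ℂ F K]
  haveI : IsScalarTower ℂ P C := IsScalarTower.of_algebraMap_eq fun c => by
    apply Subtype.ext
    exact IsScalarTower.algebraMap_apply ℂ P K c
  haveI : FaithfulSMul P C := (faithfulSMul_iff_algebraMap_injective P C).2 (by
    intro a b h
    apply FaithfulSMul.algebraMap_injective P K
    rw [IsScalarTower.algebraMap_apply P C K, h, ← IsScalarTower.algebraMap_apply P C K])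
  have hs : s = 2 := by
    have h1 := trdeg_add_eq ℂ P (A := F)
    rw [htr, trdeg_eq_zero (R := P) (A := F), add_zero, MvPolynomial.trdeg_of_isDomain] at h1
    simp at h1
    exact_mod_cast h1
  refine ⟨?_, ?_⟩
  · exact Algebra.FiniteType.trans (R := ℂ) (S := P) (A := C) inferInstance inferInstance
  · change ringKrullDim C = 2
    rw [krullDim_integral (R := P), MvPolynomial.ringKrullDim_of_isNoetherianRing,
      ringKrullDim_eq_zero_of_field, hs]
    simp

theorem icl_closed (B : Subalgebra ℂ F) {a : K} (ha : II (icl B).toSubring a) :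
    II B.toSubring a :=
  II.trans (fun _ hc => hc) (fun c hc => II.alg (K := F) hc) ha

theorem le_icl (B : Subalgebra ℂ F) {c : F} (hc : c ∈ B) : c ∈ icl B :=
  mem_icl'.2 (II.alg (K := F) (S := B.toSubring) hc)

/-- Glue A. -/
theorem glueA (R : Subalgebra ℂ F) [IsNoetherianRing R]
    (hfr : ∀ c : F, ∃ a ∈ R, ∃ b ∈ R, b ≠ 0 ∧ c * b = a)
    (hic : ∀ c : F, IsIntegral R c → c ∈ R) (a : K) (hF : IsIntegral F a)
    (h : ∀ V, Ess R V → II V.toSubring a) : II R.toSubring a := by
  refine II_iff.2 ⟨minpoly F a, minpoly.monic hF, fun i => ?_, minpoly.aeval F a⟩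
  refine mem_of_forall_ess R hfr hic _ fun V hV => ?_
  have h1 : IsIntegral V.toSubring a := h V hV
  haveI : IsIntegrallyClosed V.toSubring := inferInstanceAs (IsIntegrallyClosed V)
  haveI : IsFractionRing V.toSubring F := inferInstanceAs (IsFractionRing V F)
  rw [minpoly.isIntegrallyClosed_eq_field_fractions' F h1, coeff_map]
  exact ((minpoly V.toSubring a).coeff i).2

/-- Glue B. -/
theorem glueB {R : Subalgebra ℂ F} {V : ValuationSubring F} (hV : Ess R V) {a : K}
    (ha : II V.toSubring a) :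
    ∃ b ∈ R, V.valuation b = 1 ∧ II R.toSubring (algebraMap F K b * a) := by
  let M : Submonoid F :=
    { carrier := {b | b ∈ R ∧ V.valuation b = 1}
      mul_mem' := fun ha hb => ⟨R.mul_mem ha.1 hb.1, by rw [map_mul, ha.2, hb.2, one_mul]⟩
      one_mem' := ⟨R.one_mem, map_one _⟩ }
  obtain ⟨b, hb, h⟩ := II.clear (S := R.toSubring) M (fun b hb => hb.1) (fun c hc => by
    obtain ⟨b, h1, h2, h3⟩ := hV.2 c hc
    exact ⟨b, ⟨h1, h2⟩, h3⟩) ha
  exact ⟨b, hb.1, hb.2, h⟩

end Pack

end Crest.Agent.H4.ZL
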