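import Crest.Agent.H4.ZL.Z2

/-! Kummer extensions: homogeneous decomposition of integral elements. -/

namespace Crest.Agent.H4.ZL

open scoped nonZeroDivisors
open Polynomial

section Kummer
variable {F K : Type} [Field F] [Field K] [Algebra F K] [Algebra ℂ F] [Algebra ℂ K]
  [IsScalarTower ℂ F K]

theorem root_unity {N : ℕ} (hN : N ≠ 0) {z : K} (hz : z ^ N = 1) :
    ∃ ζ : ℂ, z = algebraMap ℂ K ζ := by
  haveI : NeZero N := ⟨hN⟩
  have h := (Complex.isPrimitiveRoot_exp N hN).map_of_injective (algebraMap ℂ K).injective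
  obtain ⟨i, -, hi⟩ := h.eq_pow_of_pow_eq_one hz
  exact ⟨_, by rw [← hi, ← map_pow]⟩

theorem fix_C (σ : K ≃ₐ[F] K) (ζ : ℂ) : σ (algebraMap ℂ K ζ) = algebraMap ℂ K ζ := by
  rw [IsScalarTower.algebraMap_apply ℂ F K, AlgEquiv.commutes]

theorem eig_root {N : ℕ} (hN : N ≠ 0) {θ : K} {Θ : F} (h : θ ^ N = algebraMap F K Θ)
    (hΘ : Θ ≠ 0) (σ : K ≃ₐ[F] K) : ∃ ζ : ℂ, σ θ = algebraMap ℂ K ζ * θ := by
  have h0 : θ ≠ 0 := fun h0 => by
    rw [h0, zero_pow hN] at h
    exact hΘ ((algebraMap F K).injective (by rw [← h, map_zero]))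
  obtain ⟨ζ, hζ⟩ := root_unity hN (z := σ θ / θ) (by
    rw [div_pow, ← map_pow, h, AlgEquiv.commutes, div_self]
    rw [← h]; exact pow_ne_zero _ h0)
  exact ⟨ζ, by rw [← hζ]; field_simp⟩

/-- monomials -/
def Mon (F : Type) [Field F] [Algebra F K] (θ₁ θ₂ m : K) : Prop :=
  ∃ (c : F) (i j : ℕ), m = algebraMap F K c * θ₁ ^ i * θ₂ ^ j

theorem homog [FiniteDimensional F K] [IsGalois F K] {N : ℕ} (hN : N ≠ 0) {θ₁ θ₂ : K}
    {Θ₁ Θ₂ : F} (h₁ : θ₁ ^ N = algebraMap F K Θ₁) (h₂ : θ₂ ^ N = algebraMap F K Θ₂)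
    (hΘ₁ : Θ₁ ≠ 0) (hΘ₂ : Θ₂ ≠ 0) (htop : Algebra.adjoin F {θ₁, θ₂} = ⊤)
    (S : Subring F) (hS : ∀ c : ℂ, algebraMap ℂ F c ∈ S) (W : AddSubmonoid K)
    (hW : ∀ m, Mon F θ₁ θ₂ m → II S m → m ∈ W) (a : K) (ha : II S a) : a ∈ W := by
  have hSK : ∀ c : ℂ, II S (algebraMap ℂ K c) := fun c => by
    rw [IsScalarTower.algebraMap_apply ℂ F K]; exact II.alg (hS c)
  have eig : ∀ m, Mon F θ₁ θ₂ m → ∀ σ : K ≃ₐ[F] K, ∃ ζ : ℂ, σ m = algebraMap ℂ K ζ * m := by
    rintro m ⟨c, i, j, rfl⟩ σ
    obtain ⟨ζ₁, e₁⟩ := eig_root hN h₁ hΘ₁ σ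
    obtain ⟨ζ₂, e₂⟩ := eig_root hN h₂ hΘ₂ σ
    refine ⟨ζ₁ ^ i * ζ₂ ^ j, ?_⟩
    simp only [map_mul, map_pow, AlgEquiv.commutes, e₁, e₂]
    ring
  have mon0 : Mon F θ₁ θ₂ 0 := ⟨0, 0, 0, by simp⟩
  haveI : CharZero K := charZero_of_injective_algebraMap (algebraMap ℂ K).injective
  set n : ℕ := Fintype.card (K ≃ₐ[F] K) with hn
  have hn0 : (n : K) ≠ 0 := Nat.cast_ne_zero.2 Fintype.card_ne_zero
  have key : ∀ (k : ℕ) (l : List K), l.length ≤ k → (∀ m ∈ l, Mon F θ₁ θ₂ m) → II S l.sum →
      l.sum ∈ W := by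
    intro k
    induction k with
    | zero => 
      intro l hl _ _
      rw [List.length_eq_zero_iff.1 (Nat.le_zero.1 hl)]; exact W.zero_mem
    | succ k ih =>
      intro l hl hm hi
      cases l with
      | nil => exact W.zero_mem
      | cons m₀ l =>
        have hl' : l.length ≤ k := by simpa using hl
        have hm₀ : Mon F θ₁ θ₂ m₀ := hm m₀ (by simp)
        have hml : ∀ m ∈ l, Mon F θ₁ θ₂ m := fun m h => hm m (by simp [h])
        by_cases h0 : m₀ = 0
        · rw [List.sum_cons, h0, zero_add] at hi ⊢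
          exact ih l hl' hml hi
        let π : K →+ K :=
          { toFun := fun a => m₀ * ((∑ σ : K ≃ₐ[F] K, σ (a / m₀)) / n)
            map_zero' := by simp
            map_add' := fun a b => by
              simp only [add_div, map_add, Finset.sum_add_distrib]; ring }
        have hπ : ∀ a, π a = m₀ * ((∑ σ : K ≃ₐ[F] K, σ (a / m₀)) / n) := fun _ => rfl
        have hπM : ∀ a, Mon F θ₁ θ₂ (π a) := fun a => by
          obtain ⟨c, i, j, e⟩ := hm₀
          refine ⟨c * (Algebra.trace F K (a / m₀) / n), i, j, ?_⟩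
          rw [hπ, ← trace_eq_sum_automorphisms, map_mul, map_div₀ (algebraMap F K), map_natCast]
          generalize algebraMap F K (Algebra.trace F K (a / m₀)) = t
          rw [e]; ring
        have hπI : ∀ a, II S a → II S (π a) := fun a ha => by
          rw [hπ, ← mul_div_assoc, Finset.mul_sum, div_eq_mul_inv]
          refine II.mul (IsIntegral.sum _ fun σ _ => ?_) ?_
          · obtain ⟨ζ, e⟩ := eig m₀ hm₀ σ
            have : m₀ * σ (a / m₀) = σ a * algebraMap ℂ K ζ⁻¹ := by
              have hζ : algebraMap ℂ K ζ ≠ 0 := fun h => by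
                rw [h, zero_mul] at e
                exact h0 (σ.injective (by rw [e, map_zero]))
              rw [map_div₀, e, map_inv₀]; field_simp
            rw [this]
            exact II.mul (ha.map σ) (hSK _)
          · have := hSK ((n : ℂ)⁻¹)
            rwa [map_inv₀, map_natCast] at this
        have hπm : ∀ m, Mon F θ₁ θ₂ m → π m = m ∨ π m = 0 := fun m hm => by
          by_cases hq : ∀ σ : K ≃ₐ[F] K, σ (m / m₀) = m / m₀
          · left
            rw [hπ]; simp only [hq, Finset.sum_const, Finset.card_univ, nsmul_eq_mul, ← hn]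
            field_simp
          · right
            push Not at hq
            obtain ⟨ρ, hρ⟩ := hq
            obtain ⟨ζ, e⟩ := eig m hm ρ
            obtain ⟨ζ₀, e₀⟩ := eig m₀ hm₀ ρ
            have e' : ρ (m / m₀) = algebraMap ℂ K (ζ / ζ₀) * (m / m₀) := by
              rw [map_div₀, e, e₀, map_div₀]; ring
            have h1 : algebraMap ℂ K (ζ / ζ₀) ≠ 1 := fun h => hρ (by rw [e', h, one_mul])
            have h2 : (∑ σ : K ≃ₐ[F] K, σ (m / m₀)) =
                algebraMap ℂ K (ζ / ζ₀) * ∑ σ : K ≃ₐ[F] K, σ (m / m₀) := by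
              rw [Finset.mul_sum]
              conv_lhs => rw [← Equiv.sum_comp (Equiv.mulRight ρ)]
              refine Finset.sum_congr rfl fun σ _ => ?_
              rw [Equiv.coe_mulRight, AlgEquiv.mul_apply, e', map_mul, fix_C]
            have h3 : (∑ σ : K ≃ₐ[F] K, σ (m / m₀)) = 0 := by
              by_contra h
              exact h1 (mul_right_cancel₀ h (by rw [one_mul]; exact h2.symm))
            rw [hπ, h3]; simp
        have hπ0 : π m₀ = m₀ := by
          rw [hπ, div_self h0]; simp only [map_one, Finset.sum_const, Finset.card_univ,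
            nsmul_eq_mul, ← hn]
          field_simp
        have e : (m₀ :: l).sum = π (m₀ :: l).sum + (l.map fun m => m - π m).sum := by
          rw [map_list_sum, List.map_cons, List.sum_cons, List.sum_cons, hπ0]
          have : ∀ l : List K, (l.map π).sum + (l.map fun m => m - π m).sum = l.sum := by
            intro l
            induction l with
            | nil => simp
            | cons a l ih => simp only [List.map_cons, List.sum_cons]; rw [← ih]; ring
          rw [add_assoc, this]
        rw [e]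
        refine W.add_mem (hW _ (hπM _) (hπI _ hi)) (ih _ (by simpa using hl') ?_ ?_)
        · intro m hm
          obtain ⟨m', hm', rfl⟩ := List.mem_map.1 hm
          rcases hπm m' (hml m' hm') with h | h
          · rw [h, sub_self]; exact mon0
          · rw [h, sub_zero]; exact hml m' hm'
        · have : (l.map fun m => m - π m).sum = (m₀ :: l).sum - π (m₀ :: l).sum := by
            rw [eq_sub_iff_add_eq, add_comm]; exact e.symm
          rw [this]
          exact hi.sub (hπI _ hi)
  have hcl : a ∈ AddSubmonoid.closure {m | Mon F θ₁ θ₂ m} := by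
    have : a ∈ Algebra.adjoin F {θ₁, θ₂} := htop ▸ Algebra.mem_top
    clear ha
    induction this using Algebra.adjoin_induction with
    | mem x hx =>
      apply AddSubmonoid.subset_closure
      rcases hx with rfl | rfl
      · exact ⟨1, 1, 0, by simp⟩
      · exact ⟨1, 0, 1, by simp⟩
    | algebraMap r => exact AddSubmonoid.subset_closure ⟨r, 0, 0, by simp⟩
    | add x y _ _ hx hy => exact AddSubmonoid.add_mem _ hx hy
    | mul x y h1 h2 hx hy =>
      clear h1 h2
      induction hx using AddSubmonoid.closure_induction with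
      | zero => rw [zero_mul]; exact AddSubmonoid.zero_mem _
      | add a b _ _ ha hb => rw [add_mul]; exact AddSubmonoid.add_mem _ ha hb
      | mem a ha =>
        induction hy using AddSubmonoid.closure_induction with
        | zero => rw [mul_zero]; exact AddSubmonoid.zero_mem _
        | add a b _ _ ha hb => rw [mul_add]; exact AddSubmonoid.add_mem _ ha hb
        | mem b hb =>
          obtain ⟨c, i, j, rfl⟩ := ha
          obtain ⟨c', i', j', rfl⟩ := hb
          exact AddSubmonoid.subset_closure ⟨c * c', i + i', j + j', by rw [map_mul]; ring⟩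
  obtain ⟨l, hl, rfl⟩ := AddSubmonoid.exists_list_of_mem_closure hcl
  exact key _ l le_rfl hl ha

end Kummer

end Crest.Agent.H4.ZL
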