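import Crest.Agent.H4.ZL.Z3

/-! The Kummer cover: reduction of the Zariski–Lipman statement to valuation conditions. -/

namespace Crest.Agent.H4.ZL

open scoped nonZeroDivisors
open Polynomial

variable {F : Type} [Field F] [Algebra ℂ F]

/-- `N`-th powers of nonzero monomials -/
def Mn (N : ℕ) (Θ₁ Θ₂ M : F) : Prop := ∃ c : F, c ≠ 0 ∧ ∃ i j : ℕ, M = c ^ N * Θ₁ ^ i * Θ₂ ^ j

/-- logarithmic derivative -/
def ld (η : Derivation ℂ F F) (M : F) : F := η M / M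

structure Good (N : ℕ) (Θ₁ Θ₂ : F) (η₁ η₂ : Derivation ℂ F F) (V : ValuationSubring F) :
    Prop where
  p₁ : ∀ M, Mn N Θ₁ Θ₂ M → M ∈ V → Θ₁ * M * ld η₁ M ^ N ∈ V
  p₂ : ∀ M, Mn N Θ₁ Θ₂ M → M ∈ V → Θ₂ * M * ld η₂ M ^ N ∈ V
  gen : ∃ A B, Mn N Θ₁ Θ₂ A ∧ Mn N Θ₁ Θ₂ B ∧ A ∈ V ∧ B ∈ V ∧
    1 ≤ V.valuation (Θ₁ * Θ₂ * A * B * (ld η₁ A * ld η₂ B - ld η₁ B * ld η₂ A) ^ N)

theorem exists_kummer {N : ℕ} (hN : N ≠ 0) {Θ₁ Θ₂ : F} (hΘ₁ : Θ₁ ≠ 0) (hΘ₂ : Θ₂ ≠ 0) :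
    ∃ (K : Type) (_ : Field K) (_ : Algebra F K) (_ : Algebra ℂ K) (_ : IsScalarTower ℂ F K)
      (_ : FiniteDimensional F K) (_ : IsGalois F K) (θ₁ θ₂ : K),
      θ₁ ^ N = algebraMap F K Θ₁ ∧ θ₂ ^ N = algebraMap F K Θ₂ ∧
        Algebra.adjoin F {θ₁, θ₂} = ⊤ := by
  haveI : CharZero F := charZero_of_injective_algebraMap (algebraMap ℂ F).injective
  set p : F[X] := (X ^ N - C Θ₁) * (X ^ N - C Θ₂) with hp
  let K := p.SplittingField
  have hs := SplittingField.splits p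
  have hN' : 0 < N := Nat.pos_of_ne_zero hN
  have m₁ : (X ^ N - C Θ₁ : F[X]).Monic := monic_X_pow_sub_C _ hN
  have m₂ : (X ^ N - C Θ₂ : F[X]).Monic := monic_X_pow_sub_C _ hN
  have hp0 : p ≠ 0 := (m₁.mul m₂).ne_zero
  have root : ∀ Θ : F, (X ^ N - C Θ) ∣ p → ∃ θ : K, θ ^ N = algebraMap F K Θ := fun Θ h => by
    have h1 : ((X ^ N - C Θ : F[X]).map (algebraMap F K)).Splits :=
      hs.of_dvd (Polynomial.map_ne_zero hp0) (Polynomial.map_dvd _ h)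
    obtain ⟨θ, hθ⟩ := h1.exists_eval_eq_zero (by
      rw [degree_map, degree_X_pow_sub_C hN']; exact_mod_cast hN)
    exact ⟨θ, by simpa [sub_eq_zero] using hθ⟩
  obtain ⟨θ₁, h₁⟩ := root Θ₁ (dvd_mul_right _ _)
  obtain ⟨θ₂, h₂⟩ := root Θ₂ (dvd_mul_left _ _)
  haveI : Normal F K := Normal.of_isSplittingField p
  refine ⟨K, inferInstance, inferInstance, inferInstance, inferInstance, inferInstance,
    ⟨⟩, θ₁, θ₂, h₁, h₂, ?_⟩
  rw [eq_top_iff, ← SplittingField.adjoin_rootSet p, Algebra.adjoin_le_iff]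
  intro z hz
  have hz' := (mem_rootSet.1 hz).2
  have key : ∀ (θ : K) (Θ : F), Θ ≠ 0 → θ ^ N = algebraMap F K Θ → z ^ N = algebraMap F K Θ →
      θ ∈ Algebra.adjoin F {θ₁, θ₂} → z ∈ Algebra.adjoin F {θ₁, θ₂} := by
    intro θ Θ hΘ h hz hm
    have h0 : θ ≠ 0 := fun h0 => by
      rw [h0, zero_pow hN] at h
      exact hΘ ((algebraMap F K).injective (by rw [← h, map_zero]))
    obtain ⟨ζ, hζ⟩ := root_unity hN (z := z / θ) (by
      rw [div_pow, hz, ← h, div_self (pow_ne_zero _ h0)])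
    have : z = algebraMap F K (algebraMap ℂ F ζ) * θ := by
      rw [← IsScalarTower.algebraMap_apply, ← hζ]; field_simp
    rw [this]
    exact Subalgebra.mul_mem _ (Subalgebra.algebraMap_mem _ _) hm
  replace hz' : aeval z ((X ^ N - C Θ₁) * (X ^ N - C Θ₂)) = 0 := hz'
  rw [map_mul, mul_eq_zero] at hz'
  rcases hz' with h | h
  · exact key θ₁ Θ₁ hΘ₁ h₁ (by simpa [sub_eq_zero] using h) (Algebra.subset_adjoin (by simp))
  · exact key θ₂ Θ₂ hΘ₂ h₂ (by simpa [sub_eq_zero] using h) (Algebra.subset_adjoin (by simp))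

section K
variable {K : Type} [Field K] [Algebra F K] [Algebra ℂ K] [IsScalarTower ℂ F K]

theorem der_root {η : Derivation ℂ F F} {E : Derivation ℂ K K}
    (hE : ∀ s, E (algebraMap F K s) = algebraMap F K (η s)) {N : ℕ} (hN : N ≠ 0) {m : K} {M : F}
    (hM : M ≠ 0) (h : m ^ N = algebraMap F K M) :
    E m = m * algebraMap F K (ld η M) * algebraMap ℂ K (N : ℂ)⁻¹ := by
  haveI : CharZero K := charZero_of_injective_algebraMap (algebraMap ℂ K).injective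
  have h1 := hE M
  rw [← h, Derivation.leibniz_pow] at h1
  obtain ⟨n, rfl⟩ := Nat.exists_eq_succ_of_ne_zero hN
  have hm : m ≠ 0 := fun h0 => by
    rw [h0, zero_pow hN] at h
    exact hM ((algebraMap F K).injective (by rw [← h, map_zero]))
  rw [ld, map_div₀, ← h1, ← h, map_inv₀, map_natCast]
  have : ((n.succ : ℕ) : K) ≠ 0 := Nat.cast_ne_zero.2 hN
  simp only [Nat.succ_sub_one, smul_eq_mul, nsmul_eq_mul]
  field_simp
  rw [pow_succ]; ring

theorem mon_pow {N : ℕ} {θ₁ θ₂ : K} {Θ₁ Θ₂ : F} (h₁ : θ₁ ^ N = algebraMap F K Θ₁)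
    (h₂ : θ₂ ^ N = algebraMap F K Θ₂) {m : K} (hm : Mon F θ₁ θ₂ m) (h0 : m ≠ 0) :
    ∃ M, Mn N Θ₁ Θ₂ M ∧ m ^ N = algebraMap F K M := by
  obtain ⟨c, i, j, rfl⟩ := hm
  refine ⟨_, ⟨c, fun h => h0 (by simp [h]), i, j, rfl⟩, ?_⟩
  simp only [map_mul, map_pow, ← h₁, ← h₂]
  ring

theorem Mn.exists {N : ℕ} {θ₁ θ₂ : K} {Θ₁ Θ₂ : F} (h₁ : θ₁ ^ N = algebraMap F K Θ₁)
    (h₂ : θ₂ ^ N = algebraMap F K Θ₂) {M : F} (hM : Mn N Θ₁ Θ₂ M) :
    ∃ m : K, m ^ N = algebraMap F K M := by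
  obtain ⟨c, -, i, j, rfl⟩ := hM
  refine ⟨algebraMap F K c * θ₁ ^ i * θ₂ ^ j, ?_⟩
  simp only [map_mul, map_pow, ← h₁, ← h₂]
  ring

theorem Mn.ne_zero {N : ℕ} {Θ₁ Θ₂ M : F} (hΘ₁ : Θ₁ ≠ 0) (hΘ₂ : Θ₂ ≠ 0) (hM : Mn N Θ₁ Θ₂ M) :
    M ≠ 0 := by
  obtain ⟨c, hc, i, j, rfl⟩ := hM
  positivity

theorem xi_pow {η : Derivation ℂ F F} {E : Derivation ℂ K K}
    (hE : ∀ s, E (algebraMap F K s) = algebraMap F K (η s)) {N : ℕ} (hN : N ≠ 0) {m θ : K}
    {M Θ : F} (hM : M ≠ 0) (h : m ^ N = algebraMap F K M) (hθ : θ ^ N = algebraMap F K Θ) :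
    (θ * E m) ^ N = algebraMap F K (Θ * M * ld η M ^ N * algebraMap ℂ F ((N : ℂ)⁻¹ ^ N)) := by
  rw [der_root hE hN hM h]
  simp only [map_mul, map_pow, ← h, ← hθ, ← IsScalarTower.algebraMap_apply]
  ring

theorem der_zero_of {τ w : F}
    (hgen : ∀ c : F, ∃ a ∈ Algebra.adjoin ℂ {τ, w}, ∃ b ∈ Algebra.adjoin ℂ {τ, w},
      b ≠ 0 ∧ c * b = a) {N : ℕ} (hN : N ≠ 0) {θ₁ θ₂ : K} {Θ₁ Θ₂ : F}
    (h₁ : θ₁ ^ N = algebraMap F K Θ₁) (h₂ : θ₂ ^ N = algebraMap F K Θ₂)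
    (hΘ₁ : Θ₁ ≠ 0) (hΘ₂ : Θ₂ ≠ 0) (htop : Algebra.adjoin F {θ₁, θ₂} = ⊤)
    (D : Derivation ℂ K K) (hτ : D (algebraMap F K τ) = 0) (hw : D (algebraMap F K w) = 0)
    (a : K) : D a = 0 := by
  have hA : ∀ a ∈ Algebra.adjoin ℂ {τ, w}, D (algebraMap F K a) = 0 := by
    intro a ha
    induction ha using Algebra.adjoin_induction with
    | mem x hx => rcases hx with rfl | rfl <;> assumption
    | algebraMap r => rw [← IsScalarTower.algebraMap_apply, D.map_algebraMap]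
    | add x y _ _ hx hy => rw [map_add, map_add, hx, hy, add_zero]
    | mul x y _ _ hx hy => rw [map_mul, D.leibniz, hx, hy]; simp
  have hF : ∀ c, D (algebraMap F K c) = 0 := fun c => by
    obtain ⟨a, ha, b, hb, hb0, h⟩ := hgen c
    have := hA a ha
    rw [← h, map_mul, D.leibniz, hA b hb, smul_zero, zero_add, smul_eq_mul, mul_eq_zero] at this
    exact this.resolve_left ((_root_.map_ne_zero _).2 hb0)
  have hθ : ∀ (θ : K) (Θ : F), Θ ≠ 0 → θ ^ N = algebraMap F K Θ → D θ = 0 := fun θ Θ hΘ h => by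
    rw [der_root (η := 0) (E := D) (fun s => by simp [hF]) hN hΘ h]
    simp [ld]
  have : a ∈ Algebra.adjoin F {θ₁, θ₂} := htop ▸ Algebra.mem_top
  induction this using Algebra.adjoin_induction with
  | mem x hx =>
    rcases hx with rfl | rfl
    · exact hθ _ _ hΘ₁ h₁
    · exact hθ _ _ hΘ₂ h₂
  | algebraMap r => exact hF r
  | add x y _ _ hx hy => rw [map_add, hx, hy, add_zero]
  | mul x y _ _ hx hy => rw [D.leibniz, hx, hy]; simp

end K

theorem kummer {τ w : F}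
    (hgen : ∀ c : F, ∃ a ∈ Algebra.adjoin ℂ {τ, w}, ∃ b ∈ Algebra.adjoin ℂ {τ, w},
      b ≠ 0 ∧ c * b = a) (htr : Algebra.trdeg ℂ F = 2) (B : Subalgebra ℂ F) (hfg : B.FG)
    (hfr : ∀ c : F, ∃ a ∈ B, ∃ b ∈ B, b ≠ 0 ∧ c * b = a) {N : ℕ} (hN : N ≠ 0) {Θ₁ Θ₂ : F}
    (hΘ₁ : Θ₁ ≠ 0) (hΘ₂ : Θ₂ ≠ 0) (η₁ η₂ : Derivation ℂ F F)
    (hdet : η₁ τ * η₂ w - η₁ w * η₂ τ ≠ 0)
    (hgood : ∀ V, Ess (icl B) V → Good N Θ₁ Θ₂ η₁ η₂ V)
    (VA : ValuationSubring F) (hBA : ∀ b ∈ B, b ∈ VA)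
    (hl₁ : ∀ M ∈ VA, M ≠ 0 → VA.valuation (Θ₁ * M * ld η₁ M ^ N) < 1)
    (hl₂ : ∀ M ∈ VA, M ≠ 0 → VA.valuation (Θ₂ * M * ld η₂ M ^ N) < 1) :
    ∃ (A : Type) (_ : CommRing A) (_ : Algebra ℂ A),
      IsDomain A ∧ Algebra.FiniteType ℂ A ∧ IsIntegrallyClosed A ∧
      ringKrullDim A = 2 ∧
      Nonempty (Derivation ℂ A A ≃ₗ[A] (Fin 2 → A)) ∧
      ∃ (m : Ideal A) (_ : m.IsMaximal), ¬ IsRegularLocalRing (Localization.AtPrime m) := by
  obtain ⟨K, _, _, _, _, _, _, θ₁, θ₂, h₁, h₂, htop⟩ := exists_kummer hN hΘ₁ hΘ₂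
  haveI := Algebra.FormallyEtale.of_isSeparable F K
  obtain ⟨E₁, hE₁⟩ := extend_der (S := F) (T := K) ((Algebra.linearMap F K).compDer η₁)
  obtain ⟨E₂, hE₂⟩ := extend_der (S := F) (T := K) ((Algebra.linearMap F K).compDer η₂)
  replace hE₁ : ∀ s, E₁ (algebraMap F K s) = algebraMap F K (η₁ s) := hE₁
  replace hE₂ : ∀ s, E₂ (algebraMap F K s) = algebraMap F K (η₂ s) := hE₂
  have hθ₁ : θ₁ ≠ 0 := fun h0 => by
    rw [h0, zero_pow hN] at h₁
    exact hΘ₁ ((algebraMap F K).injective (by rw [← h₁, map_zero]))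
  have hθ₂ : θ₂ ≠ 0 := fun h0 => by
    rw [h0, zero_pow hN] at h₂
    exact hΘ₂ ((algebraMap F K).injective (by rw [← h₂, map_zero]))
  obtain ⟨hftS, -⟩ := normal_pack B hfg hfr htr
  haveI : IsNoetherianRing (icl B) := Algebra.FiniteType.isNoetherianRing ℂ _
  have hfrS : ∀ c : F, ∃ a ∈ icl B, ∃ b ∈ icl B, b ≠ 0 ∧ c * b = a := fun c => by
    obtain ⟨a, ha, b, hb, h⟩ := hfr c
    exact ⟨a, le_icl B ha, b, le_icl B hb, h⟩
  have hicS : ∀ c : F, IsIntegral (icl B) c → c ∈ icl B := fun c hc => icl_closed B hc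
  obtain ⟨hft, hdim⟩ := normal_packK (K := K) B hfg hfr htr
  have hR : ∀ a : K, (∀ V, Ess (icl B) V → II V.toSubring a) → a ∈ iclK K B := fun a h =>
    icl_closed B (glueA (icl B) hfrS hicS a (Algebra.IsIntegral.isIntegral a) h)
  have hRV : ∀ V : ValuationSubring F, (∀ b ∈ B, b ∈ V) → ∀ a ∈ iclK K B, II V.toSubring a :=
    fun V hV a ha => II.mono (S := B.toSubring) hV ha
  have hVC : ∀ V : ValuationSubring F, (∀ b ∈ B, b ∈ V) → ∀ c : ℂ, algebraMap ℂ F c ∈ V :=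
    fun V hV c => hV _ (B.algebraMap_mem c)
  have hEB : ∀ V, Ess (icl B) V → ∀ b ∈ B, b ∈ V := fun V hV b hb => hV.1 b (le_icl B hb)
  -- preservation
  have pres : ∀ (V : ValuationSubring F), (∀ b ∈ B, b ∈ V) → ∀ (θ : K) (Θ : F)
      (η : Derivation ℂ F F) (E : Derivation ℂ K K),
      (∀ s, E (algebraMap F K s) = algebraMap F K (η s)) → θ ^ N = algebraMap F K Θ →
      (∀ M, Mn N Θ₁ Θ₂ M → M ∈ V → Θ * M * ld η M ^ N ∈ V) →
      ∀ a, II V.toSubring a → II V.toSubring (θ * E a) := by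
    intro V hV θ Θ η E hE hθ hp a ha
    let W : AddSubmonoid K :=
      { carrier := {a | II V.toSubring (θ * E a)}
        add_mem' := fun {a b} ha hb => by
          change II _ _; rw [map_add, mul_add]; exact II.add ha hb
        zero_mem' := by change II _ _; rw [map_zero, mul_zero]; exact II.zero }
    refine homog hN h₁ h₂ hΘ₁ hΘ₂ htop V.toSubring (hVC V hV) W (fun m hm hi => ?_) a ha
    by_cases h0 : m = 0
    · rw [h0]; exact W.zero_mem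
    obtain ⟨M, hM, e⟩ := mon_pow h₁ h₂ hm h0
    have hMV : M ∈ V := II.val (II.of_alg (K := K) (e ▸ hi.pow N))
    refine II.of_pow hN ?_
    rw [xi_pow hE hN (hM.ne_zero hΘ₁ hΘ₂) e hθ]
    exact II.alg (V.mul_mem _ _ (hp M hM hMV) (hVC V hV _))
  have hfrK : ∀ c : K, ∃ a ∈ iclK K B, ∃ b ∈ iclK K B, b ≠ 0 ∧ c * b = a := fun c => by
    let M : Submonoid F :=
      { carrier := {b | b ∈ B ∧ b ≠ 0}
        mul_mem' := fun ha hb => ⟨B.mul_mem ha.1 hb.1, mul_ne_zero ha.2 hb.2⟩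
        one_mem' := ⟨B.one_mem, one_ne_zero⟩ }
    obtain ⟨b, hb, h⟩ := II.clear (S := B.toSubring) (W := ⊤) M (fun b hb => hb.1)
      (fun c _ => by
        obtain ⟨a, ha, b, hb, hb0, h⟩ := hfr c
        exact ⟨b, ⟨hb, hb0⟩, by rw [mul_comm, h]; exact ha⟩) (a := c)
      (II_iff.2 ⟨minpoly F c, minpoly.monic (Algebra.IsIntegral.isIntegral c), fun _ => trivial,
        minpoly.aeval F c⟩)
    exact ⟨_, h, _, II.alg (S := B.toSubring) hb.1, (_root_.map_ne_zero _).2 hb.2, mul_comm _ _⟩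
  have hdetK : E₁ (algebraMap F K τ) * E₂ (algebraMap F K w) -
      E₁ (algebraMap F K w) * E₂ (algebraMap F K τ) ≠ 0 := by
    rw [hE₁, hE₁, hE₂, hE₂, ← map_mul, ← map_mul, ← map_sub]
    exact (_root_.map_ne_zero _).2 hdet
  have h₁R : ∀ a ∈ iclK K B, (θ₁ • E₁) a ∈ iclK K B := fun a ha => hR _ fun V hV =>
    pres V (hEB V hV) θ₁ Θ₁ η₁ E₁ hE₁ h₁ (hgood V hV).p₁ a (hRV V (hEB V hV) a ha)
  have h₂R : ∀ a ∈ iclK K B, (θ₂ • E₂) a ∈ iclK K B := fun a ha => hR _ fun V hV =>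
    pres V (hEB V hV) θ₂ Θ₂ η₂ E₂ hE₂ h₂ (hgood V hV).p₂ a (hRV V (hEB V hV) a ha)
  -- the prime over the maximal ideal of `VA`
  let C := integralClosure VA.toSubring K
  haveI : IsLocalRing VA.toSubring := inferInstanceAs (IsLocalRing VA)
  obtain ⟨Q, hQ, hQc⟩ := Ideal.exists_ideal_over_maximal_of_isIntegral (S := C)
    (IsLocalRing.maximalIdeal VA.toSubring) (by
      intro a ha
      have : a = 0 := Subtype.ext ((algebraMap F K).injective (by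
        rw [ZeroMemClass.coe_zero, map_zero]; exact congrArg Subtype.val ha))
      rw [this]; exact Ideal.zero_mem _)
  let ι : iclK K B →+* C :=
    { toFun := fun a => ⟨a, hRV VA hBA a a.2⟩
      map_one' := rfl
      map_mul' := fun _ _ => rfl
      map_zero' := rfl
      map_add' := fun _ _ => rfl }
  have logp : ∀ (θ : K) (Θ : F) (η : Derivation ℂ F F) (E : Derivation ℂ K K),
      (∀ s, E (algebraMap F K s) = algebraMap F K (η s)) → θ ^ N = algebraMap F K Θ →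
      (∀ M ∈ VA, M ≠ 0 → VA.valuation (Θ * M * ld η M ^ N) < 1) →
      ∀ a, II VA.toSubring a → ∃ q ∈ Q, (q : K) = θ * E a := by
    intro θ Θ η E hE hθ hp a ha
    let W : AddSubmonoid K :=
      { carrier := {a | ∃ q ∈ Q, (q : K) = θ * E a}
        add_mem' := by
          rintro a b ⟨q, hq, e⟩ ⟨q', hq', e'⟩
          exact ⟨q + q', Q.add_mem hq hq', by rw [map_add, mul_add, ← e, ← e']; rfl⟩
        zero_mem' := ⟨0, Q.zero_mem, by simp⟩ }
    refine homog hN h₁ h₂ hΘ₁ hΘ₂ htop VA.toSubring (hVC VA hBA) W (fun m hm hi => ?_) a ha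
    by_cases h0 : m = 0
    · rw [h0]; exact W.zero_mem
    obtain ⟨M, hM, e⟩ := mon_pow h₁ h₂ hm h0
    have hMV : M ∈ VA := II.val (II.of_alg (K := K) (e ▸ hi.pow N))
    have hx := xi_pow hE hN (hM.ne_zero hΘ₁ hΘ₂) e hθ
    have hv : VA.valuation (Θ * M * ld η M ^ N * algebraMap ℂ F ((N : ℂ)⁻¹ ^ N)) < 1 := by
      rw [map_mul]
      exact mul_lt_one_of_lt_of_le (hp M hMV (hM.ne_zero hΘ₁ hΘ₂))
        ((VA.valuation_le_one_iff _).2 (hVC VA hBA _))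
    have hin := (VA.valuation_le_one_iff _).1 hv.le
    have hI : II VA.toSubring (θ * E m) := II.of_pow hN (hx ▸ II.alg hin)
    refine ⟨⟨_, hI⟩, hQ.isPrime.mem_of_pow_mem N ?_, rfl⟩
    have : (⟨_, hin⟩ : VA.toSubring) ∈ Q.comap (algebraMap VA.toSubring C) := by
      rw [hQc]; exact (VA.valuation_lt_one_iff ⟨_, hin⟩).2 hv
    rw [Ideal.mem_comap] at this
    convert this using 1
    exact Subtype.ext hx
  refine final (iclK K B) hfrK hft (fun c hc => ?_) hdim (θ₁ • E₁) (θ₂ • E₂) h₁R h₂R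
    (fun D => ?_) (fun c₁ c₂ h => ?_) (fun c₁ c₂ h => ?_) (Q.comap ι)
    (Ideal.comap_ne_top _ hQ.ne_top) (fun a ha => ?_) (fun a ha => ?_)
  · haveI : Algebra.IsIntegral B (integralClosure B K) := inferInstance
    exact isIntegral_trans (A := integralClosure B K) c hc
  · set t := algebraMap F K τ
    set u := algebraMap F K w
    set Δ := E₁ t * E₂ u - E₁ u * E₂ t
    refine ⟨(D t * E₂ u - D u * E₂ t) / (Δ * θ₁), (E₁ t * D u - E₁ u * D t) / (Δ * θ₂),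
      fun a => ?_⟩
    have := der_zero_of hgen hN h₁ h₂ hΘ₁ hΘ₂ htop
      (D - ((D t * E₂ u - D u * E₂ t) / Δ) • E₁ - ((E₁ t * D u - E₁ u * D t) / Δ) • E₂)
      (by simp only [Derivation.sub_apply, Derivation.smul_apply, smul_eq_mul]
          field_simp; simp only [Δ]; ring)
      (by simp only [Derivation.sub_apply, Derivation.smul_apply, smul_eq_mul]
          field_simp; simp only [Δ]; ring) a
    simp only [Derivation.sub_apply, Derivation.smul_apply, smul_eq_mul] at this ⊢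
    rw [sub_sub, sub_eq_zero] at this
    rw [this]; field_simp
  · have hD : ∀ a, (c₁ • θ₁ • E₁ + c₂ • θ₂ • E₂) a = 0 := fun c => by
      obtain ⟨a, ha, b, hb, hb0, e⟩ := hfrK c
      have h1 : (c₁ • θ₁ • E₁ + c₂ • θ₂ • E₂) a = 0 := h a ha
      have h2 : (c₁ • θ₁ • E₁ + c₂ • θ₂ • E₂) b = 0 := h b hb
      rw [← e, Derivation.leibniz, h2, smul_zero, zero_add, smul_eq_mul, mul_eq_zero] at h1
      exact h1.resolve_left hb0
    have e1 := hD (algebraMap F K τ)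
    have e2 := hD (algebraMap F K w)
    simp only [Derivation.add_apply, Derivation.smul_apply, smul_eq_mul] at e1 e2
    constructor
    · refine (mul_eq_zero.1 (?_ : c₁ * (θ₁ * _) = 0)).resolve_right (mul_ne_zero hθ₁ hdetK)
      linear_combination E₂ (algebraMap F K w) * e1 - E₂ (algebraMap F K τ) * e2
    · refine (mul_eq_zero.1 (?_ : c₂ * (θ₂ * _) = 0)).resolve_right (mul_ne_zero hθ₂ hdetK)
      linear_combination E₁ (algebraMap F K τ) * e2 - E₁ (algebraMap F K w) * e1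
  · have key : ∀ V, Ess (icl B) V → II V.toSubring c₁ ∧ II V.toSubring c₂ := by
      intro V hV
      have hB := hEB V hV
      have hD : ∀ a, II V.toSubring a → II V.toSubring ((c₁ • θ₁ • E₁ + c₂ • θ₂ • E₂) a) := by
        intro a ha
        obtain ⟨s, hs, hvs, hsa⟩ := glueB hV ha
        have hs0 : s ≠ 0 := fun h0 => by simp [h0] at hvs
        have h1 : II V.toSubring ((c₁ • θ₁ • E₁ + c₂ • θ₂ • E₂) (algebraMap F K s * a)) :=
          hRV V hB _ (h _ (icl_closed B hsa))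
        have h2 : II V.toSubring ((c₁ • θ₁ • E₁ + c₂ • θ₂ • E₂) (algebraMap F K s)) :=
          hRV V hB _ (h _ (icl_closed B (II.alg (S := (icl B).toSubring) hs)))
        rw [Derivation.leibniz, smul_eq_mul, smul_eq_mul] at h1
        have h3 := (h1.sub (ha.mul h2)).mul (II.alg (S := V.toSubring) (c := s⁻¹)
          ((V.valuation_le_one_iff _).1 (by rw [map_inv₀, hvs, inv_one])))
        convert h3 using 1
        have : algebraMap F K s ≠ 0 := (_root_.map_ne_zero _).2 hs0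
        rw [map_inv₀]; field_simp; ring
      obtain ⟨A, B', hA, hB', hAV, hBV, hv⟩ := (hgood V hV).gen
      obtain ⟨a, ea⟩ := hA.exists h₁ h₂
      obtain ⟨b, eb⟩ := hB'.exists h₁ h₂
      have ia : II V.toSubring a := II.of_pow hN (ea ▸ II.alg hAV)
      have ib : II V.toSubring b := II.of_pow hN (eb ▸ II.alg hBV)
      set Δ := θ₁ * E₁ a * (θ₂ * E₂ b) - θ₁ * E₁ b * (θ₂ * E₂ a) with hΔ
      set Y := Θ₁ * Θ₂ * A * B' * (ld η₁ A * ld η₂ B' - ld η₁ B' * ld η₂ A) ^ N with hY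
      have hY0 : Y ≠ 0 := fun h0 => by
        rw [h0, map_zero] at hv; exact absurd hv (by simp)
      have hΔN : Δ ^ N = algebraMap F K (Y * algebraMap ℂ F (((N : ℂ)⁻¹ ^ 2) ^ N)) := by
        rw [hΔ, der_root hE₁ hN (hA.ne_zero hΘ₁ hΘ₂) ea, der_root hE₂ hN (hA.ne_zero hΘ₁ hΘ₂) ea,
          der_root hE₁ hN (hB'.ne_zero hΘ₁ hΘ₂) eb, der_root hE₂ hN (hB'.ne_zero hΘ₁ hΘ₂) eb, hY]
        simp only [map_mul, map_pow, map_sub, ← h₁, ← h₂, ← ea, ← eb,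
          ← IsScalarTower.algebraMap_apply, ← mul_pow]
        congr 1; ring
      have hNc : ((N : ℂ)⁻¹ ^ 2) ^ N ≠ 0 := pow_ne_zero _ (pow_ne_zero _ (inv_ne_zero
        (Nat.cast_ne_zero.2 hN)))
      have hΔ0 : Δ ≠ 0 := fun h0 => by
        rw [h0, zero_pow hN, eq_comm, map_eq_zero, mul_eq_zero, map_eq_zero] at hΔN
        exact hΔN.elim hY0 hNc
      have iΔ : II V.toSubring Δ⁻¹ := by
        refine II.of_pow hN ?_
        rw [inv_pow, hΔN, ← map_inv₀, mul_inv, ← map_inv₀]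
        refine II.alg (V.mul_mem _ _ ?_ (hVC V hB _))
        rw [← V.valuation_le_one_iff, map_inv₀]
        exact inv_le_one_of_one_le₀ hv
      have p1 := pres V hB θ₁ Θ₁ η₁ E₁ hE₁ h₁ (hgood V hV).p₁
      have p2 := pres V hB θ₂ Θ₂ η₂ E₂ hE₂ h₂ (hgood V hV).p₂
      constructor
      · convert (((hD a ia).mul (p2 b ib)).sub ((hD b ib).mul (p2 a ia))).mul iΔ using 1
        simp only [Derivation.add_apply, Derivation.smul_apply, smul_eq_mul]
        field_simp; rw [hΔ]; ring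
      · convert (((hD b ib).mul (p1 a ia)).sub ((hD a ia).mul (p1 b ib))).mul iΔ using 1
        simp only [Derivation.add_apply, Derivation.smul_apply, smul_eq_mul]
        field_simp; rw [hΔ]; ring
    exact ⟨hR _ fun V hV => (key V hV).1, hR _ fun V hV => (key V hV).2⟩
  · obtain ⟨q, hq, e⟩ := logp θ₁ Θ₁ η₁ E₁ hE₁ h₁ hl₁ a (hRV VA hBA a ha)
    rw [Ideal.mem_comap]
    convert hq using 1
    exact Subtype.ext e.symm
  · obtain ⟨q, hq, e⟩ := logp θ₂ Θ₂ η₂ E₂ hE₂ h₂ hl₂ a (hRV VA hBA a ha)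
    rw [Ideal.mem_comap]
    convert hq using 1
    exact Subtype.ext e.symm

end Crest.Agent.H4.ZL
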