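import Crest.Agent.H4.ZL.Z4

/-! Criteria for `Good`. -/

namespace Crest.Agent.H4.ZL

variable {F : Type} [Field F] [Algebra ℂ F]

theorem ld_mul (η : Derivation ℂ F F) {a b : F} (ha : a ≠ 0) (hb : b ≠ 0) :
    ld η (a * b) = ld η a + ld η b := by
  simp only [ld, Derivation.leibniz, smul_eq_mul]; field_simp; ring

theorem ld_pow (η : Derivation ℂ F F) (a : F) (n : ℕ) : ld η (a ^ n) = n * ld η a := by
  by_cases ha : a = 0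
  · rcases Nat.eq_zero_or_pos n with rfl | hn
    · simp [ld]
    · simp [ld, ha, zero_pow hn.ne']
  induction n with
  | zero => simp [ld]
  | succ n ih => rw [pow_succ, ld_mul η (pow_ne_zero _ ha) ha, ih]; push_cast; ring

theorem Mn.symm {N : ℕ} {Θ₁ Θ₂ M : F} (h : Mn N Θ₁ Θ₂ M) : Mn N Θ₂ Θ₁ M := by
  obtain ⟨c, hc, i, j, rfl⟩ := h
  exact ⟨c, hc, j, i, by ring⟩

theorem Good.symm {N : ℕ} {Θ₁ Θ₂ : F} {η₁ η₂ : Derivation ℂ F F} {V : ValuationSubring F}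
    (h : Good N Θ₁ Θ₂ η₁ η₂ V) : Good N Θ₂ Θ₁ η₂ η₁ V := by
  refine ⟨fun M hM => h.p₂ M hM.symm, fun M hM => h.p₁ M hM.symm, ?_⟩
  obtain ⟨A, B, hA, hB, hAV, hBV, hv⟩ := h.gen
  refine ⟨B, A, hB.symm, hA.symm, hBV, hAV, ?_⟩
  convert hv using 2
  ring

section V
variable {V : ValuationSubring F}

theorem vle {a : F} : V.valuation a ≤ 1 ↔ a ∈ V := V.valuation_le_one_iff a

theorem vC (hC : ∀ c : ℂ, algebraMap ℂ F c ∈ V) {c : ℂ} (hc : c ≠ 0) :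
    V.valuation (algebraMap ℂ F c) = 1 := by
  apply le_antisymm (vle.2 (hC c))
  have h1 := vle.2 (hC c⁻¹)
  rw [map_inv₀, map_inv₀] at h1
  exact (inv_le_one₀ (zero_lt_iff.2 ((map_ne_zero _).2 ((map_ne_zero _).2 hc)))).1 h1

theorem vnat (hC : ∀ c : ℂ, algebraMap ℂ F c ∈ V) {n : ℕ} (hn : n ≠ 0) :
    V.valuation (n : F) = 1 := by
  rw [← map_natCast (algebraMap ℂ F)]; exact vC hC (Nat.cast_ne_zero.2 hn)

theorem ne_of_v {a : F} (h : V.valuation a = 1) : a ≠ 0 := fun h0 => by simp [h0] at h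

theorem inv_mem_of_v {a : F} (h : V.valuation a = 1) : a⁻¹ ∈ V := by
  rw [← vle, map_inv₀, h, inv_one]

theorem div_mem_of_v {a b : F} (ha : a ∈ V) (h : V.valuation b = 1) : a / b ∈ V := by
  rw [div_eq_mul_inv]; exact V.mul_mem _ _ ha (inv_mem_of_v h)

theorem mem_of_v {a : F} (h : V.valuation a = 1) : a ∈ V := vle.1 h.le

theorem v_add_of_lt {a b : F} (ha : V.valuation a = 1) (hb : V.valuation b < 1) :
    V.valuation (a + b) = 1 := by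
  rw [Valuation.map_add_eq_of_lt_left _ (by rwa [ha]), ha]

theorem v_mul_lt {a b : F} (ha : V.valuation a < 1) (hb : b ∈ V) : V.valuation (a * b) < 1 := by
  rw [map_mul]; exact mul_lt_one_of_lt_of_le ha (vle.2 hb)

theorem mem_of_pow {a : F} {n : ℕ} (hn : n ≠ 0) (h : a ^ n ∈ V) : a ∈ V := by
  rw [← vle] at *
  rw [map_pow] at h
  exact (pow_le_one_iff hn).1 h

theorem ld_unit {η : Derivation ℂ F F} {l : F} (hη : ∀ c ∈ V, η c / l ∈ V) {U : F}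
    (hU : V.valuation U = 1) : ld η U / l ∈ V := by
  have : ld η U / l = η U / l / U := by rw [ld]; ring
  rw [this]; exact div_mem_of_v (hη U (mem_of_v hU)) hU

theorem pres_core {N : ℕ} {η : Derivation ℂ F F} {l Θ c U : F} (hl : l ≠ 0)
    (hη : ∀ c ∈ V, η c / l ∈ V) (hΘ : Θ * l ^ N ∈ V) (hc0 : c ≠ 0) (hc : c ∈ V) (hU0 : U ≠ 0)
    (hU : U ∈ V) (hU' : ld η U / l ∈ V) : Θ * (c ^ N * U) * ld η (c ^ N * U) ^ N ∈ V := by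
  have : Θ * (c ^ N * U) * ld η (c ^ N * U) ^ N =
      Θ * l ^ N * U * (N * (η c / l) + c * (ld η U / l)) ^ N := by
    rw [ld_mul η (pow_ne_zero _ hc0) hU0, ld_pow]
    have : N * (η c / l) + c * (ld η U / l) = c * (N * ld η c + ld η U) / l := by
      simp only [ld]; field_simp
    rw [this, div_pow, mul_pow]; field_simp
  rw [this]
  exact V.mul_mem _ _ (V.mul_mem _ _ hΘ hU) (pow_mem (V.add_mem _ _
    (V.mul_mem _ _ (natCast_mem V N) (hη c hc)) (V.mul_mem _ _ hc hU')) _)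

theorem good_unram (hC : ∀ c : ℂ, algebraMap ℂ F c ∈ V) {N : ℕ} (hN : N ≠ 0) {Θ₁ Θ₂ : F}
    {η₁ η₂ : Derivation ℂ F F} {l₁ l₂ : F} (hl₁ : l₁ ≠ 0) (hl₂ : l₂ ≠ 0)
    (hη₁ : ∀ c ∈ V, η₁ c / l₁ ∈ V) (hη₂ : ∀ c ∈ V, η₂ c / l₂ ∈ V)
    (hΘ₁ : V.valuation (Θ₁ * l₁ ^ N) = 1) (hΘ₂ : V.valuation (Θ₂ * l₂ ^ N) = 1)
    {α β : F} (hα : α ∈ V) (hβ : β ∈ V)
    (hd : V.valuation ((η₁ α * η₂ β - η₁ β * η₂ α) / (l₁ * l₂)) = 1) :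
    Good N Θ₁ Θ₂ η₁ η₂ V := by
  have key : ∀ M, Mn N Θ₁ Θ₂ M → M ∈ V → ∃ c U, c ≠ 0 ∧ c ∈ V ∧ V.valuation U = 1 ∧
      M = c ^ N * U := by
    rintro M ⟨c, hc, i, j, rfl⟩ hM
    have hU : V.valuation ((Θ₁ * l₁ ^ N) ^ i * (Θ₂ * l₂ ^ N) ^ j) = 1 := by
      rw [map_mul, map_pow, map_pow, hΘ₁, hΘ₂]; simp
    have e : c ^ N * Θ₁ ^ i * Θ₂ ^ j = (c / (l₁ ^ i * l₂ ^ j)) ^ N *
        ((Θ₁ * l₁ ^ N) ^ i * (Θ₂ * l₂ ^ N) ^ j) := by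
      rw [div_pow, mul_pow, mul_pow, mul_pow, ← pow_mul, ← pow_mul, ← pow_mul, ← pow_mul,
        mul_comm N i, mul_comm N j]
      field_simp
    refine ⟨_, _, by positivity, mem_of_pow hN ?_, hU, e⟩
    have := div_mem_of_v hM hU
    rwa [e, mul_div_cancel_right₀ _ (ne_of_v hU)] at this
  have hα0 : α ≠ 0 := fun h => by simp [h] at hd
  have hβ0 : β ≠ 0 := fun h => by simp [h] at hd
  refine ⟨fun M hM hMV => ?_, fun M hM hMV => ?_, α ^ N, β ^ N, ⟨α, hα0, 0, 0, by simp⟩,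
    ⟨β, hβ0, 0, 0, by simp⟩, pow_mem hα _, pow_mem hβ _, le_of_eq (Eq.symm ?_)⟩
  · obtain ⟨c, U, h0, hc, hU, rfl⟩ := key M hM hMV
    exact pres_core hl₁ hη₁ (mem_of_v hΘ₁) h0 hc (ne_of_v hU) (mem_of_v hU) (ld_unit hη₁ hU)
  · obtain ⟨c, U, h0, hc, hU, rfl⟩ := key M hM hMV
    exact pres_core hl₂ hη₂ (mem_of_v hΘ₂) h0 hc (ne_of_v hU) (mem_of_v hU) (ld_unit hη₂ hU)
  · have e1 : ld η₁ (α ^ N) * ld η₂ (β ^ N) - ld η₁ (β ^ N) * ld η₂ (α ^ N) =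
        (N * N * ((η₁ α * η₂ β - η₁ β * η₂ α) / (l₁ * l₂))) * (l₁ * l₂ / (α * β)) := by
      simp only [ld_pow]; simp only [ld]; field_simp
    have e : Θ₁ * Θ₂ * α ^ N * β ^ N * (ld η₁ (α ^ N) * ld η₂ (β ^ N) -
        ld η₁ (β ^ N) * ld η₂ (α ^ N)) ^ N = (Θ₁ * l₁ ^ N) * (Θ₂ * l₂ ^ N) *
          (N * N * ((η₁ α * η₂ β - η₁ β * η₂ α) / (l₁ * l₂))) ^ N := by
      rw [e1, mul_pow _ (l₁ * l₂ / (α * β)), div_pow (l₁ * l₂), mul_pow l₁, mul_pow α]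
      field_simp
    rw [e, map_mul, map_mul, hΘ₁, hΘ₂, map_pow, map_mul, map_mul, hd, vnat hC hN]; simp

theorem good_ram (hC : ∀ c : ℂ, algebraMap ℂ F c ∈ V) {L : ℕ} (hL : L ≠ 0) {Θ₁ Θ₂ : F}
    {η₁ η₂ : Derivation ℂ F F} {l₁ l₂ : F} (hl₁ : l₁ ≠ 0) (hl₂ : l₂ ≠ 0)
    (hη₁ : ∀ c ∈ V, η₁ c / l₁ ∈ V) (hη₂ : ∀ c ∈ V, η₂ c / l₂ ∈ V) {ϖ : F} (hϖ0 : ϖ ≠ 0)
    (hϖ : V.valuation ϖ < 1) (hm : ∀ c, V.valuation c < 1 → c / ϖ ∈ V)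
    (hΘ₁ : V.valuation (Θ₁ * l₁ ^ (2 * L)) = V.valuation ϖ ^ L)
    (hΘ₂ : V.valuation (Θ₂ * l₂ ^ (2 * L)) = 1) (hη : ld η₂ ϖ / l₂ ∈ V)
    {α : F} (hα : α ∈ V)
    (hd : V.valuation ((η₁ α * η₂ ϖ - η₁ ϖ * η₂ α) / (l₁ * l₂)) = 1) :
    Good (2 * L) Θ₁ Θ₂ η₁ η₂ V := by
  have hN : 2 * L ≠ 0 := by omega
  have hv0 : V.valuation ϖ ≠ 0 := (map_ne_zero _).2 hϖ0
  have hϖV : ϖ ∈ V := vle.1 hϖ.le
  set U₁ := Θ₁ * l₁ ^ (2 * L) / ϖ ^ L with hU₁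
  have vU₁ : V.valuation U₁ = 1 := by
    rw [hU₁, map_div₀, hΘ₁, map_pow, div_self (pow_ne_zero _ hv0)]
  have eU₁ : Θ₁ * l₁ ^ (2 * L) = ϖ ^ L * U₁ := by rw [hU₁]; field_simp
  have eΘ₁ : Θ₁ = ϖ ^ L * U₁ / l₁ ^ (2 * L) := by rw [← eU₁]; field_simp
  have key : ∀ M, Mn (2 * L) Θ₁ Θ₂ M → M ∈ V → ∃ c U, c ≠ 0 ∧ c ∈ V ∧ V.valuation U = 1 ∧
      (M = c ^ (2 * L) * U ∨ M = c ^ (2 * L) * (ϖ ^ L * U)) := by
    rintro M ⟨c, hc, i, j, rfl⟩ hM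
    have hU : V.valuation (U₁ ^ i * (Θ₂ * l₂ ^ (2 * L)) ^ j) = 1 := by
      rw [map_mul, map_pow, map_pow, vU₁, hΘ₂]; simp
    have e : ∀ i' r, i = 2 * i' + r → c ^ (2 * L) * Θ₁ ^ i * Θ₂ ^ j =
        (c * ϖ ^ i' / (l₁ ^ i * l₂ ^ j)) ^ (2 * L) * (ϖ ^ (L * r) *
          (U₁ ^ i * (Θ₂ * l₂ ^ (2 * L)) ^ j)) := by
      intro i' r hi
      have h1 : (ϖ ^ L) ^ i = (ϖ ^ i') ^ (2 * L) * ϖ ^ (L * r) := by rw [hi]; ring
      conv_lhs => rw [eΘ₁]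
      rw [div_pow, div_pow, mul_pow, mul_pow, mul_pow, mul_pow, h1, ← pow_mul l₁, ← pow_mul l₁,
        ← pow_mul l₂, ← pow_mul l₂, mul_comm (2 * L) i, mul_comm (2 * L) j]
      field_simp
    have hc0 : ∀ i', c * ϖ ^ i' / (l₁ ^ i * l₂ ^ j) ≠ 0 := fun _ => by positivity
    rcases Nat.even_or_odd' i with ⟨i', hi | hi⟩
    · have e' := e i' 0 hi
      rw [mul_zero, pow_zero, one_mul] at e'
      refine ⟨_, _, hc0 i', mem_of_pow hN ?_, hU, Or.inl e'⟩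
      have := div_mem_of_v hM hU
      rwa [e', mul_div_cancel_right₀ _ (ne_of_v hU)] at this
    · have e' := e i' 1 hi
      rw [mul_one] at e'
      refine ⟨_, _, hc0 i', ?_, hU, Or.inr e'⟩
      have h1 := div_mem_of_v hM hU
      rw [e', ← mul_assoc, mul_div_cancel_right₀ _ (ne_of_v hU), pow_mul, ← mul_pow] at h1
      replace h1 := mem_of_pow hL h1
      have h0 := hc0 i'
      generalize c * ϖ ^ i' / (l₁ ^ i * l₂ ^ j) = d at h1 h0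
      by_contra hd
      have h2 : V.valuation d⁻¹ < 1 := by
        rw [← vle, not_le] at hd
        rw [map_inv₀]; exact inv_lt_one_of_one_lt₀ hd
      apply hd
      have := V.mul_mem _ _ h1 (hm _ h2)
      convert this using 1
      field_simp
  have hα0 : α ≠ 0 := fun h => by simp [h] at hd
  have hΘ₁V : Θ₁ * l₁ ^ (2 * L) ∈ V := by
    rw [eU₁]; exact V.mul_mem _ _ (pow_mem hϖV _) (mem_of_v vU₁)
  have hΘ0 : Θ₁ ≠ 0 := by rw [eΘ₁]; have := ne_of_v vU₁; positivity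
  refine ⟨fun M hM hMV => ?_, fun M hM hMV => ?_, α ^ (2 * L), Θ₁ * l₁ ^ (2 * L),
    ⟨α, hα0, 0, 0, by simp⟩, ⟨l₁, hl₁, 1, 0, by ring⟩, pow_mem hα _, hΘ₁V,
    le_of_eq (Eq.symm ?_)⟩
  · obtain ⟨c, U, h0, hc, hU, rfl | rfl⟩ := key M hM hMV
    · exact pres_core hl₁ hη₁ hΘ₁V h0 hc (ne_of_v hU) (mem_of_v hU) (ld_unit hη₁ hU)
    · have hU0 := ne_of_v hU
      have : Θ₁ * (c ^ (2 * L) * (ϖ ^ L * U)) * ld η₁ (c ^ (2 * L) * (ϖ ^ L * U)) ^ (2 * L) =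
          U₁ * U * (((2 * L : ℕ) : F) * ϖ * (η₁ c / l₁) + c * L * (η₁ ϖ / l₁) +
            c * ϖ * (ld η₁ U / l₁)) ^ (2 * L) := by
        rw [ld_mul η₁ (pow_ne_zero _ h0) (by positivity), ld_mul η₁ (pow_ne_zero _ hϖ0) hU0,
          ld_pow, ld_pow]
        have : ((2 * L : ℕ) : F) * ϖ * (η₁ c / l₁) + c * L * (η₁ ϖ / l₁) +
            c * ϖ * (ld η₁ U / l₁) = c * ϖ * (((2 * L : ℕ) : F) * ld η₁ c +
              (L * ld η₁ ϖ + ld η₁ U)) / l₁ := by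
          simp only [ld]; field_simp; ring
        rw [this, div_pow, mul_pow, mul_pow]
        conv_lhs => rw [eΘ₁]
        have : ϖ ^ (2 * L) = ϖ ^ L * ϖ ^ L := by ring
        rw [this]
        field_simp
      rw [this]
      exact V.mul_mem _ _ (V.mul_mem _ _ (mem_of_v vU₁) (mem_of_v hU)) (pow_mem (V.add_mem _ _
        (V.add_mem _ _ (V.mul_mem _ _ (V.mul_mem _ _ (natCast_mem V _) hϖV) (hη₁ c hc))
          (V.mul_mem _ _ (V.mul_mem _ _ hc (natCast_mem V _)) (hη₁ ϖ hϖV)))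
        (V.mul_mem _ _ (V.mul_mem _ _ hc hϖV) (ld_unit hη₁ hU))) _)
  · obtain ⟨c, U, h0, hc, hU, rfl | rfl⟩ := key M hM hMV
    · exact pres_core hl₂ hη₂ (mem_of_v hΘ₂) h0 hc (ne_of_v hU) (mem_of_v hU) (ld_unit hη₂ hU)
    · have hU0 := ne_of_v hU
      refine pres_core hl₂ hη₂ (mem_of_v hΘ₂) h0 hc (by positivity)
        (V.mul_mem _ _ (pow_mem hϖV _) (mem_of_v hU)) ?_
      rw [ld_mul η₂ (pow_ne_zero _ hϖ0) hU0, ld_pow, add_div, mul_div_assoc]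
      exact V.add_mem _ _ (V.mul_mem _ _ (natCast_mem V _) hη) (ld_unit hη₂ hU)
  · have hU0 := ne_of_v vU₁
    set Δ := (η₁ α * η₂ ϖ - η₁ ϖ * η₂ α) / (l₁ * l₂) with hΔ
    set e := η₁ α / l₁ * (ld η₂ U₁ / l₂) - ld η₁ U₁ / l₁ * (η₂ α / l₂) with he
    have heV : e ∈ V := sub_mem (V.mul_mem _ _ (hη₁ α hα) (ld_unit hη₂ vU₁))
      (V.mul_mem _ _ (ld_unit hη₁ vU₁) (hη₂ α hα))
    have e1 : ld η₁ (α ^ (2 * L)) * ld η₂ (Θ₁ * l₁ ^ (2 * L)) -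
        ld η₁ (Θ₁ * l₁ ^ (2 * L)) * ld η₂ (α ^ (2 * L)) =
        (((2 * L : ℕ) : F) * (L * Δ + ϖ * e)) * (l₁ * l₂ / (α * ϖ)) := by
      rw [eU₁, ld_mul η₁ (pow_ne_zero _ hϖ0) hU0, ld_mul η₂ (pow_ne_zero _ hϖ0) hU0, hΔ, he]
      simp only [ld_pow]
      generalize ld η₁ U₁ = u₁
      generalize ld η₂ U₁ = u₂
      simp only [ld]; field_simp; ring
    have e2 : Θ₁ * Θ₂ * α ^ (2 * L) * (Θ₁ * l₁ ^ (2 * L)) * (ld η₁ (α ^ (2 * L)) *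
        ld η₂ (Θ₁ * l₁ ^ (2 * L)) - ld η₁ (Θ₁ * l₁ ^ (2 * L)) * ld η₂ (α ^ (2 * L))) ^ (2 * L) =
        U₁ * U₁ * (Θ₂ * l₂ ^ (2 * L)) * (((2 * L : ℕ) : F) * (L * Δ + ϖ * e)) ^ (2 * L) := by
      rw [e1, mul_pow _ (l₁ * l₂ / (α * ϖ)), div_pow (l₁ * l₂), mul_pow l₁, mul_pow α, eU₁]
      conv_lhs => rw [eΘ₁]
      have : ϖ ^ (2 * L) = ϖ ^ L * ϖ ^ L := by ring
      rw [this]
      field_simp
    rw [e2, map_mul, map_mul, map_mul, vU₁, hΘ₂, map_pow, map_mul, vnat hC hN,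
      v_add_of_lt (by rw [map_mul, vnat hC hL, hd, one_mul]) (v_mul_lt hϖ heV)]
    simp

end V

end Crest.Agent.H4.ZL
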