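import Crest.Agent.H4.ZL.Z5

/-! Affine charts of the rational function field and their essential valuations. -/

namespace Crest.Agent.H4.ZL

open Polynomial
open scoped nonZeroDivisors

variable {F : Type} [Field F] [Algebra ℂ F]

/-- polynomial ring of a chart -/
abbrev Ad (α β : F) : Subalgebra ℂ F := Algebra.adjoin ℂ {α, β}

abbrev A1 (α : F) : Subalgebra ℂ F := Algebra.adjoin ℂ {α}

theorem Ad_left (α β : F) : α ∈ Ad α β := Algebra.subset_adjoin (by simp)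
theorem Ad_right (α β : F) : β ∈ Ad α β := Algebra.subset_adjoin (by simp)
theorem A1_self (α : F) : α ∈ A1 α := Algebra.subset_adjoin (by simp)
theorem Ad_comm (α β : F) : Ad α β = Ad β α := by rw [Ad, Set.pair_comm]
theorem A1_le {α : F} {A : Subalgebra ℂ F} (h : α ∈ A) : A1 α ≤ A :=
  Algebra.adjoin_le (by simpa using h)
theorem Ad_le {α β : F} {A : Subalgebra ℂ F} (h : α ∈ A) (h' : β ∈ A) : Ad α β ≤ A :=
  Algebra.adjoin_le (by rintro _ (rfl | rfl) <;> assumption)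

structure Chart (α β : F) : Prop where
  gen : ∀ c : F, ∃ a ∈ Ad α β, ∃ b ∈ Ad α β, b ≠ 0 ∧ c * b = a
  tr : Algebra.trdeg ℂ F = 2

theorem Chart.symm {α β : F} (h : Chart α β) : Chart β α := ⟨by rw [Ad_comm]; exact h.gen, h.tr⟩

theorem frac_of {α β : F} (h : Chart α β) (A : Subalgebra ℂ F)
    (hα : ∃ a ∈ A, ∃ b ∈ A, b ≠ 0 ∧ α * b = a) (hβ : ∃ a ∈ A, ∃ b ∈ A, b ≠ 0 ∧ β * b = a)
    (c : F) : ∃ a ∈ A, ∃ b ∈ A, b ≠ 0 ∧ c * b = a := by
  have key : ∀ c ∈ Ad α β, ∃ a ∈ A, ∃ b ∈ A, b ≠ 0 ∧ c * b = a := by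
    intro c hc
    induction hc using Algebra.adjoin_induction with
    | mem x hx => rcases hx with rfl | rfl <;> assumption
    | algebraMap r => exact ⟨_, A.algebraMap_mem r, 1, A.one_mem, one_ne_zero, mul_one _⟩
    | add x y _ _ hx hy =>
      obtain ⟨a, ha, b, hb, hb0, rfl⟩ := hx
      obtain ⟨a', ha', b', hb', hb0', rfl⟩ := hy
      exact ⟨_, A.add_mem (A.mul_mem ha hb') (A.mul_mem ha' hb), _, A.mul_mem hb hb',
        mul_ne_zero hb0 hb0', by ring⟩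
    | mul x y _ _ hx hy =>
      obtain ⟨a, ha, b, hb, hb0, rfl⟩ := hx
      obtain ⟨a', ha', b', hb', hb0', rfl⟩ := hy
      exact ⟨_, A.mul_mem ha ha', _, A.mul_mem hb hb', mul_ne_zero hb0 hb0', by ring⟩
  obtain ⟨a, ha, b, hb, hb0, rfl⟩ := h.gen c
  obtain ⟨a₁, ha₁, b₁, hb₁, hb₁0, rfl⟩ := key _ ha
  obtain ⟨a₂, ha₂, b₂, hb₂, hb₂0, rfl⟩ := key _ hb
  exact ⟨_, A.mul_mem ha₁ hb₂, _, A.mul_mem ha₂ hb₁, by positivity, by ring⟩

theorem Chart.of {α β α' β' : F} (h : Chart α β)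
    (hα : ∃ a ∈ Ad α' β', ∃ b ∈ Ad α' β', b ≠ 0 ∧ α * b = a)
    (hβ : ∃ a ∈ Ad α' β', ∃ b ∈ Ad α' β', b ≠ 0 ∧ β * b = a) : Chart α' β' :=
  ⟨frac_of h _ hα hβ, h.tr⟩

theorem range_pair (α β : F) : Set.range ![α, β] = {α, β} := by
  ext x; simp [or_comm]

theorem Chart.ind {α β : F} (h : Chart α β) : AlgebraicIndependent ℂ ![α, β] := by
  haveI := isFrac_of _ h.gen
  haveI : Algebra.IsAlgebraic (Algebra.adjoin ℂ (Set.range ![α, β])) F := by
    rw [range_pair]; exact IsLocalization.isAlgebraic F (Ad α β)⁰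
  exact (Algebra.IsAlgebraic.isTranscendenceBasis_of_lift_le_trdeg_of_finite ℂ ![α, β]
    (by rw [h.tr]; simp)).1

theorem Chart.closed {α β : F} (h : Chart α β) {c : F} (hc : II (Ad α β).toSubring c) :
    c ∈ Ad α β := by
  haveI := isFrac_of _ h.gen
  haveI : IsIntegrallyClosed (Ad α β) := by
    rw [Ad, ← range_pair]
    exact IsIntegrallyClosed.of_equiv h.ind.aevalEquiv.toRingEquiv
  obtain ⟨y, hy⟩ := (IsIntegrallyClosed.isIntegral_iff (R := Ad α β) (K := F)).1 hc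
  rw [← hy]; exact y.2

theorem Chart.hom {α β : F} (h : Chart α β) (α' β' : F) :
    ∃ ψ : Ad α β →ₐ[ℂ] F, ψ ⟨α, Ad_left α β⟩ = α' ∧ ψ ⟨β, Ad_right α β⟩ = β' := by
  let e := h.ind.aevalEquiv.trans (Subalgebra.equivOfEq _ (Ad α β) (by rw [range_pair]))
  have e0 : e (MvPolynomial.X 0) = ⟨α, Ad_left α β⟩ := Subtype.ext (by simp [e])
  have e1 : e (MvPolynomial.X 1) = ⟨β, Ad_right α β⟩ := Subtype.ext (by simp [e])
  refine ⟨(MvPolynomial.aeval ![α', β']).comp e.symm.toAlgHom, ?_, ?_⟩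
  · rw [← e0]; simp
  · rw [← e1]; simp

theorem Chart.ne_C {α β : F} (h : Chart α β) (ρ : ℂ) : α - algebraMap ℂ F ρ ≠ 0 := by
  intro h0
  obtain ⟨ψ, h1, -⟩ := h.hom (α + 1) β
  have : (⟨α, Ad_left α β⟩ : Ad α β) = algebraMap ℂ _ ρ := Subtype.ext (sub_eq_zero.1 h0)
  rw [this, AlgHom.commutes, ← sub_eq_zero.1 h0] at h1
  simp at h1

theorem Chart.ne_zero {α β : F} (h : Chart α β) : α ≠ 0 := by simpa using h.ne_C 0

theorem Chart.inv_not_mem {α β : F} (h : Chart α β) : α⁻¹ ∉ Ad α β := by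
  intro hm
  obtain ⟨ψ, h1, -⟩ := h.hom 0 β
  have : (⟨α, Ad_left α β⟩ : Ad α β) * ⟨α⁻¹, hm⟩ = 1 := Subtype.ext (mul_inv_cancel₀ h.ne_zero)
  have h2 := congrArg ψ this
  rw [map_mul, h1, zero_mul, map_one] at h2
  exact zero_ne_one h2

section V
variable {V : ValuationSubring F}

/-- A valuation subring containing `ℂ`, as a subalgebra. -/
def vAlg (V : ValuationSubring F) (hC : ∀ c : ℂ, algebraMap ℂ F c ∈ V) : Subalgebra ℂ F :=
  { V.toSubring with algebraMap_mem' := hC }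

theorem A1_V (hC : ∀ c : ℂ, algebraMap ℂ F c ∈ V) {α a : F} (h : α ∈ V) (ha : a ∈ A1 α) : a ∈ V :=
  A1_le (A := vAlg V hC) h ha

theorem Ad_V (hC : ∀ c : ℂ, algebraMap ℂ F c ∈ V) {α β a : F} (h : α ∈ V) (h' : β ∈ V)
    (ha : a ∈ Ad α β) : a ∈ V :=
  Ad_le (A := vAlg V hC) h h' ha

theorem Ess.hC {R : Subalgebra ℂ F} (h : Ess R V) (c : ℂ) : algebraMap ℂ F c ∈ V :=
  h.1 _ (R.algebraMap_mem c)

theorem v_add_lt {a b : F} (ha : V.valuation a < 1) (hb : V.valuation b < 1) :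
    V.valuation (a + b) < 1 := Valuation.map_add_lt _ ha hb

theorem v_sub_lt {a b : F} (ha : V.valuation a < 1) (hb : V.valuation b < 1) :
    V.valuation (a - b) < 1 := Valuation.map_sub_lt _ ha hb

theorem v_mul_lt' {a b : F} (ha : a ∈ V) (hb : V.valuation b < 1) : V.valuation (a * b) < 1 := by
  rw [mul_comm]; exact v_mul_lt hb ha

theorem v_eq_one {a : F} (ha : a ∈ V) (h : ¬ V.valuation a < 1) : V.valuation a = 1 :=
  le_antisymm (vle.2 ha) (not_lt.1 h)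

theorem root_lt (hC : ∀ c : ℂ, algebraMap ℂ F c ∈ V) {α : F} (hα : α ∈ V) {p : ℂ[X]} (hp : p ≠ 0)
    (hv : V.valuation (aeval α p) < 1) : ∃ ρ : ℂ, V.valuation (α - algebraMap ℂ F ρ) < 1 := by
  by_contra hcon
  push Not at hcon
  apply hv.ne
  rw [(IsAlgClosed.splits p).eq_prod_roots, map_mul, aeval_C, map_mul,
    vC hC (leadingCoeff_ne_zero.2 hp), one_mul, map_multiset_prod, map_multiset_prod]
  apply Multiset.prod_eq_one
  intro z hz
  simp only [Multiset.map_map, Multiset.mem_map, Function.comp] at hz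
  obtain ⟨ρ, -, rfl⟩ := hz
  rw [map_sub, aeval_X, aeval_C]
  exact le_antisymm (vle.2 (sub_mem hα (hC ρ))) (hcon ρ)

theorem root_lt' (hC : ∀ c : ℂ, algebraMap ℂ F c ∈ V) {α s : F} (hα : α ∈ V) (hs : s ∈ A1 α)
    (h0 : s ≠ 0) (hv : V.valuation s < 1) : ∃ ρ : ℂ, V.valuation (α - algebraMap ℂ F ρ) < 1 := by
  rw [A1, Algebra.adjoin_singleton_eq_range_aeval] at hs
  obtain ⟨p, rfl⟩ := hs
  exact root_lt hC hα (p := p) (fun h => h0 (by simp [h])) hv

theorem hom_close (hC : ∀ c : ℂ, algebraMap ℂ F c ∈ V) {α β : F} (hα : α ∈ V) (hβ : β ∈ V)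
    (ψ : Ad α β →ₐ[ℂ] F) (h1 : V.valuation (α - ψ ⟨α, Ad_left α β⟩) < 1)
    (h2 : V.valuation (β - ψ ⟨β, Ad_right α β⟩) < 1) (b : F) (hb : b ∈ Ad α β) :
    V.valuation (b - ψ ⟨b, hb⟩) < 1 := by
  induction hb using Algebra.adjoin_induction with
  | mem x hx => rcases hx with rfl | rfl <;> assumption
  | algebraMap r =>
    have : ψ ⟨algebraMap ℂ F r, Subalgebra.algebraMap_mem _ r⟩ = algebraMap ℂ F r := ψ.commutes r
    rw [this, sub_self, map_zero]; exact zero_lt_one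
  | add x y hx' hy' hx hy =>
    have : ψ ⟨x + y, Subalgebra.add_mem _ hx' hy'⟩ = ψ ⟨x, hx'⟩ + ψ ⟨y, hy'⟩ := map_add ψ ⟨x, hx'⟩ ⟨y, hy'⟩
    rw [this, add_sub_add_comm]; exact v_add_lt hx hy
  | mul x y hx' hy' hx hy =>
    have : ψ ⟨x * y, Subalgebra.mul_mem _ hx' hy'⟩ = ψ ⟨x, hx'⟩ * ψ ⟨y, hy'⟩ := map_mul ψ ⟨x, hx'⟩ ⟨y, hy'⟩
    have e : x * y - ψ ⟨x, hx'⟩ * ψ ⟨y, hy'⟩ = x * (y - ψ ⟨y, hy'⟩) + (x - ψ ⟨x, hx'⟩) * y -
        (x - ψ ⟨x, hx'⟩) * (y - ψ ⟨y, hy'⟩) := by ring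
    rw [this, e]
    exact v_sub_lt (v_add_lt (v_mul_lt' (Ad_V hC hα hβ hx') hy) (v_mul_lt hx (Ad_V hC hα hβ hy')))
      (v_mul_lt hx (vle.1 hy.le))

theorem Chart.nv_aux {α β : F} (h : Chart α β) (hV : Ess (Ad α β) V) {ρ c : ℂ}
    (h2 : V.valuation (β - algebraMap ℂ F c) < 1)
    (h3 : (α - algebraMap ℂ F ρ) / (β - algebraMap ℂ F c) ∈ V) : False := by
  obtain ⟨b, hb, hvb, ha⟩ := hV.2 _ h3
  obtain ⟨ψ, e1, e2⟩ := h.hom α (algebraMap ℂ F c)
  have hp : α - algebraMap ℂ F ρ ∈ Ad α β := sub_mem (Ad_left _ _) (Subalgebra.algebraMap_mem _ _)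
  have hq : β - algebraMap ℂ F c ∈ Ad α β := sub_mem (Ad_right _ _) (Subalgebra.algebraMap_mem _ _)
  have e : (⟨b, hb⟩ : Ad α β) * (⟨α, Ad_left α β⟩ - algebraMap ℂ _ ρ) =
      ⟨_, ha⟩ * (⟨β, Ad_right α β⟩ - algebraMap ℂ _ c) := by
    apply Subtype.ext
    have := h.symm.ne_C c
    change b * (α - algebraMap ℂ F ρ) = b * (_ / _) * (β - algebraMap ℂ F c)
    field_simp
  have e' := congrArg ψ e
  rw [map_mul, map_mul, map_sub, map_sub, e1, e2, AlgHom.commutes, AlgHom.commutes, sub_self,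
    mul_zero, mul_eq_zero] at e'
  have := hom_close hV.hC (hV.1 _ (Ad_left _ _)) (hV.1 _ (Ad_right _ _)) ψ
    (by rw [e1, sub_self, map_zero]; exact zero_lt_one) (by rw [e2]; exact h2) b hb
  rw [e'.resolve_right (h.ne_C ρ), sub_zero, hvb] at this
  exact lt_irrefl _ this

/-- A localisation of a plane at a closed point is not a valuation ring. -/
theorem Chart.nv {α β : F} (h : Chart α β) (hV : Ess (Ad α β) V) {ρ c : ℂ}
    (h1 : V.valuation (α - algebraMap ℂ F ρ) < 1) (h2 : V.valuation (β - algebraMap ℂ F c) < 1) :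
    False := by
  rcases V.mem_or_inv_mem ((α - algebraMap ℂ F ρ) / (β - algebraMap ℂ F c)) with h3 | h3
  · exact h.nv_aux hV h2 h3
  · rw [inv_div] at h3
    exact h.symm.nv_aux (by rwa [Ad_comm]) h1 h3

theorem Ad_split {α β a : F} (ha : a ∈ Ad α β) : ∃ s ∈ A1 β, ∃ a' ∈ Ad α β, a = s + α * a' := by
  have hle : A1 β ≤ Ad α β := A1_le (Ad_right _ _)
  induction ha using Algebra.adjoin_induction with
  | mem x hx =>
    rcases hx with rfl | rfl
    · exact ⟨0, zero_mem _, 1, one_mem _, by ring⟩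
    · exact ⟨_, A1_self _, 0, zero_mem _, by ring⟩
  | algebraMap r => exact ⟨_, Subalgebra.algebraMap_mem _ r, 0, zero_mem _, by ring⟩
  | add x y _ _ hx hy =>
    obtain ⟨s, hs, a, ha, rfl⟩ := hx
    obtain ⟨s', hs', a', ha', rfl⟩ := hy
    exact ⟨_, add_mem hs hs', _, add_mem ha ha', by ring⟩
  | mul x y _ _ hx hy =>
    obtain ⟨s, hs, a, ha, rfl⟩ := hx
    obtain ⟨s', hs', a', ha', rfl⟩ := hy
    exact ⟨_, mul_mem hs hs', s * a' + a * s' + α * a * a', add_mem (add_mem (mul_mem (hle hs) ha')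
      (mul_mem ha (hle hs'))) (mul_mem (mul_mem (Ad_left _ _) ha) ha'), by ring⟩

theorem Chart.dvd {α β : F} (h : Chart α β) (hV : Ess (Ad α β) V) (hα : V.valuation α < 1)
    {a : F} (ha : a ∈ Ad α β) (hva : V.valuation a < 1) : ∃ a' ∈ Ad α β, a = α * a' := by
  obtain ⟨s, hs, a', ha', e⟩ := Ad_split ha
  by_cases h0 : s = 0
  · exact ⟨a', ha', by rw [e, h0, zero_add]⟩
  exfalso
  have hvs : V.valuation s < 1 := by
    rw [← sub_eq_iff_eq_add] at e
    rw [← e]; exact v_sub_lt hva (v_mul_lt hα (hV.1 _ ha'))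
  obtain ⟨ρ, hρ⟩ := root_lt' hV.hC (hV.1 _ (Ad_right _ _)) hs h0 hvs
  exact h.nv hV (ρ := 0) (by simpa using hα) hρ

theorem Chart.unif {α β : F} (h : Chart α β) (hV : Ess (Ad α β) V) (hα : V.valuation α < 1)
    (c : F) (hc : V.valuation c < 1) : c / α ∈ V := by
  obtain ⟨b, hb, hvb, ha⟩ := hV.2 c (vle.1 hc.le)
  obtain ⟨a', ha', e⟩ := h.dvd hV hα ha (v_mul_lt' (mem_of_v hvb) hc)
  have : c / α = a' / b := by
    have := h.ne_zero; have := ne_of_v hvb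
    field_simp; linear_combination e
  rw [this]; exact div_mem_of_v (hV.1 _ ha') hvb

theorem der_Ad (hC : ∀ c : ℂ, algebraMap ℂ F c ∈ V) {α β : F} (hα : α ∈ V) (hβ : β ∈ V)
    {η : Derivation ℂ F F} {l : F} (h1 : η α / l ∈ V) (h2 : η β / l ∈ V) {a : F}
    (ha : a ∈ Ad α β) : η a / l ∈ V := by
  induction ha using Algebra.adjoin_induction with
  | mem x hx => rcases hx with rfl | rfl <;> assumption
  | algebraMap r => rw [η.map_algebraMap, zero_div]; exact V.zero_mem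
  | add x y _ _ hx hy => rw [map_add, add_div]; exact add_mem hx hy
  | mul x y hx' hy' hx hy =>
    rw [η.leibniz, add_div, smul_eq_mul, smul_eq_mul, mul_div_assoc, mul_div_assoc]
    exact add_mem (mul_mem (Ad_V hC hα hβ hx') hy) (mul_mem (Ad_V hC hα hβ hy') hx)

theorem Ess.der {α β : F} (hV : Ess (Ad α β) V) {η : Derivation ℂ F F} {l : F}
    (h1 : η α / l ∈ V) (h2 : η β / l ∈ V) (c : F) (hc : c ∈ V) : η c / l ∈ V := by
  obtain ⟨b, hb, hvb, ha⟩ := hV.2 c hc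
  have k1 := der_Ad hV.hC (hV.1 _ (Ad_left _ _)) (hV.1 _ (Ad_right _ _)) h1 h2 hb
  have k2 := der_Ad hV.hC (hV.1 _ (Ad_left _ _)) (hV.1 _ (Ad_right _ _)) h1 h2 ha
  have : η c / l = (η (b * c) / l - c * (η b / l)) / b := by
    have := ne_of_v hvb
    rw [η.leibniz, smul_eq_mul, smul_eq_mul]; field_simp; ring
  rw [this]
  exact div_mem_of_v (sub_mem k2 (mul_mem hc k1)) hvb

theorem Chart.transfer {α β : F} (h : Chart α β) {S : Set F}
    (hV : Ess (icl (Algebra.adjoin ℂ S)) V) (hα : α ∈ V) (hβ : β ∈ V)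
    (hS : ∀ u ∈ S, ∃ b ∈ Ad α β, V.valuation b = 1 ∧ b * u ∈ Ad α β) : Ess (Ad α β) V := by
  let M : Submonoid F :=
    { carrier := {b | b ∈ Ad α β ∧ V.valuation b = 1}
      mul_mem' := fun ha hb => ⟨mul_mem ha.1 hb.1, by rw [map_mul, ha.2, hb.2, one_mul]⟩
      one_mem' := ⟨one_mem _, map_one _⟩ }
  have h1 : ∀ u ∈ Algebra.adjoin ℂ S, ∃ b ∈ M, b * u ∈ Ad α β := by
    intro u hu
    induction hu using Algebra.adjoin_induction with
    | mem x hx => obtain ⟨b, h1, h2, h3⟩ := hS x hx; exact ⟨b, ⟨h1, h2⟩, h3⟩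
    | algebraMap r => exact ⟨1, M.one_mem, by rw [one_mul]; exact Subalgebra.algebraMap_mem _ r⟩
    | add x y _ _ hx hy =>
      obtain ⟨b, hb, h⟩ := hx
      obtain ⟨b', hb', h'⟩ := hy
      refine ⟨b * b', M.mul_mem hb hb', ?_⟩
      convert add_mem (mul_mem hb'.1 h) (mul_mem hb.1 h') using 1; ring
    | mul x y _ _ hx hy =>
      obtain ⟨b, hb, h⟩ := hx
      obtain ⟨b', hb', h'⟩ := hy
      refine ⟨b * b', M.mul_mem hb hb', ?_⟩
      convert mul_mem h h' using 1; ring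
  have h2 : ∀ u ∈ icl (Algebra.adjoin ℂ S), ∃ b ∈ M, b * u ∈ Ad α β := fun u hu => by
    obtain ⟨b, hb, h'⟩ := II.clear (S := (Ad α β).toSubring) M (fun b hb => hb.1) h1
      (mem_icl'.1 hu)
    exact ⟨b, hb, h.closed h'⟩
  refine ⟨fun r hr => Ad_V hV.hC hα hβ hr, fun c hc => ?_⟩
  obtain ⟨b, hb, hvb, ha⟩ := hV.2 c hc
  obtain ⟨s, hs, h3⟩ := h2 b hb
  obtain ⟨s', hs', h4⟩ := h2 _ ha
  refine ⟨s' * (s * b), mul_mem hs'.1 h3, by rw [map_mul, map_mul, hs.2, hs'.2, hvb]; simp, ?_⟩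
  convert mul_mem hs.1 h4 using 1; ring

theorem const_mod {S : Set F} (hV : Ess (icl (Algebra.adjoin ℂ S)) V)
    (hS : ∀ u ∈ S, V.valuation u < 1) (c : F) (hc : c ∈ V) :
    ∃ ρ : ℂ, V.valuation (c - algebraMap ℂ F ρ) < 1 := by
  have hC := hV.hC
  have h1 : ∀ u ∈ Algebra.adjoin ℂ S, ∃ ρ : ℂ, V.valuation (u - algebraMap ℂ F ρ) < 1 := by
    intro u hu
    induction hu using Algebra.adjoin_induction with
    | mem x hx => exact ⟨0, by simpa using hS x hx⟩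
    | algebraMap r => exact ⟨r, by simp⟩
    | add x y _ _ hx hy =>
      obtain ⟨a, ha⟩ := hx
      obtain ⟨b, hb⟩ := hy
      exact ⟨a + b, by rw [map_add, add_sub_add_comm]; exact v_add_lt ha hb⟩
    | mul x y hx' _ hx hy =>
      obtain ⟨a, ha⟩ := hx
      obtain ⟨b, hb⟩ := hy
      refine ⟨a * b, ?_⟩
      have : x * y - algebraMap ℂ F (a * b) = x * (y - algebraMap ℂ F b) +
          (x - algebraMap ℂ F a) * algebraMap ℂ F b := by rw [map_mul]; ring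
      rw [this]
      exact v_add_lt (v_mul_lt' (hV.1 _ (le_icl _ hx')) hb) (v_mul_lt ha (hC _))
  have h2 : ∀ u ∈ icl (Algebra.adjoin ℂ S), ∃ ρ : ℂ, V.valuation (u - algebraMap ℂ F ρ) < 1 := by
    intro u hu
    have huV := hV.1 u hu
    obtain ⟨p, hm, hp, hu0⟩ := II_iff.1 (mem_icl'.1 hu)
    choose r hr using fun i => h1 _ (hp i)
    let q : ℂ[X] := ∑ i ∈ Finset.range (p.natDegree + 1), monomial i (r i)
    have hq : q ≠ 0 := fun h0 => by
      have : q.coeff p.natDegree = r p.natDegree := by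
        simp [q, finsetSum_coeff, coeff_monomial]
      rw [h0, coeff_zero] at this
      have h3 := hr p.natDegree
      rw [← this, hm.coeff_natDegree] at h3
      simp at h3
    refine root_lt hC huV hq ?_
    have e : aeval u q = - ∑ i ∈ Finset.range (p.natDegree + 1),
        (p.coeff i - algebraMap ℂ F (r i)) * u ^ i := by
      rw [aeval_eq_sum_range] at hu0
      simp only [q, map_sum, aeval_monomial, sub_mul, Finset.sum_sub_distrib]
      simp only [smul_eq_mul] at hu0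
      rw [hu0]; ring
    rw [e, Valuation.map_neg]
    exact Valuation.map_sum_lt _ one_ne_zero fun i _ => v_mul_lt (hr i) (pow_mem huV _)
  obtain ⟨b, hb, hvb, ha⟩ := hV.2 c hc
  obtain ⟨r, hr⟩ := h2 b hb
  obtain ⟨r', hr'⟩ := h2 _ ha
  have hr0 : r ≠ 0 := fun h0 => by
    rw [h0, map_zero, sub_zero, hvb] at hr; exact lt_irrefl _ hr
  refine ⟨r' / r, ?_⟩
  have hr1 : algebraMap ℂ F r ≠ 0 := (_root_.map_ne_zero _).2 hr0
  have : c - algebraMap ℂ F (r' / r) = (b * c - algebraMap ℂ F r' -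
      (b - algebraMap ℂ F r) * c) * algebraMap ℂ F r⁻¹ := by
    rw [map_div₀, map_inv₀]; field_simp; ring
  rw [this]
  exact v_mul_lt (v_sub_lt hr' (v_mul_lt hr hc)) (hC _)

end V

theorem Chart.exists_log {α β : F} (h : Chart α β) : ∃ V : ValuationSubring F,
    Ess (Ad α β) V ∧ V.valuation α < 1 ∧ ∀ η : Derivation ℂ F F, ld η α ∈ V → η β ∈ V →
      ∀ M, M ≠ 0 → ld η M ∈ V := by
  haveI : Algebra.FiniteType ℂ (Ad α β) :=
    (Subalgebra.fg_iff_finiteType _).1 (Subalgebra.fg_def.2 ⟨_, Set.toFinite _, rfl⟩)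
  haveI : IsNoetherianRing (Ad α β) := Algebra.FiniteType.isNoetherianRing ℂ _
  obtain ⟨V, hV, hα⟩ : ∃ V, Ess (Ad α β) V ∧ α⁻¹ ∉ V := by
    by_contra hcon
    push Not at hcon
    exact h.inv_not_mem (mem_of_forall_ess _ h.gen (fun c hc => h.closed hc) _ hcon)
  have hαV := hV.1 _ (Ad_left α β)
  have hv : V.valuation α < 1 := by
    by_contra hcon
    exact hα (inv_mem_of_v (v_eq_one hαV hcon))
  refine ⟨V, hV, hv, fun η h1 h2 M hM => ?_⟩
  have h3 : ∀ c ∈ V, η c / 1 ∈ V := hV.der (by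
    have := mul_mem hαV h1
    rwa [ld, mul_div_cancel₀ _ h.ne_zero, ← div_one (η α)] at this) (by rwa [div_one])
  have key : ∀ a ∈ Ad α β, a ≠ 0 → ld η a ∈ V := by
    intro a ha h0
    obtain ⟨n, a', hn, e⟩ := WfDvdMonoid.max_power_factor' (a₀ := (⟨a, ha⟩ : Ad α β))
      (x := ⟨α, Ad_left α β⟩) (fun h => h0 (congrArg Subtype.val h)) (fun hu => by
        obtain ⟨u, hu⟩ := hu.exists_right_inv
        have : (u : F) = α⁻¹ := eq_inv_of_mul_eq_one_right (congrArg Subtype.val hu)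
        exact h.inv_not_mem (this ▸ u.2))
    have hva : V.valuation (a' : F) = 1 := v_eq_one (hV.1 _ a'.2) fun hlt => by
      obtain ⟨a'', ha'', e'⟩ := h.dvd hV hv a'.2 hlt
      exact hn ⟨⟨a'', ha''⟩, Subtype.ext e'⟩
    have e' : a = α ^ n * a' := congrArg Subtype.val e
    rw [e', ld_mul η (pow_ne_zero _ h.ne_zero) (ne_of_v hva), ld_pow]
    have := ld_unit h3 hva
    rw [div_one] at this
    exact add_mem (mul_mem (natCast_mem V n) h1) this
  obtain ⟨a, ha, b, hb, hb0, e⟩ := h.gen M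
  have := ld_mul η hM hb0
  rw [e] at this
  rw [eq_sub_of_add_eq this.symm]
  exact sub_mem (key a ha (e ▸ mul_ne_zero hM hb0)) (key b hb hb0)

end Crest.Agent.H4.ZL
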