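import Crest.Agent.H4.ZL.Z6

/-! Plane polynomials with prescribed restrictions to four concurrent lines. -/

namespace Crest.Agent.H4.ZL

variable {F : Type} [Field F] [Algebra ℂ F] [CharZero F]

theorem rat_mem (A : Subalgebra ℂ F) (q : ℚ) : (q : F) ∈ A := by
  rw [← map_ratCast (algebraMap ℂ F)]; exact A.algebraMap_mem _

theorem rat_memV {V : ValuationSubring F} (hC : ∀ c : ℂ, algebraMap ℂ F c ∈ V) (q : ℚ) :
    (q : F) ∈ V := by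
  rw [← map_ratCast (algebraMap ℂ F)]; exact hC _

theorem vrat {V : ValuationSubring F} (hC : ∀ c : ℂ, algebraMap ℂ F c ∈ V) {q : ℚ} (hq : q ≠ 0) :
    V.valuation (q : F) = 1 := by
  rw [← map_ratCast (algebraMap ℂ F)]; exact vC hC (by exact_mod_cast hq)

/-- slopes of the four lines -/
def Pn : Fin 4 → ℚ := ![1, 858 / 175, -1, -858 / 175]

def hn (ν : Fin 4) : ℚ := (Pn ν - Pn (ν + 1)) * (Pn ν - Pn (ν + 2)) * (Pn ν - Pn (ν + 3))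

theorem Pn_inj {ν μ : Fin 4} (h : μ ≠ ν) : Pn ν - Pn μ ≠ 0 := by
  fin_cases ν <;> fin_cases μ <;> simp_all [Pn] <;> norm_num

theorem ne1 (ν : Fin 4) : ν + 1 ≠ ν := by revert ν; decide
theorem ne2 (ν : Fin 4) : ν + 2 ≠ ν := by revert ν; decide
theorem ne3 (ν : Fin 4) : ν + 3 ≠ ν := by revert ν; decide

theorem hn_ne (ν : Fin 4) : hn ν ≠ 0 :=
  mul_ne_zero (mul_ne_zero (Pn_inj (by revert ν; decide)) (Pn_inj (by revert ν; decide)))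
    (Pn_inj (by revert ν; decide))

def nn (w : F) (ν : Fin 4) : F := w - Pn ν
def phn (w : F) (ν : Fin 4) : F := nn w (ν + 1) * nn w (ν + 2) * nn w (ν + 3)
def phi (w : F) : F := nn w 0 * nn w 1 * nn w 2 * nn w 3
def dphi (w : F) : F := phn w 0 + phn w 1 + phn w 2 + phn w 3

theorem nn_mem {A : Subalgebra ℂ F} {w : F} (hw : w ∈ A) (ν : Fin 4) : nn w ν ∈ A :=
  sub_mem hw (rat_mem _ _)
theorem phn_mem {A : Subalgebra ℂ F} {w : F} (hw : w ∈ A) (ν : Fin 4) : phn w ν ∈ A :=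
  mul_mem (mul_mem (nn_mem hw _) (nn_mem hw _)) (nn_mem hw _)
theorem phi_mem {A : Subalgebra ℂ F} {w : F} (hw : w ∈ A) : phi w ∈ A :=
  mul_mem (mul_mem (mul_mem (nn_mem hw _) (nn_mem hw _)) (nn_mem hw _)) (nn_mem hw _)
theorem dphi_mem {A : Subalgebra ℂ F} {w : F} (hw : w ∈ A) : dphi w ∈ A :=
  add_mem (add_mem (add_mem (phn_mem hw _) (phn_mem hw _)) (phn_mem hw _)) (phn_mem hw _)

omit [Algebra ℂ F] [CharZero F] in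
theorem phi_eq (w : F) (ν : Fin 4) : phi w = nn w ν * phn w ν := by
  fin_cases ν <;> simp [phi, phn] <;> ring

theorem phn_res {A : Subalgebra ℂ F} {w : F} (hw : w ∈ A) (ν : Fin 4) :
    ∃ s ∈ A, phn w ν = hn ν + nn w ν * s := by
  refine ⟨nn w (ν + 2) * nn w (ν + 3) + (Pn ν - Pn (ν + 1) : ℚ) * nn w (ν + 3) +
    ((Pn ν - Pn (ν + 1)) * (Pn ν - Pn (ν + 2)) : ℚ), add_mem (add_mem (mul_mem (nn_mem hw _)
      (nn_mem hw _)) (mul_mem (rat_mem _ _) (nn_mem hw _))) (rat_mem _ _), ?_⟩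
  simp only [phn, hn, nn]; push_cast; ring

theorem phn_dvd {A : Subalgebra ℂ F} {w x : F} (hx : x ∈ A) (hy : w * x ∈ A) {ν μ : Fin 4}
    (h : μ ≠ ν) : ∃ s ∈ A, x ^ 3 * phn w μ = (x * nn w ν) * s := by
  have hl : ∀ ν, x * nn w ν ∈ A := fun ν => by
    have : x * nn w ν = w * x - Pn ν * x := by rw [nn]; ring
    rw [this]; exact sub_mem hy (mul_mem (rat_mem _ _) hx)
  have : ν = μ + 1 ∨ ν = μ + 2 ∨ ν = μ + 3 := by revert ν μ; decide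
  rcases this with rfl | rfl | rfl
  · exact ⟨_, mul_mem (hl (μ + 2)) (hl (μ + 3)), by rw [phn]; ring⟩
  · exact ⟨_, mul_mem (hl (μ + 1)) (hl (μ + 3)), by rw [phn]; ring⟩
  · exact ⟨_, mul_mem (hl (μ + 1)) (hl (μ + 2)), by rw [phn]; ring⟩

theorem phn_dvd' {A : Subalgebra ℂ F} {w : F} (hw : w ∈ A) {ν μ : Fin 4}
    (h : μ ≠ ν) : ∃ s ∈ A, phn w μ = nn w ν * s := by
  simpa using phn_dvd (x := 1) A.one_mem (by simpa using hw) h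

theorem dphi_res {A : Subalgebra ℂ F} {w : F} (hw : w ∈ A) (ν : Fin 4) :
    ∃ s ∈ A, dphi w = hn ν + nn w ν * s := by
  obtain ⟨s, hs, e⟩ := phn_res hw ν
  obtain ⟨s1, hs1, e1⟩ := phn_dvd' hw (ν := ν) (μ := ν + 1) (ne1 ν)
  obtain ⟨s2, hs2, e2⟩ := phn_dvd' hw (ν := ν) (μ := ν + 2) (ne2 ν)
  obtain ⟨s3, hs3, e3⟩ := phn_dvd' hw (ν := ν) (μ := ν + 3) (ne3 ν)
  refine ⟨s + s1 + s2 + s3, add_mem (add_mem (add_mem hs hs1) hs2) hs3, ?_⟩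
  have : dphi w = phn w ν + phn w (ν + 1) + phn w (ν + 2) + phn w (ν + 3) := by
    fin_cases ν <;> simp [dphi] <;> ring
  rw [this, e, e1, e2, e3]; ring

theorem ell_mem {A : Subalgebra ℂ F} {w x : F} (hx : x ∈ A) (hy : w * x ∈ A) (ν : Fin 4) :
    x * nn w ν ∈ A := by
  have : x * nn w ν = w * x - Pn ν * x := by rw [nn]; ring
  rw [this]; exact sub_mem hy (mul_mem (rat_mem _ _) hx)

theorem phn_O {A : Subalgebra ℂ F} {w x : F} (hx : x ∈ A) (hy : w * x ∈ A) (ν : Fin 4) :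
    x ^ 3 * phn w ν ∈ A := by
  obtain ⟨s, hs, e⟩ := phn_dvd hx hy (ν := ν + 1) (μ := ν) (by revert ν; decide)
  rw [e]; exact mul_mem (ell_mem hx hy _) hs

theorem dphi_O {A : Subalgebra ℂ F} {w x : F} (hx : x ∈ A) (hy : w * x ∈ A) :
    x ^ 3 * dphi w ∈ A := by
  simp only [dphi, mul_add]
  exact add_mem (add_mem (add_mem (phn_O hx hy _) (phn_O hx hy _)) (phn_O hx hy _)) (phn_O hx hy _)

theorem euler_O {A : Subalgebra ℂ F} {w x : F} (hx : x ∈ A) (hy : w * x ∈ A) :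
    x ^ 3 * (w * dphi w - 4 * phi w) ∈ A := by
  have : x ^ 3 * (w * dphi w - 4 * phi w) = Pn 0 * (x ^ 3 * phn w 0) + Pn 1 * (x ^ 3 * phn w 1) +
      Pn 2 * (x ^ 3 * phn w 2) + Pn 3 * (x ^ 3 * phn w 3) := by
    simp [dphi, phi, phn, nn]; ring
  rw [this]
  exact add_mem (add_mem (add_mem (mul_mem (rat_mem _ _) (phn_O hx hy _))
    (mul_mem (rat_mem _ _) (phn_O hx hy _))) (mul_mem (rat_mem _ _) (phn_O hx hy _)))
    (mul_mem (rat_mem _ _) (phn_O hx hy _))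

/-- Lagrange basis -/
def Lg (w : F) (ν : Fin 4) : F := ((hn ν)⁻¹ : ℚ) * phn w ν

omit [Algebra ℂ F] in
theorem lag (w : F) : (Lg w 0 + Lg w 1 + Lg w 2 + Lg w 3 = 1) ∧
    (Lg w 0 * Pn 0 + Lg w 1 * Pn 1 + Lg w 2 * Pn 2 + Lg w 3 * Pn 3 = w) ∧
    (Lg w 0 * Pn 0 ^ 2 + Lg w 1 * Pn 1 ^ 2 + Lg w 2 * Pn 2 ^ 2 + Lg w 3 * Pn 3 ^ 2 = w ^ 2) := by
  refine ⟨?_, ?_, ?_⟩ <;> simp [Lg, hn, phn, nn, Pn] <;> norm_num <;> ring

/-- top three coefficients of a polynomial in `τ` of degree at most `d` -/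
def Jet (τ : F) (d : ℕ) (a : F) (a₀ a₁ a₂ : ℚ) : Prop :=
  a ∈ A1 τ ∧ ∃ s ∈ A1 τ⁻¹, τ⁻¹ ^ d * a = a₀ + a₁ * τ⁻¹ + a₂ * τ⁻¹ ^ 2 + τ⁻¹ ^ 3 * s

theorem Jet.mul {τ a b : F} {d e : ℕ} {a₀ a₁ a₂ b₀ b₁ b₂ : ℚ} (ha : Jet τ d a a₀ a₁ a₂)
    (hb : Jet τ e b b₀ b₁ b₂) :
    Jet τ (d + e) (a * b) (a₀ * b₀) (a₀ * b₁ + a₁ * b₀) (a₀ * b₂ + a₁ * b₁ + a₂ * b₀) := by
  obtain ⟨h1, s, hs, e1⟩ := ha
  obtain ⟨h2, t, ht, e2⟩ := hb
  have hx := A1_self τ⁻¹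
  refine ⟨mul_mem h1 h2, ((a₁ * b₂ + a₂ * b₁ : ℚ) + (a₂ * b₂ : ℚ) * τ⁻¹) +
    s * (b₀ + b₁ * τ⁻¹ + b₂ * τ⁻¹ ^ 2) + (a₀ + a₁ * τ⁻¹ + a₂ * τ⁻¹ ^ 2 + τ⁻¹ ^ 3 * s) * t, ?_, ?_⟩
  · refine add_mem (add_mem (add_mem (rat_mem _ _) (mul_mem (rat_mem _ _) hx)) (mul_mem hs ?_))
      (mul_mem (add_mem ?_ (mul_mem (pow_mem hx _) hs)) ht) <;>
    exact add_mem (add_mem (rat_mem _ _) (mul_mem (rat_mem _ _) hx))
      (mul_mem (rat_mem _ _) (pow_mem hx _))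
  · rw [pow_add, mul_mul_mul_comm, e1, e2]; push_cast; ring

theorem Jet.one (τ : F) : Jet τ 0 1 1 0 0 := ⟨one_mem _, 0, zero_mem _, by simp⟩

theorem Jet.congr {τ a : F} {d e : ℕ} {a₀ a₁ a₂ b₀ b₁ b₂ : ℚ} (ha : Jet τ d a a₀ a₁ a₂)
    (h : d = e) (h0 : a₀ = b₀) (h1 : a₁ = b₁) (h2 : a₂ = b₂) : Jet τ e a b₀ b₁ b₂ := by
  subst h h0 h1 h2; exact ha

theorem Jet.pow {τ a : F} {d : ℕ} {a₁ a₂ : ℚ} (ha : Jet τ d a 1 a₁ a₂) (n : ℕ) :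
    Jet τ (d * n) (a ^ n) 1 (n * a₁) (n * a₂ + n * (n - 1) / 2 * a₁ ^ 2) := by
  induction n with
  | zero => simpa using Jet.one τ
  | succ n ih =>
    rw [pow_succ]
    exact (ih.mul ha).congr (by ring) (by ring) (by push_cast; ring) (by push_cast; ring)

theorem Jet.add {τ a b : F} {d : ℕ} {a₀ a₁ a₂ b₀ b₁ b₂ : ℚ} (ha : Jet τ d a a₀ a₁ a₂)
    (hb : Jet τ d b b₀ b₁ b₂) : Jet τ d (a + b) (a₀ + b₀) (a₁ + b₁) (a₂ + b₂) := by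
  obtain ⟨h1, s, hs, e1⟩ := ha
  obtain ⟨h2, t, ht, e2⟩ := hb
  exact ⟨add_mem h1 h2, s + t, add_mem hs ht, by rw [mul_add, e1, e2]; push_cast; ring⟩

theorem Jet.rat (τ : F) (q : ℚ) : Jet τ 0 (q : F) q 0 0 := ⟨rat_mem _ _, 0, zero_mem _, by simp⟩

theorem Jet.self {τ : F} (h : τ ≠ 0) : Jet τ 1 τ 1 0 0 :=
  ⟨A1_self _, 0, zero_mem _, by simp [h]⟩

theorem Jet.shift {τ a : F} {d : ℕ} {a₀ a₁ a₂ : ℚ} (ha : Jet τ d a a₀ a₁ a₂) :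
    Jet τ (d + 1) a 0 a₀ a₁ := by
  obtain ⟨h1, s, hs, e1⟩ := ha
  exact ⟨h1, a₂ + τ⁻¹ * s, add_mem (rat_mem _ _) (mul_mem (A1_self _) hs), by
    rw [pow_succ', mul_assoc, e1]; push_cast; ring⟩

/-- Horner step -/
theorem Jet.horner {τ a : F} (h : τ ≠ 0) {d : ℕ} {a₀ a₁ a₂ : ℚ} (ha : Jet τ (d + 2) a a₀ a₁ a₂)
    (q : ℚ) : Jet τ (d + 3) (a * τ + q) a₀ a₁ a₂ := by
  have h2 : ∀ e, Jet τ (e + 3) (q : F) 0 0 0 := fun e => by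
    induction e with
    | zero => exact (Jet.rat τ q).shift.shift.shift
    | succ e ih => exact ih.shift
  exact ((ha.mul (Jet.self h)).add (h2 d)).congr rfl (by ring) (by ring) (by ring)

theorem Jet.quad {τ : F} (h : τ ≠ 0) (a₀ a₁ a₂ : ℚ) :
    Jet τ 2 (a₀ * τ ^ 2 + a₁ * τ + a₂) a₀ a₁ a₂ :=
  ⟨add_mem (add_mem (mul_mem (rat_mem _ _) (pow_mem (A1_self _) _))
    (mul_mem (rat_mem _ _) (A1_self _))) (rat_mem _ _), 0, zero_mem _, by field_simp; ring⟩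

theorem Jet.lin {τ : F} (h : τ ≠ 0) (a₀ a₁ : ℚ) : Jet τ 1 (a₀ * τ + a₁) a₀ a₁ 0 :=
  ⟨add_mem (mul_mem (rat_mem _ _) (A1_self _)) (rat_mem _ _), 0, zero_mem _, by
    field_simp; push_cast; ring⟩

/-- A plane polynomial of degree at most `δ` with restrictions `p ν` to the lines. -/
structure Pl (τ w : F) (δ : ℕ) (a : F) (p : Fin 4 → F) : Prop where
  resI : ∀ ν, ∃ s ∈ Ad τ w, a = p ν + nn w ν * s
  memT : ∀ ν, p ν ∈ A1 τ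
  memO : τ⁻¹ ^ δ * a ∈ Ad τ⁻¹ (w * τ⁻¹)
  resO : ∀ ν, ∃ s ∈ Ad τ⁻¹ (w * τ⁻¹), τ⁻¹ ^ δ * a = τ⁻¹ ^ δ * p ν + τ⁻¹ * nn w ν * s
  bd : ∀ V : ValuationSubring F, (∀ c : ℂ, algebraMap ℂ F c ∈ V) → w⁻¹ ∈ V → τ / w ∈ V →
    a / w ^ δ ∈ V

theorem Pl.memI {τ w a : F} {δ : ℕ} {p : Fin 4 → F} (h : Pl τ w δ a p) : a ∈ Ad τ w := by
  obtain ⟨s, hs, e⟩ := h.resI 0
  rw [e]
  exact add_mem (A1_le (Ad_left _ _) (h.memT 0)) (mul_mem (nn_mem (Ad_right _ _) _) hs)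

theorem Pl.mul {τ w a b : F} {δ ε : ℕ} {p q : Fin 4 → F} (ha : Pl τ w δ a p)
    (hb : Pl τ w ε b q) : Pl τ w (δ + ε) (a * b) (fun ν => p ν * q ν) := by
  refine ⟨fun ν => ?_, fun ν => mul_mem (ha.memT ν) (hb.memT ν), ?_, fun ν => ?_,
    fun V hC h1 h2 => ?_⟩
  · obtain ⟨s, hs, e⟩ := ha.resI ν
    obtain ⟨t, ht, e'⟩ := hb.resI ν
    exact ⟨s * b + p ν * t, add_mem (mul_mem hs hb.memI)
      (mul_mem (A1_le (Ad_left _ _) (ha.memT ν)) ht), by linear_combination b * e + p ν * e'⟩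
  · rw [pow_add, mul_mul_mul_comm]; exact mul_mem ha.memO hb.memO
  · obtain ⟨s, hs, e⟩ := ha.resO ν
    obtain ⟨t, ht, e'⟩ := hb.resO ν
    refine ⟨s * (τ⁻¹ ^ ε * b) + (τ⁻¹ ^ δ * a - τ⁻¹ * nn w ν * s) * t, add_mem (mul_mem hs hb.memO)
      (mul_mem (sub_mem ha.memO (mul_mem (ell_mem (Ad_left _ _) (Ad_right _ _) _) hs)) ht), ?_⟩
    rw [pow_add, mul_mul_mul_comm, mul_mul_mul_comm _ _ (p ν), e, e']; ring
  · rw [pow_add, ← div_mul_div_comm]; exact mul_mem (ha.bd V hC h1 h2) (hb.bd V hC h1 h2)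

theorem Pl.sub {τ w a b : F} {δ : ℕ} {p q : Fin 4 → F} (ha : Pl τ w δ a p)
    (hb : Pl τ w δ b q) : Pl τ w δ (a - b) (fun ν => p ν - q ν) := by
  refine ⟨fun ν => ?_, fun ν => sub_mem (ha.memT ν) (hb.memT ν), ?_, fun ν => ?_,
    fun V hC h1 h2 => ?_⟩
  · obtain ⟨s, hs, e⟩ := ha.resI ν
    obtain ⟨t, ht, e'⟩ := hb.resI ν
    exact ⟨s - t, sub_mem hs ht, by rw [e, e']; ring⟩
  · rw [mul_sub]; exact sub_mem ha.memO hb.memO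
  · obtain ⟨s, hs, e⟩ := ha.resO ν
    obtain ⟨t, ht, e'⟩ := hb.resO ν
    exact ⟨s - t, sub_mem hs ht, by rw [mul_sub, e, e']; ring⟩
  · rw [sub_div]; exact sub_mem (ha.bd V hC h1 h2) (hb.bd V hC h1 h2)

theorem Pl.tau {τ w : F} (h : τ ≠ 0) : Pl τ w 1 τ (fun _ => τ) :=
  ⟨fun _ => ⟨0, zero_mem _, by simp⟩, fun _ => A1_self _, by simp [h],
    fun _ => ⟨0, zero_mem _, by simp⟩, fun V _ _ h2 => by simpa using h2⟩

theorem Pl.congr {τ w a : F} {δ : ℕ} {p q : Fin 4 → F} (ha : Pl τ w δ a p) (h : ∀ ν, p ν = q ν) :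
    Pl τ w δ a q := by rwa [← funext h]

/-- Lagrange interpolation -/
def hat (w : F) (p : Fin 4 → F) : F := Lg w 0 * p 0 + Lg w 1 * p 1 + Lg w 2 * p 2 + Lg w 3 * p 3

theorem Pl_hat {τ w : F} (hτ : τ ≠ 0) (hw : w ≠ 0) {d : ℕ} {p : Fin 4 → F} (α₀ α₁ β₁ α₂ β₂ γ₂ : ℚ)
    (h : ∀ ν, Jet τ (d + 3) (p ν) α₀ (α₁ + β₁ * Pn ν) (α₂ + β₂ * Pn ν + γ₂ * Pn ν ^ 2)) :
    Pl τ w (d + 3) (hat w p) p := by
  obtain ⟨l0, l1, l2⟩ := lag w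
  choose s hs e using fun ν => (h ν).2
  have hT := fun ν => (h ν).1
  have hx := Ad_left τ⁻¹ (w * τ⁻¹)
  have hy := Ad_right τ⁻¹ (w * τ⁻¹)
  have hsO : ∀ ν, s ν ∈ Ad τ⁻¹ (w * τ⁻¹) := fun ν => A1_le hx (hs ν)
  have eO : τ⁻¹ ^ (d + 3) * hat w p = α₀ + (α₁ + β₁ * w) * τ⁻¹ + (α₂ + β₂ * w + γ₂ * w ^ 2) *
      τ⁻¹ ^ 2 + τ⁻¹ ^ 3 * hat w s := by
    have e0 := e 0; have e1 := e 1; have e2 := e 2; have e3 := e 3
    push_cast at e0 e1 e2 e3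
    rw [hat, hat]
    linear_combination Lg w 0 * e0 + Lg w 1 * e1 + Lg w 2 * e2 + Lg w 3 * e3 +
      (α₀ + α₁ * τ⁻¹ + α₂ * τ⁻¹ ^ 2) * l0 + (β₁ * τ⁻¹ + β₂ * τ⁻¹ ^ 2) * l1 + γ₂ * τ⁻¹ ^ 2 * l2
  have hatres : ∀ (A : Subalgebra ℂ F) (x : F), x ∈ A → w * x ∈ A → ∀ q : Fin 4 → F,
      (∀ ν, q ν ∈ A) → ∀ ν, ∃ t ∈ A, x ^ 3 * hat w q = x ^ 3 * q ν + x * nn w ν * t := by
    intro A x hx hy q hq ν
    have : ∀ μ, ∃ t ∈ A, x ^ 3 * Lg w μ * (q μ - q ν) = x * nn w ν * t := fun μ => by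
      by_cases hμ : μ = ν
      · exact ⟨0, zero_mem _, by simp [hμ]⟩
      · obtain ⟨t, ht, e⟩ := phn_dvd hx hy hμ
        exact ⟨((hn μ)⁻¹ : ℚ) * t * (q μ - q ν), mul_mem (mul_mem (rat_mem _ _) ht)
          (sub_mem (hq _) (hq _)), by rw [Lg]; linear_combination ((hn μ)⁻¹ : ℚ) * (q μ - q ν) * e⟩
    choose t ht e using this
    refine ⟨t 0 + t 1 + t 2 + t 3, add_mem (add_mem (add_mem (ht _) (ht _)) (ht _)) (ht _), ?_⟩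
    rw [hat]
    linear_combination e 0 + e 1 + e 2 + e 3 + x ^ 3 * q ν * l0
  have hO3 : τ⁻¹ ^ 3 * hat w s ∈ Ad τ⁻¹ (w * τ⁻¹) := by
    obtain ⟨t, ht, e⟩ := hatres _ _ hx hy s hsO 0
    rw [e]
    exact add_mem (mul_mem (pow_mem hx _) (hsO _)) (mul_mem (ell_mem hx hy _) ht)
  refine ⟨fun ν => ?_, hT, ?_, fun ν => ?_, fun V hC h1 h2 => ?_⟩
  · simpa using hatres (Ad τ w) 1 (one_mem _) (by simpa using Ad_right τ w) p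
      (fun ν => A1_le (Ad_left _ _) (hT ν)) ν
  · have : τ⁻¹ ^ (d + 3) * hat w p = α₀ + (α₁ * τ⁻¹ + β₁ * (w * τ⁻¹)) + (α₂ * τ⁻¹ ^ 2 +
        β₂ * (w * τ⁻¹) * τ⁻¹ + γ₂ * (w * τ⁻¹) ^ 2) + τ⁻¹ ^ 3 * hat w s := by rw [eO]; ring
    rw [this]
    exact add_mem (add_mem (add_mem (rat_mem _ _) (add_mem (mul_mem (rat_mem _ _) hx)
      (mul_mem (rat_mem _ _) hy))) (add_mem (add_mem (mul_mem (rat_mem _ _) (pow_mem hx _))
      (mul_mem (mul_mem (rat_mem _ _) hy) hx)) (mul_mem (rat_mem _ _) (pow_mem hy _)))) hO3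
  · obtain ⟨t, ht, e'⟩ := hatres _ _ hx hy s hsO ν
    refine ⟨β₁ + β₂ * τ⁻¹ + γ₂ * (w * τ⁻¹ + Pn ν * τ⁻¹) + t, add_mem (add_mem (add_mem
      (rat_mem _ _) (mul_mem (rat_mem _ _) hx)) (mul_mem (rat_mem _ _) (add_mem hy
        (mul_mem (rat_mem _ _) hx)))) ht, ?_⟩
    rw [eO, e ν, e', nn]; push_cast; ring
  · have hs' : ∀ ν, s ν * (τ / w) ^ d ∈ V := fun ν => by
      rcases V.mem_or_inv_mem τ with ht | ht
      · have : s ν * (τ / w) ^ d = (p ν - (α₀ * τ ^ (d + 3) + (α₁ + β₁ * Pn ν : ℚ) * τ ^ (d + 2) +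
            (α₂ + β₂ * Pn ν + γ₂ * Pn ν ^ 2 : ℚ) * τ ^ (d + 1))) * w⁻¹ ^ d := by
          have e1 := e ν
          have : p ν = τ ^ (d + 3) * (τ⁻¹ ^ (d + 3) * p ν) := by
            rw [← mul_assoc, ← mul_pow, mul_inv_cancel₀ hτ, one_pow, one_mul]
          rw [this, e1]; field_simp; ring
        rw [this]
        exact mul_mem (sub_mem (A1_V hC ht (hT ν)) (add_mem (add_mem (mul_mem (rat_memV hC _)
          (pow_mem ht _)) (mul_mem (rat_memV hC _) (pow_mem ht _))) (mul_mem (rat_memV hC _)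
            (pow_mem ht _)))) (pow_mem h1 _)
      · exact mul_mem (A1_V hC ht (hs ν)) (pow_mem h2 _)
    have hL : ∀ ν, w⁻¹ ^ 3 * Lg w ν ∈ V := fun ν => by
      rw [Lg, mul_left_comm]
      exact mul_mem (rat_memV hC _) (phn_O (A := vAlg V hC) h1
        (by rw [mul_inv_cancel₀ hw]; exact one_mem _) ν)
    have : hat w p / w ^ (d + 3) = α₀ * (τ / w) ^ (d + 3) + (α₁ * w⁻¹ + β₁) * (τ / w) ^ (d + 2) +
        (α₂ * w⁻¹ ^ 2 + β₂ * w⁻¹ + γ₂) * (τ / w) ^ (d + 1) +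
        (w⁻¹ ^ 3 * Lg w 0 * (s 0 * (τ / w) ^ d) + w⁻¹ ^ 3 * Lg w 1 * (s 1 * (τ / w) ^ d) +
          w⁻¹ ^ 3 * Lg w 2 * (s 2 * (τ / w) ^ d) + w⁻¹ ^ 3 * Lg w 3 * (s 3 * (τ / w) ^ d)) := by
      have : hat w p = τ ^ (d + 3) * (τ⁻¹ ^ (d + 3) * hat w p) := by
        rw [← mul_assoc, ← mul_pow, mul_inv_cancel₀ hτ, one_pow, one_mul]
      rw [this, eO, hat]; simp only [div_pow]; field_simp; ring
    rw [this]
    exact add_mem (add_mem (add_mem (mul_mem (rat_memV hC _) (pow_mem h2 _)) (mul_mem (add_mem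
      (mul_mem (rat_memV hC _) h1) (rat_memV hC _)) (pow_mem h2 _))) (mul_mem (add_mem (add_mem
        (mul_mem (rat_memV hC _) (pow_mem h1 _)) (mul_mem (rat_memV hC _) h1)) (rat_memV hC _))
        (pow_mem h2 _))) (add_mem (add_mem (add_mem (mul_mem (hL _) (hs' _))
          (mul_mem (hL _) (hs' _))) (mul_mem (hL _) (hs' _))) (mul_mem (hL _) (hs' _)))

end Crest.Agent.H4.ZL
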