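import Crest.Agent.H4.ZL.Z7

/-! The data of the construction and its first properties. -/

namespace Crest.Agent.H4.ZL

variable {F : Type} [Field F] [Algebra ℂ F] [CharZero F]

def PP (P : Fin 3 → F) (e : Fin 3 → ℕ) : F := P 0 ^ e 0 * P 1 ^ e 1 * P 2 ^ e 2

def Dd (P dP : Fin 3 → F) (k : Fin 3 → ℕ) : F :=
  k 0 * dP 0 * P 1 * P 2 + k 1 * P 0 * dP 1 * P 2 + k 2 * P 0 * P 1 * dP 2

def Rl (P dP : Fin 3 → F) (k mu : Fin 3 → ℕ) (t b : F) (h : ℚ) : F :=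
  ((-4 * h)⁻¹ : ℚ) * PP P (fun g => mu g - 1) * (t * Dd P dP k + b * PP P 1)

def Ql (τ : F) (P dP : Fin 3 → F) (k mu : Fin 3 → ℕ) (t b : F) (h : ℚ) : F :=
  PP P mu * t + h * τ * Rl P dP k mu t b h

section PP
omit [CharZero F]

omit [Algebra ℂ F] in
theorem PP_add (P : Fin 3 → F) (e e' : Fin 3 → ℕ) :
    PP P (fun g => e g + e' g) = PP P e * PP P e' := by
  simp only [PP, pow_add]; ring

omit [Algebra ℂ F] in
theorem PP_pow (P : Fin 3 → F) (e : Fin 3 → ℕ) (n : ℕ) :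
    PP P (fun g => e g * n) = PP P e ^ n := by
  simp only [PP, pow_mul, mul_pow]

omit [Algebra ℂ F] in
theorem PP_le (P : Fin 3 → F) {e e' : Fin 3 → ℕ} (h : ∀ g, e g ≤ e' g) :
    PP P e' = PP P e * PP P (fun g => e' g - e g) := by
  rw [← PP_add]; congr 1; funext g; have := h g; omega

omit [Algebra ℂ F] in
theorem PP_single (P : Fin 3 → F) (g : Fin 3) : PP P (fun g' => if g' = g then 1 else 0) = P g := by
  fin_cases g <;> simp [PP]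

theorem PP_mem {A : Subalgebra ℂ F} {P : Fin 3 → F} (h : ∀ g, P g ∈ A) (e : Fin 3 → ℕ) :
    PP P e ∈ A := mul_mem (mul_mem (pow_mem (h _) _) (pow_mem (h _) _)) (pow_mem (h _) _)

omit [Algebra ℂ F] in
theorem PP_ne {P : Fin 3 → F} (h : ∀ g, P g ≠ 0) (e : Fin 3 → ℕ) : PP P e ≠ 0 :=
  mul_ne_zero (mul_ne_zero (pow_ne_zero _ (h _)) (pow_ne_zero _ (h _))) (pow_ne_zero _ (h _))

omit [Algebra ℂ F] in
theorem v_PP {V : ValuationSubring F} {P : Fin 3 → F} {g : Fin 3}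
    (h : ∀ g', g' ≠ g → V.valuation (P g') = 1) (e : Fin 3 → ℕ) :
    V.valuation (PP P e) = V.valuation (P g) ^ e g := by
  simp only [PP, map_mul, map_pow]
  fin_cases g
  · simp [h 1 (by decide), h 2 (by decide)]
  · simp [h 0 (by decide), h 2 (by decide)]
  · simp [h 0 (by decide), h 1 (by decide)]

omit [Algebra ℂ F] in
theorem PP_deg (x : F) (P : Fin 3 → F) (d e : Fin 3 → ℕ) :
    x ^ (d 0 * e 0 + d 1 * e 1 + d 2 * e 2) * PP P e = PP (fun g => x ^ d g * P g) e := by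
  simp only [PP, mul_pow, pow_add, pow_mul]; ring

theorem ld_PP (η : Derivation ℂ F F) {τ : F} {P dP : Fin 3 → F} (h0 : ∀ g, P g ≠ 0)
    (h : ∀ g, η (P g) = dP g * η τ) (k : Fin 3 → ℕ) :
    ld η (PP P k) = Dd P dP k / PP P 1 * η τ := by
  have := h0 0; have := h0 1; have := h0 2
  rw [PP, ld_mul η (by positivity) (by positivity), ld_mul η (by positivity) (by positivity),
    ld_pow, ld_pow, ld_pow]
  simp only [ld, h, Dd, PP, Pi.one_apply, pow_one]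
  field_simp

theorem Dd_mem {A : Subalgebra ℂ F} {P dP : Fin 3 → F} (h : ∀ g, P g ∈ A) (h' : ∀ g, dP g ∈ A)
    (k : Fin 3 → ℕ) : Dd P dP k ∈ A :=
  add_mem (add_mem (mul_mem (mul_mem (mul_mem (natCast_mem _ _) (h' _)) (h _)) (h _))
    (mul_mem (mul_mem (mul_mem (natCast_mem _ _) (h _)) (h' _)) (h _)))
    (mul_mem (mul_mem (mul_mem (natCast_mem _ _) (h _)) (h _)) (h' _))

end PP

structure Data (τ w : F) where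
  Pg : Fin 4 → Fin 3 → F
  dP : Fin 4 → Fin 3 → F
  dg : Fin 4 → Fin 3 → ℕ
  k : Fin 4 → Fin 3 → ℕ
  mu : Fin 2 → Fin 4 → Fin 3 → ℕ
  m : Fin 2 → Fin 4 → Fin 3 → ℕ
  z : Fin 4 → Fin 3
  t : Fin 2 → Fin 4 → F
  b : Fin 2 → Fin 4 → F
  Qh : Fin 2 → F
  Rh : Fin 2 → F
  Gh : Fin 2 → F
  κ : Fin 4 → ℚ
  e : Fin 2 → Fin 4 → ℕ
  ea : ℕ
  eb : ℕ
  ec : ℕ
  L : ℕ
  Pjet : ∀ ν g, ∃ a₁ a₂, Jet τ (dg ν g) (Pg ν g) 1 a₁ a₂
  dPT : ∀ ν g, dP ν g ∈ A1 τ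
  hdP : ∀ (η : Derivation ℂ F F) ν g, η (Pg ν g) = dP ν g * η τ
  cop : ∀ ν g g', g' ≠ g → ∃ a ∈ A1 τ, ∃ b ∈ A1 τ, a * Pg ν g + b * Pg ν g' = 1
  hz : ∀ ν, Pg ν (z ν) = τ
  tT : ∀ i ν, t i ν ∈ A1 τ
  bT : ∀ i ν, b i ν ∈ A1 τ
  hQ : ∀ i, Pl τ w 8 (Qh i) fun ν => Ql τ (Pg ν) (dP ν) (k ν) (mu i ν) (t i ν) (b i ν) (hn ν)
  hR : ∀ i, Pl τ w 5 (Rh i) fun ν => Rl (Pg ν) (dP ν) (k ν) (mu i ν) (t i ν) (b i ν) (hn ν)
  hG : ∀ i, Pl τ w 91 (Gh i) fun ν => PP (Pg ν) (m i ν)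
  hκ : ∀ ν, t 0 ν * b 1 ν - t 1 ν * b 0 ν = κ ν
  κ0 : ∀ ν, κ ν ≠ 0
  mu1 : ∀ i ν g, 1 ≤ mu i ν g
  mk' : ∀ i ν g, m i ν g ≤ k ν g
  muk : ∀ ν g, mu 0 ν g + mu 1 ν g < k ν g
  mtk : ∀ ν g, m 0 ν g + m 1 ν g + (mu 0 ν g + mu 1 ν g) + 1 ≤ 2 * k ν g
  mtd : ∀ ν g, 8 ≤ dg ν g * (m 0 ν g + m 1 ν g)
  hdeg : ∀ ν, dg ν 0 * (m 0 ν 0 + m 1 ν 0 + (mu 0 ν 0 + mu 1 ν 0) + if 0 = z ν then 1 else 0) +
    dg ν 1 * (m 0 ν 1 + m 1 ν 1 + (mu 0 ν 1 + mu 1 ν 1) + if 1 = z ν then 1 else 0) +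
    dg ν 2 * (m 0 ν 2 + m 1 ν 2 + (mu 0 ν 2 + mu 1 ν 2) + if 2 = z ν then 1 else 0) = 196
  hL : L ≠ 0
  hexp : ∀ i ν g, k ν g * e i ν + m (i + 1) ν g * ea + mu i ν g * (2 * L) =
    (mu 0 ν g + mu 1 ν g) * eb + m i ν g * ec +
      if (i = 0 ∧ ν = 0 ∨ i = 1 ∧ ν = 2) ∧ g = z ν then L else 0
  hexpO : ∀ i, e i 0 + e i 1 + e i 2 + e i 3 + 91 * ea + 7 * (2 * L) = 13 * eb + 91 * ec
  e0 : ∀ i, e i 0 ≠ 0
  ram0 : ∃ s ∈ A1 τ, t 1 0 = τ * s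
  ram2 : ∃ s ∈ A1 τ, t 0 2 = τ * s

namespace Data
variable {τ w : F} (D : Data τ w)

def mt (ν : Fin 4) (g : Fin 3) : ℕ :=
  D.m 0 ν g + D.m 1 ν g + (D.mu 0 ν g + D.mu 1 ν g) + if g = D.z ν then 1 else 0

def Γ : F := D.Qh 0 * D.Rh 1 - D.Qh 1 * D.Rh 0
def G : F := D.Gh 0 * D.Gh 1 * D.Γ * τ
def κ' (ν : Fin 4) : ℚ := D.κ ν * (-4 * hn ν)⁻¹
def Θ (i : Fin 2) : F := (nn w 0 ^ D.e i 0 * nn w 1 ^ D.e i 1 * nn w 2 ^ D.e i 2 *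
  nn w 3 ^ D.e i 3) * D.Gh (i + 1) ^ D.ea / (D.Γ ^ D.eb * D.Gh i ^ D.ec)
def K (ν : Fin 4) : F := PP (D.Pg ν) (D.k ν)
def n' (ν : Fin 4) : F := nn w ν / D.K ν
def u (ν : Fin 4) (g : Fin 3) : F := nn w ν ^ D.mt ν g * phn w ν ^ (2 * D.k ν g) *
  PP (D.Pg ν) (fun g' => if g' = g then 0 else D.mt ν g') ^ D.k ν g / D.G ^ D.k ν g
def gens : Set F := {phi w ^ 2 * τ ^ 188 / D.G, phi w ^ 2 * τ ^ 187 / D.G,
  phi w ^ 2 * (w * τ ^ 187) / D.G, phi w ^ 2 * 1 / D.G, phi w ^ 2 * w ^ 188 / D.G} ∪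
  Set.range fun p : Fin 4 × Fin 3 => D.u p.1 p.2

theorem κ'0 (ν : Fin 4) : D.κ' ν ≠ 0 :=
  mul_ne_zero (D.κ0 ν) (inv_ne_zero (mul_ne_zero (by norm_num) (hn_ne ν)))

theorem PgT (ν : Fin 4) (g : Fin 3) : D.Pg ν g ∈ A1 τ := by
  obtain ⟨_, _, h, -⟩ := D.Pjet ν g; exact h

theorem Pg_rev (ν : Fin 4) (g : Fin 3) : ∃ s ∈ A1 τ⁻¹, τ⁻¹ ^ D.dg ν g * D.Pg ν g = 1 + τ⁻¹ * s := by
  obtain ⟨a₁, a₂, -, s, hs, e⟩ := D.Pjet ν g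
  exact ⟨a₁ + a₂ * τ⁻¹ + τ⁻¹ ^ 2 * s, add_mem (add_mem (rat_mem _ _) (mul_mem (rat_mem _ _)
    (A1_self _))) (mul_mem (pow_mem (A1_self _) _) hs), by rw [e]; push_cast; ring⟩

theorem Pg_revX (ν : Fin 4) (g : Fin 3) : τ⁻¹ ^ D.dg ν g * D.Pg ν g ∈ A1 τ⁻¹ := by
  obtain ⟨s, hs, e⟩ := D.Pg_rev ν g
  rw [e]; exact add_mem (one_mem _) (mul_mem (A1_self _) hs)

theorem hΓ (hP : ∀ ν g, D.Pg ν g ≠ 0) :
    Pl τ w 13 D.Γ fun ν => D.κ' ν * PP (D.Pg ν) fun g => D.mu 0 ν g + D.mu 1 ν g := by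
  refine (((D.hQ 0).mul (D.hR 1)).sub ((D.hQ 1).mul (D.hR 0))).congr fun ν => ?_
  have h1 := PP_le (D.Pg ν) (e := 1) (D.mu1 0 ν)
  have h2 := PP_le (D.Pg ν) (e := 1) (D.mu1 1 ν)
  rw [PP_add, Ql, Ql, Rl, Rl, κ', h1, h2]
  push_cast
  rw [← D.hκ ν]
  simp only [Pi.one_apply]
  ring

theorem PP_mt (ν : Fin 4) : PP (D.Pg ν) (D.mt ν) = PP (D.Pg ν) (D.m 0 ν) * PP (D.Pg ν) (D.m 1 ν) *
    PP (D.Pg ν) (fun g => D.mu 0 ν g + D.mu 1 ν g) * τ := by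
  have := PP_add (D.Pg ν) (fun g => D.m 0 ν g + D.m 1 ν g + (D.mu 0 ν g + D.mu 1 ν g))
    (fun g => if g = D.z ν then 1 else 0)
  rw [PP_single, D.hz] at this
  rw [← PP_add, ← PP_add, ← this]; rfl

theorem hGG (hτ : τ ≠ 0) (hP : ∀ ν g, D.Pg ν g ≠ 0) :
    Pl τ w 196 D.G fun ν => D.κ' ν * PP (D.Pg ν) (D.mt ν) := by
  refine ((((D.hG 0).mul (D.hG 1)).mul (D.hΓ hP)).mul (Pl.tau hτ)).congr fun ν => ?_
  rw [PP_mt]; ring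

theorem mt_le (ν : Fin 4) (g : Fin 3) : D.mt ν g ≤ 2 * D.k ν g := by
  have := D.mtk ν g
  unfold mt; split_ifs <;> omega

theorem k_pos (ν : Fin 4) (g : Fin 3) : 0 < D.k ν g := by have := D.muk ν g; omega

theorem mt_pos (ν : Fin 4) (g : Fin 3) : 0 < D.mt ν g := by
  have := D.mu1 0 ν g
  unfold mt; omega

end Data

theorem Chart.O {τ w : F} (h : Chart τ w) : Chart τ⁻¹ (w * τ⁻¹) := by
  have := h.ne_zero
  exact h.of ⟨1, one_mem _, _, Ad_left _ _, inv_ne_zero this, mul_inv_cancel₀ this⟩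
    ⟨_, Ad_right _ _, _, Ad_left _ _, inv_ne_zero this, rfl⟩

theorem Chart.nn_ne {τ w : F} (h : Chart τ w) (ν : Fin 4) : nn w ν ≠ 0 := by
  have := h.symm.ne_C (Pn ν)
  rwa [map_ratCast] at this

theorem Chart.phn_ne {τ w : F} (h : Chart τ w) (ν : Fin 4) : phn w ν ≠ 0 :=
  mul_ne_zero (mul_ne_zero (h.nn_ne _) (h.nn_ne _)) (h.nn_ne _)

theorem Chart.phi_ne {τ w : F} (h : Chart τ w) : phi w ≠ 0 := by
  rw [phi_eq w 0]; exact mul_ne_zero (h.nn_ne _) (h.phn_ne _)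

theorem Chart.A {τ w : F} (h : Chart τ w) : Chart (nn w 0) τ :=
  h.of ⟨_, Ad_right _ _, 1, one_mem _, one_ne_zero, mul_one _⟩
    ⟨nn w 0 + Pn 0, add_mem (Ad_left _ _) (rat_mem _ _), 1, one_mem _, one_ne_zero, by
      simp [nn]⟩

theorem Chart.unit_A1 {α β : F} (h : Chart α β) {V : ValuationSubring F} (hV : Ess (Ad α β) V)
    (hα : V.valuation α < 1) {s : F} (hs : s ∈ A1 β) (h0 : s ≠ 0) : V.valuation s = 1 := by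
  have hβ := hV.1 _ (Ad_right α β)
  refine v_eq_one (A1_V hV.hC hβ hs) fun hlt => ?_
  obtain ⟨ρ, hρ⟩ := root_lt' hV.hC hβ hs h0 hlt
  exact h.nv hV (ρ := 0) (by simpa using hα) hρ

namespace Data
variable {τ w : F} (D : Data τ w) (h : Chart τ w)
include h

theorem Pg_ne (ν : Fin 4) (g : Fin 3) : D.Pg ν g ≠ 0 := fun h0 => by
  obtain ⟨s, hs, e⟩ := D.Pg_rev ν g
  rw [h0, mul_zero] at e
  apply h.O.inv_not_mem
  have : τ⁻¹⁻¹ = -s := by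
    have := h.ne_zero
    rw [inv_inv]; field_simp at e; linear_combination -e
  rw [this]; exact neg_mem (A1_le (Ad_left _ _) hs)

theorem K_ne (ν : Fin 4) : D.K ν ≠ 0 := PP_ne (D.Pg_ne h ν) _

theorem nn_eq (ν : Fin 4) : nn w ν = D.n' ν * D.K ν := by
  rw [n', div_mul_cancel₀ _ (D.K_ne h ν)]

theorem n'_ne (ν : Fin 4) : D.n' ν ≠ 0 := div_ne_zero (h.nn_ne ν) (D.K_ne h ν)

theorem PP_U (ν : Fin 4) (e : Fin 3 → ℕ) : PP (D.Pg ν) e ∈ Ad τ (D.n' ν) :=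
  PP_mem (fun g => A1_le (Ad_left _ _) (D.PgT ν g)) e

theorem w_U (ν : Fin 4) : w ∈ Ad τ (D.n' ν) := by
  have : D.n' ν * D.K ν + Pn ν ∈ Ad τ (D.n' ν) :=
    add_mem (mul_mem (Ad_right _ _) (D.PP_U h ν _)) (rat_mem _ _)
  rwa [← D.nn_eq h, nn, sub_add_cancel] at this

theorem I_le (ν : Fin 4) : Ad τ w ≤ Ad τ (D.n' ν) := Ad_le (Ad_left _ _) (D.w_U h ν)

theorem chartU (ν : Fin 4) : Chart τ (D.n' ν) :=
  h.of ⟨_, Ad_left _ _, 1, one_mem _, one_ne_zero, mul_one _⟩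
    ⟨_, D.w_U h ν, 1, one_mem _, one_ne_zero, mul_one _⟩

theorem strict {δ : ℕ} {a : F} {p : Fin 4 → F} (ha : Pl τ w δ a p) {ν : Fin 4} {κ : ℚ}
    {e : Fin 3 → ℕ} (hp : p ν = κ * PP (D.Pg ν) e) (he : ∀ g, e g ≤ D.k ν g) :
    ∃ s ∈ Ad τ (D.n' ν), a = PP (D.Pg ν) e * (κ + D.n' ν * s) := by
  obtain ⟨s, hs, e1⟩ := ha.resI ν
  refine ⟨_, mul_mem (D.PP_U h ν fun g => D.k ν g - e g) (D.I_le h ν hs), ?_⟩
  rw [e1, hp, D.nn_eq h, K, PP_le _ he]; ring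

/-- the strict transform of `G` -/
theorem G_split (ν : Fin 4) : ∃ s₀ ∈ Ad τ (D.n' ν), ∃ s₁ ∈ Ad τ (D.n' ν), ∃ s₂ ∈ Ad τ (D.n' ν),
    D.Gh 0 = PP (D.Pg ν) (D.m 0 ν) * (1 + D.n' ν * s₀) ∧
    D.Gh 1 = PP (D.Pg ν) (D.m 1 ν) * (1 + D.n' ν * s₁) ∧
    D.Γ = PP (D.Pg ν) (fun g => D.mu 0 ν g + D.mu 1 ν g) * (D.κ' ν + D.n' ν * s₂) ∧
    D.G = PP (D.Pg ν) (D.mt ν) * ((1 + D.n' ν * s₀) * (1 + D.n' ν * s₁) *
      (D.κ' ν + D.n' ν * s₂)) := by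
  obtain ⟨s₀, h₀, e₀⟩ := D.strict h (D.hG 0) (ν := ν) (κ := 1) (by simp) (D.mk' 0 ν)
  obtain ⟨s₁, h₁, e₁⟩ := D.strict h (D.hG 1) (ν := ν) (κ := 1) (by simp) (D.mk' 1 ν)
  obtain ⟨s₂, h₂, e₂⟩ := D.strict h (D.hΓ (D.Pg_ne h)) (ν := ν) rfl fun g => (D.muk ν g).le
  rw [Rat.cast_one] at e₀ e₁
  refine ⟨s₀, h₀, s₁, h₁, s₂, h₂, e₀, e₁, e₂, ?_⟩
  rw [G, e₀, e₁, e₂, PP_mt]; ring

theorem G_ne : D.G ≠ 0 := by
  obtain ⟨V, hV, hv, -⟩ := h.A.exists_log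
  obtain ⟨s, hs, e⟩ := (D.hGG h.ne_zero (D.Pg_ne h)).resI 0
  have hw : w ∈ V := by
    have := add_mem (hV.1 _ (Ad_left _ _)) (rat_memV hV.hC (Pn 0))
    simpa [nn] using this
  refine ne_of_v (V := V) ?_
  rw [e]
  refine v_add_of_lt (h.A.unit_A1 hV hv ((D.hGG h.ne_zero (D.Pg_ne h)).memT 0) ?_)
    (v_mul_lt hv (Ad_V hV.hC (hV.1 _ (Ad_right _ _)) hw hs))
  exact mul_ne_zero (Rat.cast_ne_zero.2 (D.κ'0 0)) (PP_ne (D.Pg_ne h 0) _)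

theorem Γ_ne : D.Γ ≠ 0 := fun h0 => D.G_ne h (by simp [G, h0])

theorem Gh_ne (i : Fin 2) : D.Gh i ≠ 0 := fun h0 => D.G_ne h (by
  fin_cases i <;> simp_all [G])

theorem Θ_ne (i : Fin 2) : D.Θ i ≠ 0 := by
  have := h.nn_ne 0; have := h.nn_ne 1; have := h.nn_ne 2; have := h.nn_ne 3
  have := D.Γ_ne h; have := D.Gh_ne h i; have := D.Gh_ne h (i + 1)
  rw [Θ]; positivity

/-- shape of the generators -/
theorem gens_shape {u : F} (hu : u ∈ D.gens) : ∃ (e : ℕ) (num : F), u = num / D.G ^ e ∧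
    num ∈ Ad τ w ∧ (∃ s ∈ Ad τ⁻¹ (w * τ⁻¹), τ⁻¹ ^ (196 * e) * num = τ⁻¹ ^ 4 * phi w * s) ∧
    ∀ μ, ∃ s ∈ Ad τ (D.n' μ), num = PP (D.Pg μ) (D.mt μ) ^ e * s := by
  have hτ := h.ne_zero
  have hx := Ad_left τ⁻¹ (w * τ⁻¹)
  have hy := Ad_right τ⁻¹ (w * τ⁻¹)
  have hf : τ⁻¹ ^ 4 * phi w ∈ Ad τ⁻¹ (w * τ⁻¹) := by
    have : τ⁻¹ ^ 4 * phi w = τ⁻¹ * nn w 0 * (τ⁻¹ ^ 3 * phn w 0) := by rw [phi_eq w 0]; ring
    rw [this]; exact mul_mem (ell_mem hx hy _) (phn_O hx hy _)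
  have hK : ∀ μ, D.K μ ^ 2 = PP (D.Pg μ) (D.mt μ) *
      PP (D.Pg μ) fun g => D.k μ g * 2 - D.mt μ g := fun μ => by
    rw [K, ← PP_pow, PP_le _ (e := D.mt μ) fun g => by have := D.mt_le μ g; omega]
  have base : ∀ j ∈ Ad τ w, τ⁻¹ ^ 188 * j ∈ Ad τ⁻¹ (w * τ⁻¹) → ∃ (e : ℕ) (num : F),
      phi w ^ 2 * j / D.G = num / D.G ^ e ∧ num ∈ Ad τ w ∧
      (∃ s ∈ Ad τ⁻¹ (w * τ⁻¹), τ⁻¹ ^ (196 * e) * num = τ⁻¹ ^ 4 * phi w * s) ∧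
      ∀ μ, ∃ s ∈ Ad τ (D.n' μ), num = PP (D.Pg μ) (D.mt μ) ^ e * s := by
    intro j hj hj'
    refine ⟨1, phi w ^ 2 * j, by rw [pow_one], mul_mem (pow_mem (phi_mem (Ad_right _ _)) _) hj,
      ⟨_, mul_mem hf hj', by ring⟩, fun μ => ⟨_, mul_mem (mul_mem (D.PP_U h μ
        fun g => D.k μ g * 2 - D.mt μ g) (pow_mem (mul_mem (Ad_right _ _)
        (phn_mem (D.w_U h μ) μ)) 2)) (D.I_le h μ hj), ?_⟩⟩
    rw [phi_eq w μ, D.nn_eq h μ]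
    linear_combination (D.n' μ * phn w μ) ^ 2 * j * hK μ
  rcases hu with (rfl | rfl | rfl | rfl | rfl) | ⟨⟨ν, g⟩, rfl⟩
  · exact base _ (pow_mem (Ad_left _ _) _) (by
      rw [← mul_pow, inv_mul_cancel₀ hτ, one_pow]; exact one_mem _)
  · refine base _ (pow_mem (Ad_left _ _) _) ?_
    have : τ⁻¹ ^ 188 * τ ^ 187 = τ⁻¹ := by field_simp
    rw [this]; exact hx
  · refine base _ (mul_mem (Ad_right _ _) (pow_mem (Ad_left _ _) _)) ?_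
    have : τ⁻¹ ^ 188 * (w * τ ^ 187) = w * τ⁻¹ := by field_simp
    rw [this]; exact hy
  · exact base _ (one_mem _) (mul_mem (pow_mem hx _) (one_mem _))
  · exact base _ (pow_mem (Ad_right _ _) _) (by rw [← mul_pow, mul_comm τ⁻¹ w]; exact pow_mem hy _)
  · refine ⟨D.k ν g, _, rfl, mul_mem (mul_mem (pow_mem (nn_mem (Ad_right _ _) _) _)
      (pow_mem (phn_mem (Ad_right _ _) _) _)) (pow_mem (PP_mem
        (fun g => A1_le (Ad_left _ _) (D.PgT ν g)) _) _), ?_, fun μ => ?_⟩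
    · obtain ⟨a, ha⟩ := Nat.exists_eq_add_one_of_ne_zero (D.mt_pos ν g).ne'
      obtain ⟨c, hc⟩ := Nat.exists_eq_add_one_of_ne_zero (D.k_pos ν g).ne'
      set e' : Fin 3 → ℕ := fun g' => if g' = g then 0 else D.mt ν g' with he'
      have hd : D.dg ν 0 * e' 0 + D.dg ν 1 * e' 1 + D.dg ν 2 * e' 2 + D.dg ν g * D.mt ν g
          = 196 := by
        have := D.hdeg ν
        change D.dg ν 0 * D.mt ν 0 + D.dg ν 1 * D.mt ν 1 + D.dg ν 2 * D.mt ν 2 = 196 at this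
        rw [← this]
        fin_cases g <;> simp [he'] <;> ring
      have h8 : 8 ≤ D.dg ν g * D.mt ν g := (D.mtd ν g).trans
        (Nat.mul_le_mul_left _ (by unfold mt; omega))
      obtain ⟨r, hr⟩ : ∃ r, D.dg ν g * D.mt ν g * D.k ν g = D.mt ν g + 6 * D.k ν g + r :=
        Nat.exists_eq_add_of_le (by have := D.mt_le ν g; nlinarith)
      have hP := PP_mem (A := Ad τ⁻¹ (w * τ⁻¹)) (fun g => A1_le hx (D.Pg_revX ν g)) e'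
      rw [← PP_deg] at hP
      refine ⟨_, mul_mem (mul_mem (mul_mem (pow_mem (ell_mem hx hy ν) a)
        (pow_mem (phn_O hx hy ν) (2 * c + 1))) (pow_mem hP (D.k ν g))) (pow_mem hx r), ?_⟩
      dsimp only
      rw [← hd, add_mul, hr, phi_eq w ν, mul_pow _ (PP _ _), ← pow_mul τ⁻¹, ha, hc]
      ring
    · dsimp only
      by_cases hμ : μ = ν
      · subst hμ
        have e1 := PP_le (D.Pg μ) (e := fun g' => D.mt μ g' * D.k μ g)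
          (e' := fun g' => D.k μ g' * D.mt μ g + (if g' = g then 0 else D.mt μ g') * D.k μ g)
          (fun g' => by
            by_cases hg : g' = g
            · subst hg; simp [mul_comm]
            · simp [hg])
        rw [PP_add, PP_pow, PP_pow, PP_pow] at e1
        refine ⟨_, mul_mem (mul_mem (pow_mem (Ad_right _ _) (D.mt μ g))
          (pow_mem (phn_mem (D.w_U h μ) μ) (2 * D.k μ g))) (D.PP_U h μ fun g' =>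
            D.k μ g' * D.mt μ g + (if g' = g then 0 else D.mt μ g') * D.k μ g -
              D.mt μ g' * D.k μ g), ?_⟩
        rw [D.nn_eq h μ, mul_pow, K]
        linear_combination D.n' μ ^ D.mt μ g * phn w μ ^ (2 * D.k μ g) * e1
      · obtain ⟨s, hs, e⟩ := phn_dvd' (D.w_U h μ) (Ne.symm hμ)
        refine ⟨_, mul_mem (mul_mem (mul_mem (pow_mem (nn_mem (D.w_U h μ) ν) (D.mt ν g))
          (pow_mem (mul_mem (Ad_right _ _) hs) (2 * D.k ν g))) (pow_mem (PP_mem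
            (fun g => A1_le (Ad_left _ _) (D.PgT ν g)) fun g' => if g' = g then 0 else D.mt ν g')
              (D.k ν g))) (pow_mem (D.PP_U h μ fun g => D.k μ g * 2 - D.mt μ g) (D.k ν g)), ?_⟩
        rw [e, D.nn_eq h μ, mul_pow, mul_pow, pow_mul (D.K μ), hK, mul_pow, mul_pow]
        ring

end Data

end Crest.Agent.H4.ZL
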