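import Crest.Agent.H4.ZL.Z8

/-! The blown-up charts. -/

namespace Crest.Agent.H4.ZL

variable {F : Type} [Field F] [Algebra ℂ F] [CharZero F]

theorem bound_pow {Γ₀ : Type*} [LinearOrderedCommGroupWithZero Γ₀] {a π n : Γ₀} {k e : ℕ}
    (ha : a ≤ max (π ^ e) n) (hn : π ^ k ≤ n) (hn1 : n ≤ 1) (he : e ≤ k) : a ^ k ≤ n ^ e := by
  rcases le_max_iff.1 ha with h | h
  · calc a ^ k ≤ (π ^ e) ^ k := pow_le_pow_left₀ zero_le h _
      _ = (π ^ k) ^ e := by rw [← pow_mul, ← pow_mul, mul_comm]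
      _ ≤ n ^ e := pow_le_pow_left₀ zero_le hn _
  · exact (pow_le_pow_left₀ zero_le h _).trans (pow_le_pow_of_le_one zero_le hn1 he)

theorem bound_pow_lt {Γ₀ : Type*} [LinearOrderedCommGroupWithZero Γ₀] {a π n : Γ₀} {k e : ℕ}
    (ha : a ≤ max (π ^ e) n) (hn : π ^ k < n) (hn1 : n < 1) (he : e < k) (he0 : e ≠ 0) :
    a ^ k < n ^ e := by
  rcases le_max_iff.1 ha with h | h
  · calc a ^ k ≤ (π ^ e) ^ k := pow_le_pow_left₀ zero_le h _
      _ = (π ^ k) ^ e := by rw [← pow_mul, ← pow_mul, mul_comm]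
      _ < n ^ e := pow_lt_pow_left₀ hn zero_le he0
  · exact (pow_le_pow_left₀ zero_le h _).trans_lt
      (pow_lt_pow_right_of_lt_one₀ (zero_le.trans_lt hn) hn1 he)

theorem unit_of_mul {V : ValuationSubring F} {a b : F} (ha : a ∈ V) (hb : b ∈ V)
    (h : 1 ≤ V.valuation (a * b)) : V.valuation a = 1 ∧ V.valuation b = 1 :=
  ⟨v_eq_one ha fun h' => (v_mul_lt h' hb).not_ge h, v_eq_one hb fun h' => (v_mul_lt' ha h').not_ge h⟩

theorem v_nn_other {V : ValuationSubring F} (hC : ∀ c : ℂ, algebraMap ℂ F c ∈ V) {w : F}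
    {ν μ : Fin 4} (hν : V.valuation (nn w ν) < 1) (hμ : μ ≠ ν) : V.valuation (nn w μ) = 1 := by
  have : nn w μ = ((Pn ν - Pn μ : ℚ) : F) + nn w ν := by simp [nn]
  rw [this]; exact v_add_of_lt (vrat hC (Pn_inj hμ)) hν

theorem v_phn {V : ValuationSubring F} (hC : ∀ c : ℂ, algebraMap ℂ F c ∈ V) {w : F}
    {ν : Fin 4} (hν : V.valuation (nn w ν) < 1) : V.valuation (phn w ν) = 1 := by
  rw [phn, map_mul, map_mul, v_nn_other hC hν (ne1 ν), v_nn_other hC hν (ne2 ν),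
    v_nn_other hC hν (ne3 ν)]; simp

namespace Data
variable {τ w : F} (D : Data τ w)

theorem vΘ {V : ValuationSubring F} {π : V.ValueGroup} (hπ : π ≠ 0) (i : Fin 2) (α : Fin 4 → ℕ)
    (β : Fin 2 → ℕ) {γ l N ε : ℕ} {lam : F} (hn : ∀ μ, V.valuation (nn w μ) = π ^ α μ)
    (hG : ∀ j, V.valuation (D.Gh j) = π ^ β j) (hΓ : V.valuation D.Γ = π ^ γ)
    (hl : V.valuation lam = π ^ l)
    (he : α 0 * D.e i 0 + α 1 * D.e i 1 + α 2 * D.e i 2 + α 3 * D.e i 3 + β (i + 1) * D.ea + l * N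
      = γ * D.eb + β i * D.ec + ε) : V.valuation (D.Θ i * lam ^ N) = π ^ ε := by
  simp only [Θ, map_mul, map_div₀, map_pow, hn, hG, hΓ, hl, ← pow_mul, ← pow_add]
  rw [div_mul_eq_mul_div, ← pow_add, he, pow_add, mul_div_cancel_left₀ _ (pow_ne_zero _ hπ)]

/-- The two foliations. -/
structure IsEta (η : Fin 2 → Derivation ℂ F F) : Prop where
  hτ : ∀ i, η i τ = D.Qh i - τ * dphi w * D.Rh i
  hw : ∀ i, η i w = -4 * phi w * D.Rh i

variable {D} (h : Chart τ w) {η : Fin 2 → Derivation ℂ F F} (hη : D.IsEta η)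
include h hη

omit h in
theorem eta_nn (i : Fin 2) (ν : Fin 4) : η i (nn w ν) = -4 * phi w * D.Rh i := by
  rw [nn, map_sub, hη.hw, ← map_ratCast (algebraMap ℂ F), Derivation.map_algebraMap, sub_zero]

omit h in
theorem T_res (i : Fin 2) (ν : Fin 4) :
    ∃ s ∈ Ad τ w, η i τ = PP (D.Pg ν) (D.mu i ν) * D.t i ν + nn w ν * s := by
  obtain ⟨s₁, h₁, e₁⟩ := (D.hQ i).resI ν
  obtain ⟨s₂, h₂, e₂⟩ := (D.hR i).resI ν
  obtain ⟨s₃, h₃, e₃⟩ := dphi_res (Ad_right τ w) ν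
  refine ⟨s₁ - τ * (hn ν * s₂ + s₃ * D.Rh i), sub_mem h₁ (mul_mem (Ad_left _ _) (add_mem
    (mul_mem (rat_mem _ _) h₂) (mul_mem h₃ (D.hR i).memI))), ?_⟩
  rw [hη.hτ, e₁, e₃, Ql]
  linear_combination (-τ * hn ν) * e₂

theorem eta_tau (i : Fin 2) (ν : Fin 4) : ∃ s ∈ Ad τ (D.n' ν),
    η i τ / PP (D.Pg ν) (D.mu i ν) = D.t i ν + τ * s := by
  obtain ⟨s, hs, e⟩ := T_res hη i ν
  have e1 := PP_le (D.Pg ν) (e := fun g => D.mu i ν g + if g = D.z ν then 1 else 0) (e' := D.k ν)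
    fun g => by
      have := D.muk ν g; have := D.mu1 0 ν g; have := D.mu1 1 ν g
      fin_cases i <;> simp only [Fin.zero_eta, Fin.mk_one, Fin.isValue] <;> split_ifs <;> omega
  rw [PP_add, PP_single, D.hz] at e1
  refine ⟨_, mul_mem (mul_mem (Ad_right _ _) (D.PP_U h ν
    fun g => D.k ν g - (D.mu i ν g + if g = D.z ν then 1 else 0))) (D.I_le h ν hs), ?_⟩
  have := PP_ne (D.Pg_ne h ν) (D.mu i ν)
  rw [e, D.nn_eq h, K, e1]; field_simp

theorem eta_n' (i : Fin 2) (ν : Fin 4) :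
    η i (D.n' ν) = D.n' ν * (-4 * phn w ν * D.Rh i -
      Dd (D.Pg ν) (D.dP ν) (D.k ν) / PP (D.Pg ν) 1 * η i τ) := by
  have e1 := ld_mul (η i) (D.n'_ne h ν) (D.K_ne h ν)
  rw [← D.nn_eq h, K, ld_PP (η i) (D.Pg_ne h ν) (D.hdP (η i) ν), ld, ld, eta_nn hη,
    phi_eq w ν] at e1
  have := h.nn_ne ν; have := D.n'_ne h ν
  have e2 : -4 * (nn w ν * phn w ν) * D.Rh i / nn w ν = -4 * phn w ν * D.Rh i := by field_simp
  rw [← e2, e1]; field_simp; ring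

theorem eta_n'_mem (i : Fin 2) (ν : Fin 4) :
    η i (D.n' ν) / PP (D.Pg ν) (D.mu i ν) ∈ Ad τ (D.n' ν) := by
  obtain ⟨s, hs, e⟩ := T_res hη i ν
  obtain ⟨s₂, h₂, e₂⟩ := (D.hR i).resI ν
  obtain ⟨s₃, h₃, e₃⟩ := phn_res (Ad_right τ w) ν
  have e1 := PP_le (D.Pg ν) (e := fun g => D.mu i ν g + (1 : Fin 3 → ℕ) g) (e' := D.k ν)
    fun g => by
      have := D.muk ν g; have := D.mu1 0 ν g; have := D.mu1 1 ν g
      fin_cases i <;> simp only [Fin.zero_eta, Fin.mk_one, Fin.isValue, Pi.one_apply] <;> omega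
  rw [PP_add] at e1
  have e4 := PP_le (D.Pg ν) (e := 1) (D.mu1 i ν)
  simp only [Pi.one_apply] at e4 e1
  set X := PP (D.Pg ν) fun g => D.k ν g - (D.mu i ν g + 1) with hX
  have hT : A1 τ ≤ Ad τ (D.n' ν) := A1_le (Ad_left _ _)
  have := mul_mem (Ad_right _ _) (add_mem (hT (D.bT i ν)) (mul_mem (mul_mem (Ad_right _ _)
    (D.PP_U h ν fun g => D.k ν g - (D.mu i ν g + 1))) (sub_mem (mul_mem (D.PP_U h ν 1)
      (D.I_le h ν (mul_mem (rat_mem _ (-4)) (add_mem (mul_mem (rat_mem _ (hn ν)) h₂)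
        (mul_mem h₃ (D.hR i).memI))))) (mul_mem (Dd_mem (fun g => hT (D.PgT ν g))
          (fun g => hT (D.dPT ν g)) (D.k ν)) (D.I_le h ν hs)))))
  convert this using 1
  have h1 := PP_ne (D.Pg_ne h ν) 1
  have h2 := PP_ne (D.Pg_ne h ν) (fun g => D.mu i ν g - 1)
  have h3 : (hn ν : F) ≠ 0 := Rat.cast_ne_zero.2 (hn_ne ν)
  have e5 : -4 * phn w ν * D.Rh i = PP (D.Pg ν) (fun g => D.mu i ν g - 1) *
      (D.t i ν * Dd (D.Pg ν) (D.dP ν) (D.k ν) + D.b i ν * PP (D.Pg ν) 1) +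
      nn w ν * (-4 * (hn ν * s₂ + s₃ * D.Rh i)) := by
    have e6 : -4 * (hn ν : F) * Rl (D.Pg ν) (D.dP ν) (D.k ν) (D.mu i ν) (D.t i ν) (D.b i ν) (hn ν)
        = PP (D.Pg ν) (fun g => D.mu i ν g - 1) *
          (D.t i ν * Dd (D.Pg ν) (D.dP ν) (D.k ν) + D.b i ν * PP (D.Pg ν) 1) := by
      rw [Rl]; push_cast; field_simp
    rw [e₃, ← e6]
    linear_combination (-4 * hn ν) * e₂
  rw [eta_n' h hη, e5, e, D.nn_eq h, K, e1, e4, ← hX]
  push_cast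
  field_simp
  ring

theorem det_U (ν : Fin 4) : η 0 τ * η 1 (D.n' ν) - η 0 (D.n' ν) * η 1 τ =
    -4 * D.n' ν * phn w ν * D.Γ := by
  rw [eta_n' h hη, eta_n' h hη, hη.hτ, hη.hτ, Γ]; ring

theorem blown {V : ValuationSubring F} (hV : Ess (icl (Algebra.adjoin ℂ D.gens)) V)
    (hτ : τ ∈ V) (hw : w ∈ V) {ν : Fin 4} {g : Fin 3} (hν : V.valuation (nn w ν) < 1)
    (hg : V.valuation (D.Pg ν g) < 1) : Good (2 * D.L) (D.Θ 0) (D.Θ 1) (η 0) (η 1) V := by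
  have hC := hV.hC
  have hgen : ∀ u ∈ D.gens, u ∈ V := fun u hu => hV.1 _ (le_icl _ (Algebra.subset_adjoin hu))
  set π := V.valuation (D.Pg ν g) with hπ
  have hπ0 : π ≠ 0 := (map_ne_zero _).2 (D.Pg_ne h ν g)
  have hoth : ∀ g', g' ≠ g → V.valuation (D.Pg ν g') = 1 := fun g' hg' => by
    obtain ⟨a, ha, b, hb, e⟩ := D.cop ν g g' hg'
    refine v_eq_one (A1_V hC hτ (D.PgT _ _)) fun hlt => ?_
    have := v_add_lt (v_mul_lt' (A1_V hC hτ ha) hg) (v_mul_lt' (A1_V hC hτ hb) hlt)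
    rw [e, map_one] at this; exact lt_irrefl _ this
  have vP : ∀ e, V.valuation (PP (D.Pg ν) e) = π ^ e g := v_PP hoth
  have vφ := v_phn hC hν
  have hn0 : V.valuation (nn w ν) ≠ 0 := (map_ne_zero _).2 (h.nn_ne ν)
  have hG0 : V.valuation D.G ≠ 0 := (map_ne_zero _).2 (D.G_ne h)
  have hu : V.valuation (nn w ν) ^ D.mt ν g ≤ V.valuation D.G ^ D.k ν g := by
    have := vle.2 (hgen (D.u ν g) (Or.inr ⟨(ν, g), rfl⟩))
    simp only [u, map_div₀, map_mul, map_pow, vφ, vP, if_true, pow_zero, one_pow, mul_one] at this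
    exact (div_le_one₀ (zero_lt_iff.2 (pow_ne_zero _ hG0))).1 this
  have vn : V.valuation (nn w ν) = V.valuation (D.n' ν) * π ^ D.k ν g := by
    rw [D.nn_eq h, map_mul, K, vP]
  -- step 1
  have hn' : D.n' ν ∈ V := by
    by_contra hcon
    rw [← vle, not_le] at hcon
    have h1 : π ^ D.k ν g < V.valuation (nn w ν) := by
      rw [vn]; exact lt_mul_of_one_lt_left (zero_lt_iff.2 (pow_ne_zero _ hπ0)) hcon
    have bd : ∀ {δ a p}, Pl τ w δ a p → ∀ {κ : ℚ} {e : Fin 3 → ℕ}, p ν = κ * PP (D.Pg ν) e →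
        V.valuation a ≤ max (π ^ e g) (V.valuation (nn w ν)) := by
      intro δ a p ha κ e hp
      obtain ⟨s, hs, e1⟩ := ha.resI ν
      rw [e1, hp]
      refine (Valuation.map_add _ _ _).trans (max_le_max ?_ ?_)
      · rw [map_mul, vP]; exact mul_le_of_le_one_left' (vle.2 (rat_memV hC _))
      · rw [map_mul]; exact mul_le_of_le_one_right' (vle.2 (Ad_V hC hτ hw hs))
    have b0 := bound_pow (bd (D.hG 0) (κ := 1) (e := D.m 0 ν) (by simp)) h1.le hν.le (D.mk' 0 ν g)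
    have b1 := bound_pow (bd (D.hG 1) (κ := 1) (e := D.m 1 ν) (by simp)) h1.le hν.le (D.mk' 1 ν g)
    have b2 := bound_pow_lt (bd (D.hΓ (D.Pg_ne h)) rfl) h1 hν (D.muk ν g)
      (by have := D.mu1 0 ν g; omega)
    have b3 : V.valuation τ ^ D.k ν g ≤ V.valuation (nn w ν) ^ (if g = D.z ν then 1 else 0) := by
      split_ifs with hz
      · have : π = V.valuation τ := by rw [hπ, hz, D.hz]
        rw [pow_one, ← this]; exact h1.le
      · exact pow_le_one₀ zero_le (vle.2 hτ)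
    refine hu.not_gt ?_
    rw [G, mt, map_mul, map_mul, map_mul, mul_pow, mul_pow, mul_pow, pow_add, pow_add, pow_add]
    have p := zero_lt_iff.2 hn0
    exact mul_lt_mul_of_lt_of_le_of_nonneg_of_pos (mul_lt_mul_of_le_of_lt_of_nonneg_of_pos
      (mul_le_mul' b0 b1) b2 zero_le (mul_pos (pow_pos p _) (pow_pos p _))) b3 zero_le
      (pow_pos p _)
  -- step 2
  obtain ⟨s₀, h₀, s₁, h₁, s₂, h₂, e₀, e₁, e₂, eG⟩ := D.G_split h ν
  have m₀ : 1 + D.n' ν * s₀ ∈ Ad τ (D.n' ν) := add_mem (one_mem _) (mul_mem (Ad_right _ _) h₀)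
  have m₁ : 1 + D.n' ν * s₁ ∈ Ad τ (D.n' ν) := add_mem (one_mem _) (mul_mem (Ad_right _ _) h₁)
  have m₂ : D.κ' ν + D.n' ν * s₂ ∈ Ad τ (D.n' ν) :=
    add_mem (rat_mem _ _) (mul_mem (Ad_right _ _) h₂)
  have hU : ∀ {a}, a ∈ Ad τ (D.n' ν) → a ∈ V := Ad_V hC hτ hn'
  have vG' : V.valuation ((1 + D.n' ν * s₀) * (1 + D.n' ν * s₁) * (D.κ' ν + D.n' ν * s₂)) = 1 := by
    by_cases hlt : V.valuation (D.n' ν) < 1
    · rw [map_mul, map_mul, v_add_of_lt (map_one _) (v_mul_lt hlt (hU h₀)),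
        v_add_of_lt (map_one _) (v_mul_lt hlt (hU h₁)),
        v_add_of_lt (vrat hC (D.κ'0 ν)) (v_mul_lt hlt (hU h₂))]
      simp
    · rw [vn, v_eq_one hn' hlt, eG, map_mul, vP, one_mul, mul_pow, ← pow_mul, ← pow_mul,
        mul_comm (D.mt ν g), le_mul_iff_one_le_right (zero_lt_iff.2 (pow_ne_zero _ hπ0))] at hu
      exact le_antisymm (vle.2 (hU (mul_mem (mul_mem m₀ m₁) m₂)))
        ((one_le_pow_iff (D.k_pos ν g).ne').1 hu)
  obtain ⟨v01, v2⟩ := unit_of_mul (hU (mul_mem m₀ m₁)) (hU m₂) vG'.ge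
  obtain ⟨v0, v1⟩ := unit_of_mul (hU m₀) (hU m₁) v01.ge
  -- step 3
  have hE : Ess (Ad τ (D.n' ν)) V := (D.chartU h ν).transfer hV hτ hn' fun u hu => by
    obtain ⟨e, num, rfl, -, -, hs'⟩ := D.gens_shape h hu
    obtain ⟨s, hs, rfl⟩ := hs' ν
    refine ⟨_, pow_mem (mul_mem (mul_mem m₀ m₁) m₂) e, by rw [map_pow, vG', one_pow], ?_⟩
    convert hs using 1
    have := PP_ne (D.Pg_ne h ν) (D.mt ν)
    have := ne_of_v vG'
    rw [eG, mul_pow (PP _ _)]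
    generalize (1 + D.n' ν * s₀) * (1 + D.n' ν * s₁) * (D.κ' ν + D.n' ν * s₂) = Y at *
    field_simp
  -- step 4
  have vn' : V.valuation (D.n' ν) = 1 := v_eq_one hn' fun hlt => by
    obtain ⟨ρ, hρ⟩ := root_lt' hC hτ (D.PgT ν g) (D.Pg_ne h ν g) hg
    exact (D.chartU h ν).nv hE hρ (c := 0) (by simpa using hlt)
  -- step 5
  have hT : A1 τ ≤ Ad τ (D.n' ν) := A1_le (Ad_left _ _)
  have hl : ∀ i, PP (D.Pg ν) (D.mu i ν) ≠ 0 := fun i => PP_ne (D.Pg_ne h ν) _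
  have hd : ∀ i, ∀ c ∈ V, η i c / PP (D.Pg ν) (D.mu i ν) ∈ V := fun i => hE.der (by
    obtain ⟨s, hs, e⟩ := eta_tau h hη i ν
    rw [e]; exact hU (add_mem (hT (D.tT i ν)) (mul_mem (Ad_left _ _) hs)))
    (hU (eta_n'_mem h hη i ν))
  have vd : V.valuation ((η 0 τ * η 1 (D.n' ν) - η 0 (D.n' ν) * η 1 τ) /
      (PP (D.Pg ν) (D.mu 0 ν) * PP (D.Pg ν) (D.mu 1 ν))) = 1 := by
    have : (η 0 τ * η 1 (D.n' ν) - η 0 (D.n' ν) * η 1 τ) /
        (PP (D.Pg ν) (D.mu 0 ν) * PP (D.Pg ν) (D.mu 1 ν)) =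
        ((-4 : ℚ) : F) * D.n' ν * phn w ν * (D.κ' ν + D.n' ν * s₂) := by
      have := hl 0; have := hl 1
      rw [det_U h hη, e₂, PP_add]; push_cast; field_simp
    rw [this, map_mul, map_mul, map_mul, vrat hC (by norm_num), vn', vφ, v2]; simp
  have vT : ∀ i, V.valuation (D.Θ i * PP (D.Pg ν) (D.mu i ν) ^ (2 * D.L)) =
      π ^ (if (i = 0 ∧ ν = 0 ∨ i = 1 ∧ ν = 2) ∧ g = D.z ν then D.L else 0) := fun i => by
    refine D.vΘ hπ0 i (fun μ => if μ = ν then D.k ν g else 0) (fun j => D.m j ν g)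
      (γ := D.mu 0 ν g + D.mu 1 ν g) (fun μ => ?_) (fun j => ?_) ?_ (vP _) ?_
    · by_cases hμ : μ = ν
      · rw [hμ, vn, vn', one_mul]; simp
      · rw [v_nn_other hC hν hμ]; simp [hμ]
    · fin_cases j
      · simp only [Fin.zero_eta]; rw [e₀, map_mul, vP, v0, mul_one]
      · simp only [Fin.mk_one]; rw [e₁, map_mul, vP, v1, mul_one]
    · rw [e₂, map_mul, vP, v2, mul_one]
    · rw [← D.hexp i ν g]
      fin_cases ν <;> simp
  by_cases hr : (ν = 0 ∨ ν = 2) ∧ g = D.z ν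
  · obtain ⟨hr, hz⟩ := hr
    have hπτ : π = V.valuation τ := by rw [hπ, hz, D.hz]
    have hτ1 : V.valuation τ < 1 := hπτ ▸ hg
    have hm := (D.chartU h ν).unif hE hτ1
    have hram : ∀ i, (∃ s ∈ A1 τ, D.t i ν = τ * s) →
        ld (η i) τ / PP (D.Pg ν) (D.mu i ν) ∈ V := by
      rintro i ⟨s', hs', e'⟩
      obtain ⟨s, hs, e⟩ := eta_tau h hη i ν
      have : ld (η i) τ / PP (D.Pg ν) (D.mu i ν) = s' + s := by
        have := h.ne_zero
        rw [ld, div_right_comm, e, e']; field_simp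
      rw [this]; exact hU (add_mem (hT hs') hs)
    have a0 := vT 0
    have a1 := vT 1
    rcases hr with rfl | rfl
    · simp only [hz, hπτ] at a0 a1
      refine good_ram hC D.hL (hl 0) (hl 1) (hd 0) (hd 1) h.ne_zero hτ1 hm (by simpa using a0)
        (by simpa using a1) (hram 1 D.ram0) hn' ?_
      rw [← vd, ← Valuation.map_neg]; congr 1; ring
    · simp only [hz, hπτ] at a0 a1
      refine (good_ram hC D.hL (hl 1) (hl 0) (hd 1) (hd 0) h.ne_zero hτ1 hm (by simpa using a1)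
        (by simpa using a0) (hram 0 D.ram2) hn' ?_).symm
      rw [← vd]; congr 1; ring
  · have a0 := vT 0
    have a1 := vT 1
    rw [if_neg (by tauto), pow_zero] at a0 a1
    exact good_unram hC (by have := D.hL; omega) (hl 0) (hl 1) (hd 0) (hd 1) a0 a1 hτ hn' vd

end Data

end Crest.Agent.H4.ZL
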